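import Vale.Agent.P371.BetaInt

/-!
# P371 : the Aizenman-Lieb argument, abstract form
-/

open MeasureTheory Set Finset

namespace Vale.Agent.P371

/-- The indices with `t < l j`. -/
noncomputable def lev {N : ℕ} (l : Fin N → ℝ) (t : ℝ) : Finset (Fin N) :=
  Finset.univ.filter fun j => t < l j

theorem lev_meas {N : ℕ} (l : Fin N → ℝ) (J : Finset (Fin N)) :
    MeasurableSet {t : ℝ | lev l t = J} := by
  have : {t : ℝ | lev l t = J} = ⋂ j : Fin N, (if j ∈ J then Set.Iio (l j) else Set.Ici (l j)) := by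
    ext t
    rw [Set.mem_iInter]
    constructor
    · intro h j
      have h' : lev l t = J := h
      by_cases hj : j ∈ J
      · rw [if_pos hj]
        rw [← h'] at hj
        exact (Finset.mem_filter.mp hj).2
      · rw [if_neg hj]
        rw [← h'] at hj
        by_contra hcon
        exact hj (Finset.mem_filter.mpr ⟨Finset.mem_univ _, lt_of_not_ge hcon⟩)
    · intro h
      show lev l t = J
      ext j
      have hj' := h j
      by_cases hj : j ∈ J
      · rw [if_pos hj] at hj'
        exact ⟨fun _ => hj, fun _ => Finset.mem_filter.mpr ⟨Finset.mem_univ _, hj'⟩⟩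
      · rw [if_neg hj] at hj'
        refine ⟨fun h2 => ?_, fun h2 => absurd h2 hj⟩
        exact absurd (Finset.mem_filter.mp h2).2 (not_lt.mpr hj')
  rw [this]
  refine MeasurableSet.iInter fun j => ?_
  split_ifs
  · exact measurableSet_Iio
  · exact measurableSet_Ici

/-- Indicator of `lev l t = J`. -/
noncomputable def ind {N : ℕ} (l : Fin N → ℝ) (J : Finset (Fin N)) (t : ℝ) : ℝ :=
  if lev l t = J then 1 else 0

theorem int_ind {N : ℕ} (l : Fin N → ℝ) (J : Finset (Fin N)) {s : ℝ} (hs : 0 < s) (a b : ℝ) :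
    IntervalIntegrable (fun t : ℝ => t ^ (s - 1) * ind l J t) volume a b := by
  have h := intervalIntegral.intervalIntegrable_rpow' (a := a) (b := b)
    (show -1 < s - 1 by linarith)
  have e : (fun t : ℝ => t ^ (s - 1) * ind l J t) =
      Set.indicator {t : ℝ | lev l t = J} (fun t : ℝ => t ^ (s - 1)) := by
    funext t
    unfold ind
    by_cases ht : lev l t = J
    · rw [if_pos ht, mul_one, Set.indicator_of_mem (by exact ht)]
    · rw [if_neg ht, mul_zero, Set.indicator_of_notMem (by exact ht)]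
  rw [e]
  exact ⟨h.1.indicator (lev_meas l J), h.2.indicator (lev_meas l J)⟩

theorem int_ind' {N : ℕ} (l : Fin N → ℝ) (J : Finset (Fin N)) {s : ℝ} (hs : 0 < s) (a b : ℝ) :
    IntervalIntegrable (fun t : ℝ => t ^ (s - 1) * (t * ind l J t)) volume a b := by
  have h := (int_ind l J hs a b).mul_continuousOn (g := fun t : ℝ => t) continuousOn_id
  have e : (fun t : ℝ => t ^ (s - 1) * (t * ind l J t)) =
      fun t : ℝ => t ^ (s - 1) * ind l J t * t := by funext t; ring
  rw [e]; exact h

theorem sum_ind {N : ℕ} (l : Fin N → ℝ) (t : ℝ) (f : Finset (Fin N) → ℝ) :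
    ∑ J, ind l J t * f J = f (lev l t) := by
  unfold ind
  simp

theorem al_core {N m : ℕ} (l : Fin N → ℝ) (hl : ∀ j, 0 < l j) {s T : ℝ} (hs : 0 < s)
    (hT : ∀ j, l j ≤ T) (hT0 : 0 ≤ T) (a b : Finset (Fin N) → ℝ → ℝ)
    (ha : ∀ J, Integrable (a J)) (hb : ∀ J, Integrable (b J))
    (h1 : ∀ J, ∑ j ∈ J, l j ≤ ∫ x, a J x) (h2 : ∀ J, ∫ x, b J x = J.card)
    (w : ℝ → Fin m → ℝ) (hw : ∀ x i, 0 ≤ w x i) {C : ℝ} (hC : 0 ≤ C)
    (h3 : ∀ J x t, 0 ≤ t → a J x - t * b J x ≤
      C * ∑ i, (max (w x i - t) 0) ^ (3 / 2 : ℝ)) :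
    ∃ G : ℝ → ℝ, Integrable G ∧ bet s 1 * ∑ j, (l j) ^ (s + 1) ≤ ∫ x, G x ∧
      ∀ x, G x ≤ C * (bet s (3 / 2) * ∑ i, (w x i) ^ (s + 3 / 2)) := by
  classical
  set c : Finset (Fin N) → ℝ := fun J => ∫ t in (0 : ℝ)..T, t ^ (s - 1) * ind l J t with hc
  set d : Finset (Fin N) → ℝ := fun J => ∫ t in (0 : ℝ)..T, t ^ (s - 1) * (t * ind l J t) with hd
  -- a general identity
  have key : ∀ α δ : Finset (Fin N) → ℝ,
      ∑ J, (c J * α J - d J * δ J) =
        ∫ t in (0 : ℝ)..T, t ^ (s - 1) * (α (lev l t) - t * δ (lev l t)) ∧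
      IntervalIntegrable (fun t => t ^ (s - 1) * (α (lev l t) - t * δ (lev l t))) volume 0 T := by
    intro α δ
    have e1 : ∀ t : ℝ, t ^ (s - 1) * (α (lev l t) - t * δ (lev l t)) =
        ∑ J, (t ^ (s - 1) * ind l J t * α J - t ^ (s - 1) * (t * ind l J t) * δ J) := by
      intro t
      have e2 := sum_ind l t α
      have e3 := sum_ind l t δ
      rw [← e2, ← e3, Finset.mul_sum, ← Finset.sum_sub_distrib, Finset.mul_sum]
      refine Finset.sum_congr rfl fun J _ => ?_
      ring
    have i1 : ∀ J ∈ (Finset.univ : Finset (Finset (Fin N))),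
        IntervalIntegrable (fun t => t ^ (s - 1) * ind l J t * α J -
          t ^ (s - 1) * (t * ind l J t) * δ J) volume 0 T := fun J _ =>
      ((int_ind l J hs 0 T).mul_const _).sub ((int_ind' l J hs 0 T).mul_const _)
    have e4 : (fun t => t ^ (s - 1) * (α (lev l t) - t * δ (lev l t))) =
        fun t => ∑ J, (t ^ (s - 1) * ind l J t * α J -
          t ^ (s - 1) * (t * ind l J t) * δ J) := funext e1
    constructor
    · rw [e4, intervalIntegral.integral_finsetSum i1]
      refine Finset.sum_congr rfl fun J _ => ?_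
      rw [intervalIntegral.integral_sub ((int_ind l J hs 0 T).mul_const _)
        ((int_ind' l J hs 0 T).mul_const _), intervalIntegral.integral_mul_const,
        intervalIntegral.integral_mul_const]
    · rw [e4]
      have := IntervalIntegrable.sum Finset.univ i1
      have e5 : (∑ J, fun t => t ^ (s - 1) * ind l J t * α J -
          t ^ (s - 1) * (t * ind l J t) * δ J) = fun t => ∑ J, (t ^ (s - 1) * ind l J t * α J -
          t ^ (s - 1) * (t * ind l J t) * δ J) := by
        funext t; simp only [Finset.sum_apply]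
      rwa [e5] at this
  refine ⟨fun x => ∑ J, (c J * a J x - d J * b J x), ?_, ?_, fun x => ?_⟩
  · exact integrable_finsetSum _ fun J _ => ((ha J).const_mul _).sub ((hb J).const_mul _)
  · have i2 : ∀ J ∈ (Finset.univ : Finset (Finset (Fin N))),
        Integrable (fun x => c J * a J x - d J * b J x) := fun J _ =>
      ((ha J).const_mul _).sub ((hb J).const_mul _)
    beta_reduce
    rw [integral_finsetSum _ i2]
    have e6 : ∀ J ∈ (Finset.univ : Finset (Finset (Fin N))),
        ∫ x, (c J * a J x - d J * b J x) = c J * (∫ x, a J x) - d J * ∫ x, b J x := fun J _ => by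
      rw [integral_sub ((ha J).const_mul _) ((hb J).const_mul _), integral_const_mul,
        integral_const_mul]
    rw [Finset.sum_congr rfl e6, (key (fun J => ∫ x, a J x) (fun J => ∫ x, b J x)).1]
    -- the left side
    have e7 : bet s 1 * ∑ j, (l j) ^ (s + 1) =
        ∫ t in (0 : ℝ)..T, ∑ j, t ^ (s - 1) * (max (l j - t) 0) ^ (1 : ℝ) := by
      rw [intervalIntegral.integral_finsetSum fun j _ => int_max hs (l j) zero_le_one 0 T,
        Finset.mul_sum]
      refine Finset.sum_congr rfl fun j _ => ?_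
      rw [beta_eq hs one_pos (hl j) (hT j), mul_comm]
    rw [e7]
    refine intervalIntegral.integral_mono_on hT0 ?_
      (key (fun J => ∫ x, a J x) (fun J => ∫ x, b J x)).2 fun t ht => ?_
    · have := IntervalIntegrable.sum Finset.univ
        fun j _ => int_max hs (l j) zero_le_one 0 T
      have e5 : (∑ j, fun t : ℝ => t ^ (s - 1) * (max (l j - t) 0) ^ (1 : ℝ)) =
          fun t : ℝ => ∑ j, t ^ (s - 1) * (max (l j - t) 0) ^ (1 : ℝ) := by
        funext t; simp only [Finset.sum_apply]
      rwa [e5] at this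
    · rw [← Finset.mul_sum]
      refine mul_le_mul_of_nonneg_left ?_ (Real.rpow_nonneg ht.1 _)
      have e8 : ∑ j, (max (l j - t) 0) ^ (1 : ℝ) = ∑ j ∈ lev l t, (l j - t) := by
        unfold lev
        rw [Finset.sum_filter]
        refine Finset.sum_congr rfl fun j _ => ?_
        rw [Real.rpow_one]
        split_ifs with h
        · rw [max_eq_left (by linarith)]
        · rw [max_eq_right (by linarith)]
      rw [e8, Finset.sum_sub_distrib, Finset.sum_const, nsmul_eq_mul, h2]
      have := h1 (lev l t)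
      linarith
  · beta_reduce
    rw [(key (fun J => a J x) (fun J => b J x)).1]
    have e9 : ∫ t in (0 : ℝ)..T, t ^ (s - 1) * (a (lev l t) x - t * b (lev l t) x) ≤
        ∫ t in (0 : ℝ)..T, C * ∑ i, t ^ (s - 1) * (max (w x i - t) 0) ^ (3 / 2 : ℝ) := by
      have hI : IntervalIntegrable (fun t : ℝ => ∑ i, t ^ (s - 1) *
          (max (w x i - t) 0) ^ (3 / 2 : ℝ)) volume 0 T := by
        have := IntervalIntegrable.sum Finset.univ
          fun i _ => int_max hs (w x i) (show (0 : ℝ) ≤ 3 / 2 by norm_num) 0 T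
        have e5 : (∑ i, fun t : ℝ => t ^ (s - 1) * (max (w x i - t) 0) ^ (3 / 2 : ℝ)) =
            fun t : ℝ => ∑ i, t ^ (s - 1) * (max (w x i - t) 0) ^ (3 / 2 : ℝ) := by
          funext t; simp only [Finset.sum_apply]
        rwa [e5] at this
      refine intervalIntegral.integral_mono_on hT0
        (key (fun J => a J x) (fun J => b J x)).2 (hI.const_mul C) fun t ht => ?_
      rw [← Finset.mul_sum, mul_left_comm]
      exact mul_le_mul_of_nonneg_left (h3 _ x t ht.1) (Real.rpow_nonneg ht.1 _)
    refine e9.trans ?_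
    rw [intervalIntegral.integral_const_mul,
      intervalIntegral.integral_finsetSum
        fun i _ => int_max hs (w x i) (show (0 : ℝ) ≤ 3 / 2 by norm_num) 0 T]
    refine mul_le_mul_of_nonneg_left ?_ hC
    rw [Finset.mul_sum]
    refine Finset.sum_le_sum fun i _ => ?_
    rw [mul_comm (bet s (3 / 2))]
    exact beta_le hs (by norm_num) (hw x i) hT0

end Vale.Agent.P371
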