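import Mathlib

/-!
# P371 : algebra behind the sub-solution

`symPow S P k = (L_S + R_S)^k P`.  For a real polynomial `k` put `kOp k S P = k(L_S+R_S) P` and
`V = 1/2 tr (P kOp)`.  Along `S' = P` one has
`V' = tr (kOp P') + kDD`, and `TT = - kDD - tr (P kOp^2)`.
-/

open Matrix Finset

namespace Vale.Agent.P371

variable {N : ℕ}

/-- `(L_S + R_S)^k P`. -/
noncomputable def symPow (S P : Matrix (Fin N) (Fin N) ℂ) (k : ℕ) : Matrix (Fin N) (Fin N) ℂ :=
  Nat.rec P (fun _ A => S * A + A * S) k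

lemma symPow_zero (S P : Matrix (Fin N) (Fin N) ℂ) : symPow S P 0 = P := rfl

lemma symPow_succ (S P : Matrix (Fin N) (Fin N) ℂ) (k : ℕ) :
    symPow S P (k + 1) = S * symPow S P k + symPow S P k * S := rfl

/-- `k (L_S + R_S) P`. -/
noncomputable def kOp (k : Polynomial ℝ) (S P : Matrix (Fin N) (Fin N) ℂ) :
    Matrix (Fin N) (Fin N) ℂ :=
  ∑ l ∈ range (k.natDegree + 1), ((k.coeff l : ℝ) : ℂ) • symPow S P l

/-- `∑_l a_l ∑_{i+j=l-1} tr (P A_i A_j)`, i.e. `∂_S V [P]`. -/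
noncomputable def kDD (k : Polynomial ℝ) (S P : Matrix (Fin N) (Fin N) ℂ) : ℂ :=
  ∑ l ∈ range (k.natDegree + 1), ((k.coeff l : ℝ) : ℂ) *
    ∑ i ∈ range l, trace (P * symPow S P i * symPow S P (l - 1 - i))

/-- `V = 1/2 tr (P k(L_S+R_S) P)`. -/
noncomputable def vFun (k : Polynomial ℝ) (S P : Matrix (Fin N) (Fin N) ℂ) : ℂ :=
  (1 / 2) * trace (P * kOp k S P)

/-- The Hamilton-Jacobi density `- ∂_S V [P] - tr (P X²)`, `X = k(L_S+R_S) P`. -/
noncomputable def TT (k : Polynomial ℝ) (S P : Matrix (Fin N) (Fin N) ℂ) : ℝ :=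
  - (kDD k S P).re - (trace (P * kOp k S P * kOp k S P)).re

/-- `κ(x) = (π/2) cot(πx/2)`. -/
noncomputable def kap (x : ℝ) : ℝ :=
  (Real.pi / 2) * (Real.cos (Real.pi * x / 2) / Real.sin (Real.pi * x / 2))

/-- The derivative of `κ`. -/
noncomputable def kapD (x : ℝ) : ℝ := - (Real.pi / 2) ^ 2 / Real.sin (Real.pi * x / 2) ^ 2

/-- Minus the divided difference of `κ`. -/
noncomputable def kapDD (x y : ℝ) : ℝ :=
  if x = y then - kapD x else - ((kap x - kap y) / (x - y))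

/-- The family `u_1, …, u_N : ℝ → ℂ^m` at a point as an `N × m` matrix. -/
def psiMat {m : ℕ} (u : Fin N → ℝ → EuclideanSpace ℂ (Fin m)) (x : ℝ) :
    Matrix (Fin N) (Fin m) ℂ := Matrix.of fun j a => u j x a

/-- Scalar primitives: `f` is a primitive of the locally integrable function `g`. -/
def IsPrim (f g : ℝ → ℂ) : Prop :=
  (∀ a b : ℝ, IntervalIntegrable g MeasureTheory.volume a b) ∧
    ∀ a b : ℝ, f b - f a = ∫ x in a..b, g x

end Vale.Agent.P371
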