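import Mathlib

/-!
# P371 : Beta integrals for the Aizenman-Lieb argument
-/

open MeasureTheory Set

namespace Vale.Agent.P371

/-- `Γ(s) Γ(q+1) / Γ(s+q+1)`. -/
noncomputable def bet (s q : ℝ) : ℝ :=
  Real.Gamma s * Real.Gamma (q + 1) / Real.Gamma (s + q + 1)

theorem bet_pos {s q : ℝ} (hs : 0 < s) (hq : 0 ≤ q) : 0 < bet s q := by
  unfold bet
  exact div_pos (mul_pos (Real.Gamma_pos_of_pos hs) (Real.Gamma_pos_of_pos (by linarith)))
    (Real.Gamma_pos_of_pos (by linarith))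

theorem beta_base {s q w : ℝ} (hs : 0 < s) (hq : 0 ≤ q) (hw : 0 < w) :
    ∫ t in (0 : ℝ)..w, t ^ (s - 1) * (w - t) ^ q = w ^ (s + q) * bet s q := by
  have h1 := Complex.betaIntegral_scaled (s : ℂ) ((q + 1 : ℝ) : ℂ) hw
  have h2 : ∫ t in (0 : ℝ)..w, (t : ℂ) ^ ((s : ℂ) - 1) * ((w : ℂ) - t) ^ (((q + 1 : ℝ) : ℂ) - 1) =
      ((∫ t in (0 : ℝ)..w, t ^ (s - 1) * (w - t) ^ q : ℝ) : ℂ) := by
    rw [← intervalIntegral.integral_ofReal]
    rw [intervalIntegral.integral_of_le hw.le, intervalIntegral.integral_of_le hw.le]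
    refine setIntegral_congr_fun measurableSet_Ioc fun t ht => ?_
    have e1 : (s : ℂ) - 1 = ((s - 1 : ℝ) : ℂ) := by push_cast; ring
    have e2 : ((q + 1 : ℝ) : ℂ) - 1 = ((q : ℝ) : ℂ) := by push_cast; ring
    have e3 : (w : ℂ) - t = ((w - t : ℝ) : ℂ) := by push_cast; ring
    rw [e1, e2, e3, ← Complex.ofReal_cpow ht.1.le, ← Complex.ofReal_cpow (by linarith [ht.2])]
    push_cast
    rfl
  rw [h2] at h1
  have h3 : Complex.betaIntegral (s : ℂ) ((q + 1 : ℝ) : ℂ) = ((bet s q : ℝ) : ℂ) := by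
    rw [Complex.betaIntegral_eq_Gamma_mul_div _ _ (by simpa using hs)
      (by rw [Complex.ofReal_re]; linarith)]
    unfold bet
    rw [← Complex.ofReal_add, Complex.Gamma_ofReal, Complex.Gamma_ofReal, Complex.Gamma_ofReal]
    push_cast
    rw [add_assoc]
  have h4 : (w : ℂ) ^ ((s : ℂ) + ((q + 1 : ℝ) : ℂ) - 1) = ((w ^ (s + q) : ℝ) : ℂ) := by
    rw [Complex.ofReal_cpow hw.le]
    congr 1
    push_cast
    ring
  rw [h3, h4] at h1
  exact_mod_cast h1

theorem cont_max (w : ℝ) {q : ℝ} (hq : 0 ≤ q) : Continuous fun t : ℝ => (max (w - t) 0) ^ q :=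
  ((continuous_const.sub continuous_id).max continuous_const).rpow_const fun _ => Or.inr hq

theorem int_max {s : ℝ} (hs : 0 < s) (w : ℝ) {q : ℝ} (hq : 0 ≤ q) (a b : ℝ) :
    IntervalIntegrable (fun t : ℝ => t ^ (s - 1) * (max (w - t) 0) ^ q) volume a b :=
  (intervalIntegral.intervalIntegrable_rpow' (by linarith)).mul_continuousOn
    (cont_max w hq).continuousOn

theorem max_nonneg' {s w q t : ℝ} (ht : 0 ≤ t) : 0 ≤ t ^ (s - 1) * (max (w - t) 0) ^ q :=
  mul_nonneg (Real.rpow_nonneg ht _) (Real.rpow_nonneg (le_max_right _ _) _)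

theorem base_max {s q w : ℝ} (hs : 0 < s) (hq : 0 ≤ q) (hw : 0 < w) :
    ∫ t in (0 : ℝ)..w, t ^ (s - 1) * (max (w - t) 0) ^ q = w ^ (s + q) * bet s q := by
  rw [← beta_base hs hq hw]
  rw [intervalIntegral.integral_of_le hw.le, intervalIntegral.integral_of_le hw.le]
  refine setIntegral_congr_fun measurableSet_Ioc fun t ht => ?_
  rw [max_eq_left (by linarith [ht.2])]

theorem beta_eq {s q w T : ℝ} (hs : 0 < s) (hq : 0 < q) (hw : 0 < w) (hT : w ≤ T) :
    ∫ t in (0 : ℝ)..T, t ^ (s - 1) * (max (w - t) 0) ^ q = w ^ (s + q) * bet s q := by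
  rw [← intervalIntegral.integral_add_adjacent_intervals (int_max hs w hq.le 0 w)
    (int_max hs w hq.le w T), base_max hs hq.le hw]
  have : ∫ t in w..T, t ^ (s - 1) * (max (w - t) 0) ^ q = 0 := by
    rw [intervalIntegral.integral_of_le hT]
    refine setIntegral_eq_zero_of_forall_eq_zero fun t ht => ?_
    rw [max_eq_right (by linarith [ht.1]), Real.zero_rpow hq.ne', mul_zero]
  rw [this, add_zero]

theorem beta_le {s q w T : ℝ} (hs : 0 < s) (hq : 0 < q) (hw : 0 ≤ w) (hT : 0 ≤ T) :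
    ∫ t in (0 : ℝ)..T, t ^ (s - 1) * (max (w - t) 0) ^ q ≤ w ^ (s + q) * bet s q := by
  rcases hw.eq_or_lt with rfl | hw
  · rw [Real.zero_rpow (by linarith), zero_mul]
    rw [intervalIntegral.integral_of_le hT]
    refine le_of_eq (setIntegral_eq_zero_of_forall_eq_zero fun t ht => ?_)
    rw [max_eq_right (by linarith [ht.1]), Real.zero_rpow hq.ne', mul_zero]
  · rcases le_total w T with h | h
    · exact (beta_eq hs hq hw h).le
    · rw [← base_max hs hq.le hw, ← intervalIntegral.integral_add_adjacent_intervals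
        (int_max hs w hq.le 0 T) (int_max hs w hq.le T w)]
      refine le_add_of_nonneg_right ?_
      refine intervalIntegral.integral_nonneg h fun t ht => max_nonneg' (hT.trans ht.1)

theorem gamma_five_half : Real.Gamma (3 / 2 + 1) = 3 / 4 * √Real.pi := by
  rw [Real.Gamma_add_one (by norm_num), show (3 / 2 : ℝ) = 1 / 2 + 1 by norm_num,
    Real.Gamma_add_one (by norm_num), Real.Gamma_one_half_eq]
  ring

end Vale.Agent.P371
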