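import Vale.Agent.P371.Defs

/-!
# P371 : values of the constants at `γ = 1`
-/

namespace Vale.Agent.P371

lemma Lcl_one : Lcl 1 = 2 / (3 * Real.pi) := by
  have h1 : Real.Gamma (1 + 1 : ℝ) = 1 := by
    rw [Real.Gamma_add_one (by norm_num)]; simp
  have h2 : Real.Gamma (1 + 3 / 2 : ℝ) = 3 / 4 * √Real.pi := by
    have e1 : (1 + 3 / 2 : ℝ) = 3 / 2 + 1 := by norm_num
    have e2 : (3 / 2 : ℝ) = 1 / 2 + 1 := by norm_num
    rw [e1, Real.Gamma_add_one (by norm_num), e2, Real.Gamma_add_one (by norm_num),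
      Real.Gamma_one_half_eq]
    ring
  unfold Lcl
  rw [h1, h2]
  have hpi : √Real.pi * √Real.pi = Real.pi := Real.mul_self_sqrt Real.pi_pos.le
  have h3 : √Real.pi ≠ 0 := (Real.sqrt_pos.mpr Real.pi_pos).ne'
  have h4 : Real.pi ≠ 0 := Real.pi_ne_zero
  field_simp
  nlinarith [hpi]

lemma Lone_one : Lone 1 = 4 / (3 * √3 * Real.pi) := by
  unfold Lone
  rw [Lcl_one]
  have h1 : ((1 - 1 / 2 : ℝ) / (1 + 1 / 2)) = 1 / 3 := by norm_num
  have h2 : (1 - 1 / 2 : ℝ) = 1 / 2 := by norm_num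
  rw [h1, h2, ← Real.sqrt_eq_rpow, Real.sqrt_div (by norm_num), Real.sqrt_one]
  have h3 : √(3 : ℝ) ≠ 0 := by positivity
  have h4 : Real.pi ≠ 0 := Real.pi_ne_zero
  field_simp
  norm_num

lemma two_div_sqrt_three : 2 / √3 * Lcl 1 = 4 / (3 * √3 * Real.pi) := by
  rw [Lcl_one]
  have h3 : √(3 : ℝ) ≠ 0 := by positivity
  have h4 : Real.pi ≠ 0 := Real.pi_ne_zero
  field_simp
  norm_num

end Vale.Agent.P371
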