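import Mathlib

/-!
# P371 : definitions (vector valued Sobolev functions, potentials, Lieb-Thirring constants)
-/

open MeasureTheory
open scoped ENNReal ComplexOrder

namespace Vale.Agent.P371

/-- The channel space `ℂ^m` with its Euclidean norm. -/
abbrev Vec (m : ℕ) := EuclideanSpace ℂ (Fin m)

/-- `u ∈ H¹(ℝ; ℂ^m)` with weak derivative `u'` (`u` is the continuous representative). -/
structure IsH1 {m : ℕ} (u u' : ℝ → Vec m) : Prop where
  memLp : MemLp u 2 volume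
  memLp_deriv : MemLp u' 2 volume
  sub_eq : ∀ a b : ℝ, u b - u a = ∫ x in a..b, u' x

/-- The unnormalised trace of the `p`-th power of a Hermitian matrix: the sum of the `p`-th powers
of its eigenvalues (counted with multiplicity). -/
noncomputable def trPow {m : ℕ} (A : Matrix (Fin m) (Fin m) ℂ) (p : ℝ) : ℝ :=
  open scoped Classical in
  if h : A.IsHermitian then ∑ i, (h.eigenvalues i) ^ p else 0

/-- The sesquilinear form `⟨v, A w⟩` of a matrix. -/
noncomputable def pairing {m : ℕ} (A : Matrix (Fin m) (Fin m) ℂ) (v w : Vec m) : ℂ :=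
  ∑ a, ∑ b, (starRingEnd ℂ) (v a) * A a b * w b

/-- `∫ tr (W(x)^p) dx` as an extended nonnegative real. -/
noncomputable def potInt {m : ℕ} (W : ℝ → Matrix (Fin m) (Fin m) ℂ) (p : ℝ) : ℝ≥0∞ :=
  ∫⁻ x, ENNReal.ofReal (trPow (W x) p)

/-- Potentials for the exponent `γ`: measurable, Hermitian positive semidefinite, with
`∫ tr (W^(γ+1/2)) < ∞`. -/
structure IsPotential {m : ℕ} (γ : ℝ) (W : ℝ → Matrix (Fin m) (Fin m) ℂ) : Prop where
  measurable : ∀ a b, Measurable fun x => W x a b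
  posSemidef : ∀ x, (W x).PosSemidef
  finite : potInt W (γ + 1 / 2) ≠ ∞

/-- `u` is an eigenfunction of `H_W = -d²/dx² - W` with eigenvalue `lam`
(in the sense of the form on `H¹`; `u = 0` is not excluded here, see `IsONEigen`). -/
def IsEigen {m : ℕ} (W : ℝ → Matrix (Fin m) (Fin m) ℂ) (lam : ℝ) (u : ℝ → Vec m) : Prop :=
  ∃ u' : ℝ → Vec m, IsH1 u u' ∧ ∀ φ φ' : ℝ → Vec m, IsH1 φ φ' →
    (∫ x, inner ℂ (φ' x) (u' x)) - (∫ x, pairing (W x) (φ x) (u x)) =
      (lam : ℂ) * ∫ x, inner ℂ (φ x) (u x)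

/-- `u_1, …, u_N` is an orthonormal family of eigenfunctions of `H_W` with negative
eigenvalues `lam_1, …, lam_N`. -/
def IsONEigen {m : ℕ} (W : ℝ → Matrix (Fin m) (Fin m) ℂ) {N : ℕ} (lam : Fin N → ℝ)
    (u : Fin N → ℝ → Vec m) : Prop :=
  (∀ j, lam j < 0) ∧ (∀ j, IsEigen W (lam j) (u j)) ∧
    ∀ i j, ∫ x, inner ℂ (u i x) (u j x) = if i = j then (1 : ℂ) else 0

/-- `Tr (H_W)_-^γ = ∑_j |λ_j|^γ`, the sum over the negative eigenvalues counted with multiplicity,
written as the supremum of the sums over finite orthonormal families of eigenfunctions. -/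
noncomputable def negMoment {m : ℕ} (γ : ℝ) (W : ℝ → Matrix (Fin m) (Fin m) ℂ) : ℝ≥0∞ :=
  ⨆ (N : ℕ) (lam : Fin N → ℝ) (u : Fin N → ℝ → Vec m) (_ : IsONEigen W lam u),
    ∑ j, ENNReal.ofReal (|lam j| ^ γ)

/-- The sharp Lieb-Thirring constant `L_γ(m)`. -/
noncomputable def LT (γ : ℝ) (m : ℕ) : ℝ≥0∞ :=
  ⨆ (W : ℝ → Matrix (Fin m) (Fin m) ℂ) (_ : IsPotential γ W) (_ : potInt W (γ + 1 / 2) ≠ 0),
    negMoment γ W / potInt W (γ + 1 / 2)

/-- The semiclassical constant. -/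
noncomputable def Lcl (γ : ℝ) : ℝ := Real.Gamma (γ + 1) / (2 * √Real.pi * Real.Gamma (γ + 3 / 2))

/-- The (known) value of the one-bound-state constant. -/
noncomputable def Lone (γ : ℝ) : ℝ := 2 * ((γ - 1 / 2) / (γ + 1 / 2)) ^ (γ - 1 / 2) * Lcl γ

end Vale.Agent.P371
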