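import Vale.Agent.P371.Alg

/-!
# P371 task C : the local energy inequality
-/

open Matrix Finset MeasureTheory

namespace Vale.Agent.P371

variable {N m : ℕ}

/-! ### Primitives -/

/-- Real primitives. -/
def IsPrimR (f g : ℝ → ℝ) : Prop :=
  (∀ a b : ℝ, IntervalIntegrable g volume a b) ∧ ∀ a b : ℝ, f b - f a = ∫ x in a..b, g x

theorem IsPrimR.eq {f g : ℝ → ℝ} (h : IsPrimR f g) (a x : ℝ) : f x = f a + ∫ t in a..x, g t := by
  have := h.2 a x; linarith

theorem IsPrimR.ac {f g : ℝ → ℝ} (h : IsPrimR f g) (a b : ℝ) :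
    AbsolutelyContinuousOnInterval f a b := by
  have h1 := (h.1 a b).absolutelyContinuousOnInterval_intervalIntegral (c := a)
    Set.left_mem_uIcc
  have h2 : AbsolutelyContinuousOnInterval (fun _ : ℝ => f a) a b :=
    (LipschitzWith.const (f a)).lipschitzOnWith.absolutelyContinuousOnInterval
  have h3 : f = fun x => f a + ∫ t in a..x, g t := funext fun x => h.eq a x
  rw [h3]
  exact h2.add h1

theorem IsPrimR.ae_deriv {f g : ℝ → ℝ} (h : IsPrimR f g) (a b : ℝ) :
    ∀ᵐ x, x ∈ Set.uIcc a b → deriv f x = g x := by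
  filter_upwards [(h.1 a b).ae_hasDerivAt_integral] with x hx hx'
  have h1 := hx hx' a Set.left_mem_uIcc
  have h3 : f = fun x => f a + ∫ t in a..x, g t := funext fun x => h.eq a x
  rw [h3]
  exact (h1.const_add (f a)).deriv

theorem IsPrimR.continuous {f g : ℝ → ℝ} (h : IsPrimR f g) : Continuous f := by
  have h3 : f = fun x => f 0 + ∫ t in (0 : ℝ)..x, g t := funext fun x => h.eq 0 x
  rw [h3]
  exact continuous_const.add (intervalIntegral.continuous_primitive h.1 0)

theorem IsPrimR.mul {f g F G : ℝ → ℝ} (h : IsPrimR f g) (H : IsPrimR F G) :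
    IsPrimR (fun x => f x * F x) (fun x => g x * F x + f x * G x) := by
  refine ⟨fun a b => ((h.1 a b).mul_continuousOn H.continuous.continuousOn).add
    ((H.1 a b).continuousOn_mul h.continuous.continuousOn), fun a b => ?_⟩
  rw [← (h.ac a b).integral_deriv_mul_eq_sub (H.ac a b)]
  refine intervalIntegral.integral_congr_ae ?_
  filter_upwards [h.ae_deriv a b, H.ae_deriv a b] with x h1 h2 hx
  have hx' : x ∈ Set.uIcc a b := Set.uIoc_subset_uIcc hx
  rw [h1 hx', h2 hx']

theorem IsPrimR.sub {f g F G : ℝ → ℝ} (h : IsPrimR f g) (H : IsPrimR F G) :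
    IsPrimR (fun x => f x - F x) (fun x => g x - G x) := by
  refine ⟨fun a b => (h.1 a b).sub (H.1 a b), fun a b => ?_⟩
  rw [intervalIntegral.integral_sub (h.1 a b) (H.1 a b), ← h.2, ← H.2]
  ring

theorem IsPrimR.add {f g F G : ℝ → ℝ} (h : IsPrimR f g) (H : IsPrimR F G) :
    IsPrimR (fun x => f x + F x) (fun x => g x + G x) := by
  refine ⟨fun a b => (h.1 a b).add (H.1 a b), fun a b => ?_⟩
  rw [intervalIntegral.integral_add (h.1 a b) (H.1 a b), ← h.2, ← H.2]
  ring

theorem IsPrim.re {f g : ℝ → ℂ} (h : IsPrim f g) :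
    IsPrimR (fun x => (f x).re) (fun x => (g x).re) := by
  refine ⟨fun a b => ?_, fun a b => ?_⟩
  · exact ⟨(h.1 a b).1.re, (h.1 a b).2.re⟩
  · have h1 : ∫ x in a..b, (g x).re = (∫ x in a..b, g x).re :=
      (Complex.reCLM.intervalIntegral_comp_comm (h.1 a b))
    rw [h1, ← h.2, Complex.sub_re]

theorem IsPrim.im {f g : ℝ → ℂ} (h : IsPrim f g) :
    IsPrimR (fun x => (f x).im) (fun x => (g x).im) := by
  refine ⟨fun a b => ?_, fun a b => ?_⟩
  · exact ⟨(h.1 a b).1.im, (h.1 a b).2.im⟩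
  · have h1 : ∫ x in a..b, (g x).im = (∫ x in a..b, g x).im :=
      (Complex.imCLM.intervalIntegral_comp_comm (h.1 a b))
    rw [h1, ← h.2, Complex.sub_im]

theorem IsPrim.of_re_im {f g : ℝ → ℂ} (h1 : IsPrimR (fun x => (f x).re) (fun x => (g x).re))
    (h2 : IsPrimR (fun x => (f x).im) (fun x => (g x).im)) : IsPrim f g := by
  have hg : g = fun x => ((g x).re : ℂ) + ((g x).im : ℂ) * Complex.I :=
    funext fun x => (Complex.re_add_im (g x)).symm
  have i1 : ∀ a b : ℝ, IntervalIntegrable (fun x => ((g x).re : ℂ)) volume a b := fun a b =>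
    ⟨(h1.1 a b).1.ofReal, (h1.1 a b).2.ofReal⟩
  have i3 : ∀ a b : ℝ, IntervalIntegrable (fun x => ((g x).im : ℂ)) volume a b := fun a b =>
    ⟨(h2.1 a b).1.ofReal, (h2.1 a b).2.ofReal⟩
  have i2 : ∀ a b : ℝ, IntervalIntegrable (fun x => ((g x).im : ℂ) * Complex.I) volume a b :=
    fun a b => (i3 a b).mul_const Complex.I
  have hi : ∀ a b : ℝ, IntervalIntegrable g volume a b := fun a b => by
    rw [hg]; exact (i1 a b).add (i2 a b)
  refine ⟨hi, fun a b => ?_⟩
  apply Complex.ext
  · have h3 : ∫ x in a..b, (g x).re = (∫ x in a..b, g x).re :=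
      (Complex.reCLM.intervalIntegral_comp_comm (hi a b))
    rw [← h3, ← h1.2, Complex.sub_re]
  · have h3 : ∫ x in a..b, (g x).im = (∫ x in a..b, g x).im :=
      (Complex.imCLM.intervalIntegral_comp_comm (hi a b))
    rw [← h3, ← h2.2, Complex.sub_im]

theorem IsPrim.mul {f g F G : ℝ → ℂ} (h : IsPrim f g) (H : IsPrim F G) :
    IsPrim (fun x => f x * F x) (fun x => g x * F x + f x * G x) := by
  refine IsPrim.of_re_im ?_ ?_
  · have h1 := (h.re.mul H.re).sub (h.im.mul H.im)
    have e1 : (fun x => (f x * F x).re) =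
        fun x => (f x).re * (F x).re - (f x).im * (F x).im := by
      funext x; rw [Complex.mul_re]
    have e2 : (fun x => (g x * F x + f x * G x).re) = fun x =>
        ((g x).re * (F x).re + (f x).re * (G x).re) -
          ((g x).im * (F x).im + (f x).im * (G x).im) := by
      funext x; rw [Complex.add_re, Complex.mul_re, Complex.mul_re]; ring
    rw [e1, e2]; exact h1
  · have h1 := (h.re.mul H.im).add (h.im.mul H.re)
    have e1 : (fun x => (f x * F x).im) =
        fun x => (f x).re * (F x).im + (f x).im * (F x).re := by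
      funext x; rw [Complex.mul_im]
    have e2 : (fun x => (g x * F x + f x * G x).im) = fun x =>
        ((g x).re * (F x).im + (f x).re * (G x).im) +
          ((g x).im * (F x).re + (f x).im * (G x).re) := by
      funext x; rw [Complex.add_im, Complex.mul_im, Complex.mul_im]; ring
    rw [e1, e2]; exact h1

theorem IsPrim.continuous {f g : ℝ → ℂ} (h : IsPrim f g) : Continuous f := by
  have h3 : f = fun x => f 0 + ∫ t in (0 : ℝ)..x, g t := funext fun x => by
    rw [← h.2]; ring
  rw [h3]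
  exact continuous_const.add (intervalIntegral.continuous_primitive h.1 0)

theorem IsPrim.add {f g F G : ℝ → ℂ} (h : IsPrim f g) (H : IsPrim F G) :
    IsPrim (fun x => f x + F x) (fun x => g x + G x) := by
  refine ⟨fun a b => (h.1 a b).add (H.1 a b), fun a b => ?_⟩
  rw [intervalIntegral.integral_add (h.1 a b) (H.1 a b), ← h.2, ← H.2]
  ring

theorem IsPrim.const_mul {f g : ℝ → ℂ} (h : IsPrim f g) (c : ℂ) :
    IsPrim (fun x => c * f x) (fun x => c * g x) := by
  refine ⟨fun a b => (h.1 a b).const_mul c, fun a b => ?_⟩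
  rw [intervalIntegral.integral_const_mul, ← h.2]
  ring

theorem IsPrim.zero : IsPrim (fun _ => 0) (fun _ => 0) := by
  refine ⟨fun a b => intervalIntegrable_const, fun a b => ?_⟩
  simp

theorem IsPrim.sum {ι : Type*} (s : Finset ι) {f g : ι → ℝ → ℂ}
    (h : ∀ i ∈ s, IsPrim (f i) (g i)) :
    IsPrim (fun x => ∑ i ∈ s, f i x) (fun x => ∑ i ∈ s, g i x) := by
  classical
  induction s using Finset.induction_on with
  | empty => simpa using IsPrim.zero
  | insert a s ha ih =>
    have h1 := (h a (Finset.mem_insert_self a s)).add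
      (ih fun i hi => h i (Finset.mem_insert_of_mem hi))
    simpa only [Finset.sum_insert ha] using h1

theorem IsPrim.conj {f g : ℝ → ℂ} (h : IsPrim f g) :
    IsPrim (fun x => star (f x)) (fun x => star (g x)) := by
  refine ⟨fun a b => ⟨?_, ?_⟩, fun a b => ?_⟩
  · exact (Complex.conjCLE : ℂ →L[ℝ] ℂ).integrable_comp (h.1 a b).1
  · exact (Complex.conjCLE : ℂ →L[ℝ] ℂ).integrable_comp (h.1 a b).2
  · have h1 : ∫ x in a..b, star (g x) = star (∫ x in a..b, g x) :=
      (Complex.conjCLE : ℂ →L[ℝ] ℂ).intervalIntegral_comp_comm (h.1 a b)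
    rw [h1, ← h.2, star_sub]

/-! ### Matrix primitives -/

/-- Entrywise primitives. -/
def HasMPrim {α β : Type*} (A A' : ℝ → Matrix α β ℂ) : Prop :=
  ∀ i j, IsPrim (fun x => A x i j) (fun x => A' x i j)

theorem HasMPrim.add {α β : Type*} {A A' B B' : ℝ → Matrix α β ℂ} (hA : HasMPrim A A')
    (hB : HasMPrim B B') : HasMPrim (fun x => A x + B x) (fun x => A' x + B' x) :=
  fun i j => (hA i j).add (hB i j)

theorem HasMPrim.smul {α β : Type*} {A A' : ℝ → Matrix α β ℂ} (hA : HasMPrim A A') (c : ℂ) :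
    HasMPrim (fun x => c • A x) (fun x => c • A' x) :=
  fun i j => (hA i j).const_mul c

theorem HasMPrim.mul {α β γ : Type*} [Fintype β] {A A' : ℝ → Matrix α β ℂ}
    {B B' : ℝ → Matrix β γ ℂ} (hA : HasMPrim A A') (hB : HasMPrim B B') :
    HasMPrim (fun x => A x * B x) (fun x => A' x * B x + A x * B' x) := by
  intro i j
  have h := IsPrim.sum Finset.univ (f := fun l x => A x i l * B x l j)
    (g := fun l x => A' x i l * B x l j + A x i l * B' x l j)
    fun l _ => (hA i l).mul (hB l j)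
  have e1 : (fun x => (A x * B x) i j) = fun x => ∑ l, A x i l * B x l j := by
    funext x; rw [Matrix.mul_apply]
  have e2 : (fun x => (A' x * B x + A x * B' x) i j) =
      fun x => ∑ l, (A' x i l * B x l j + A x i l * B' x l j) := by
    funext x
    rw [Matrix.add_apply, Matrix.mul_apply, Matrix.mul_apply, Finset.sum_add_distrib]
  rw [e1, e2]; exact h

theorem HasMPrim.star {α β : Type*} {A A' : ℝ → Matrix α β ℂ} (hA : HasMPrim A A') :
    HasMPrim (fun x => (A x)ᴴ) (fun x => (A' x)ᴴ) :=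
  fun i j => (hA j i).conj

theorem HasMPrim.trace {α : Type*} [Fintype α] {A A' : ℝ → Matrix α α ℂ} (hA : HasMPrim A A') :
    IsPrim (fun x => (A x).trace) (fun x => (A' x).trace) :=
  IsPrim.sum Finset.univ fun i _ => hA i i

theorem HasMPrim.continuous {α β : Type*} {A A' : ℝ → Matrix α β ℂ} (hA : HasMPrim A A') :
    Continuous A := continuous_matrix fun i j => (hA i j).continuous

/-! ### Algebra -/

theorem symPow_comm (S B : Matrix (Fin N) (Fin N) ℂ) (l : ℕ) :
    symPow S (S * B + B * S) l = symPow S B (l + 1) := by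
  induction l with
  | zero => rfl
  | succ l ih =>
    show S * symPow S (S * B + B * S) l + symPow S (S * B + B * S) l * S = _
    rw [ih]; rfl

/-- Derivative of `symPow` along `S' = P`. -/
noncomputable def symPowD (S P P' : Matrix (Fin N) (Fin N) ℂ) : ℕ → Matrix (Fin N) (Fin N) ℂ
  | 0 => P'
  | (l + 1) => (P * symPow S P l + S * symPowD S P P' l) +
      (symPowD S P P' l * S + symPow S P l * P)

theorem trace_symPowD (S P P' : Matrix (Fin N) (Fin N) ℂ) (l : ℕ) :
    ∀ B : Matrix (Fin N) (Fin N) ℂ, trace (B * symPowD S P P' l) =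
      trace (symPow S B l * P') + ∑ i ∈ range l,
        trace (symPow S B i * (P * symPow S P (l - 1 - i) + symPow S P (l - 1 - i) * P)) := by
  induction l with
  | zero => intro B; simp [symPowD, symPow_zero]
  | succ l ih =>
    intro B
    have h1 : trace (B * symPowD S P P' (l + 1)) =
        trace (B * (P * symPow S P l + symPow S P l * P)) +
          trace ((S * B + B * S) * symPowD S P P' l) := by
      show trace (B * ((P * symPow S P l + S * symPowD S P P' l) +
        (symPowD S P P' l * S + symPow S P l * P))) = _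
      rw [Matrix.add_mul, Matrix.trace_add, Matrix.mul_add, Matrix.mul_add, Matrix.mul_add,
        Matrix.mul_add, Matrix.trace_add, Matrix.trace_add, Matrix.trace_add, Matrix.trace_add]
      have e1 : trace (B * (symPowD S P P' l * S)) = trace (S * B * symPowD S P P' l) := by
        rw [← Matrix.mul_assoc, Matrix.trace_mul_comm, ← Matrix.mul_assoc]
      have e2 : trace (B * (S * symPowD S P P' l)) = trace (B * S * symPowD S P P' l) := by
        rw [Matrix.mul_assoc]
      rw [e1, e2]; ring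
    rw [h1, ih (S * B + B * S), Finset.sum_range_succ', symPow_comm]
    have h2 : ∑ i ∈ range l, trace (symPow S (S * B + B * S) i *
        (P * symPow S P (l - 1 - i) + symPow S P (l - 1 - i) * P)) =
        ∑ i ∈ range l, trace (symPow S B (i + 1) *
          (P * symPow S P (l + 1 - 1 - (i + 1)) + symPow S P (l + 1 - 1 - (i + 1)) * P)) := by
      refine Finset.sum_congr rfl fun i _ => ?_
      rw [symPow_comm]
      have : l - 1 - i = l + 1 - 1 - (i + 1) := by omega
      rw [this]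
    rw [h2]
    have h3 : trace (B * (P * symPow S P l + symPow S P l * P)) =
        trace (symPow S B 0 * (P * symPow S P (l + 1 - 1 - 0) +
          symPow S P (l + 1 - 1 - 0) * P)) := rfl
    rw [h3]; ring

theorem sum_reflect_sub (l : ℕ) (f : ℕ → ℂ) :
    ∑ i ∈ range l, f (l - 1 - i) = ∑ i ∈ range l, f i := Finset.sum_range_reflect f l

theorem trace_deriv (S P P' : Matrix (Fin N) (Fin N) ℂ) (l : ℕ) :
    trace (P' * symPow S P l + P * symPowD S P P' l) =
      2 * (trace (symPow S P l * P') +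
        ∑ i ∈ range l, trace (P * symPow S P i * symPow S P (l - 1 - i))) := by
  rw [Matrix.trace_add, trace_symPowD, Matrix.trace_mul_comm P']
  have h1 : ∀ i ∈ range l, trace (symPow S P i * (P * symPow S P (l - 1 - i) +
      symPow S P (l - 1 - i) * P)) =
      trace (P * symPow S P (l - 1 - i) * symPow S P (l - 1 - (l - 1 - i))) +
        trace (P * symPow S P i * symPow S P (l - 1 - i)) := by
    intro i hi
    rw [Finset.mem_range] at hi
    have e0 : l - 1 - (l - 1 - i) = i := by omega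
    rw [e0, Matrix.mul_add, Matrix.trace_add]
    congr 1
    · rw [Matrix.trace_mul_comm]
    · rw [← Matrix.mul_assoc, Matrix.trace_mul_comm, ← Matrix.mul_assoc]
  rw [Finset.sum_congr rfl h1, Finset.sum_add_distrib,
    sum_reflect_sub l fun i => trace (P * symPow S P i * symPow S P (l - 1 - i))]
  ring

theorem symPow_herm {S P : Matrix (Fin N) (Fin N) ℂ} (hS : S.IsHermitian) (hP : P.IsHermitian)
    (l : ℕ) : (symPow S P l).IsHermitian := by
  induction l with
  | zero => exact hP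
  | succ l ih =>
    show (S * symPow S P l + symPow S P l * S)ᴴ = S * symPow S P l + symPow S P l * S
    rw [Matrix.conjTranspose_add, Matrix.conjTranspose_mul, Matrix.conjTranspose_mul, ih.eq,
      hS.eq, add_comm]

theorem kOp_herm (k : Polynomial ℝ) {S P : Matrix (Fin N) (Fin N) ℂ} (hS : S.IsHermitian)
    (hP : P.IsHermitian) : (kOp k S P).IsHermitian := by
  unfold kOp Matrix.IsHermitian
  rw [Matrix.conjTranspose_sum]
  refine Finset.sum_congr rfl fun l _ => ?_
  rw [Matrix.conjTranspose_smul, (symPow_herm hS hP l).eq]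
  congr 1
  exact Complex.conj_ofReal _

/-- `∑ |B_{ja}|² = Re tr (Bᴴ B)`. -/
theorem sum_norm_sq {α β : Type*} [Fintype α] [Fintype β] (B : Matrix α β ℂ) :
    ∑ j, ∑ a, ‖B j a‖ ^ 2 = (trace (Bᴴ * B)).re := by
  unfold Matrix.trace
  rw [Finset.sum_comm]
  simp only [Matrix.diag_apply, Matrix.mul_apply, Matrix.conjTranspose_apply, Complex.re_sum]
  refine Finset.sum_congr rfl fun a _ => Finset.sum_congr rfl fun j _ => ?_
  rw [Complex.star_def, ← Complex.normSq_eq_conj_mul_self, Complex.ofReal_re,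
    Complex.normSq_eq_norm_sq]

theorem pointwise_energy {X : Matrix (Fin N) (Fin N) ℂ} (hX : X.IsHermitian)
    (Ψ Ψ' : Matrix (Fin N) (Fin m) ℂ) :
    (trace (X * (Ψ' * Ψᴴ + Ψ * Ψ'ᴴ))).re - (trace (Ψ * Ψᴴ * X * X)).re ≤
      ∑ j, ∑ a, ‖Ψ' j a‖ ^ 2 := by
  have h0 : 0 ≤ ∑ j, ∑ a, ‖(Ψ' - X * Ψ) j a‖ ^ 2 :=
    Finset.sum_nonneg fun j _ => Finset.sum_nonneg fun a _ => sq_nonneg _
  rw [sum_norm_sq] at h0 ⊢
  have h1 : trace ((Ψ' - X * Ψ)ᴴ * (Ψ' - X * Ψ)) = trace (Ψ'ᴴ * Ψ') -
      trace (X * (Ψ' * Ψᴴ + Ψ * Ψ'ᴴ)) + trace (Ψ * Ψᴴ * X * X) := by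
    rw [Matrix.conjTranspose_sub, Matrix.conjTranspose_mul, hX.eq, Matrix.sub_mul,
      Matrix.mul_sub, Matrix.mul_sub, Matrix.trace_sub, Matrix.trace_sub, Matrix.trace_sub,
      Matrix.mul_add, Matrix.trace_add]
    have e1 : trace (Ψ'ᴴ * (X * Ψ)) = trace (X * (Ψ * Ψ'ᴴ)) := by
      rw [Matrix.trace_mul_comm, Matrix.mul_assoc]
    have e2 : trace (Ψᴴ * X * Ψ') = trace (X * (Ψ' * Ψᴴ)) := by
      rw [Matrix.mul_assoc, Matrix.trace_mul_comm, Matrix.mul_assoc]
    have e3 : trace (Ψᴴ * X * (X * Ψ)) = trace (Ψ * Ψᴴ * X * X) := by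
      rw [← Matrix.mul_assoc, Matrix.trace_mul_comm, Matrix.mul_assoc Ψᴴ, Matrix.mul_assoc,
        ← Matrix.mul_assoc Ψ]
    rw [e1, e2, e3]; ring
  rw [h1, Complex.add_re, Complex.sub_re] at h0
  linarith

/-! ### The derivative of `V` -/

/-- The derivative of `V`. -/
noncomputable def vD (k : Polynomial ℝ) (S P P' : Matrix (Fin N) (Fin N) ℂ) : ℂ :=
  trace (kOp k S P * P') + kDD k S P

theorem symPow_prim {S P P' : ℝ → Matrix (Fin N) (Fin N) ℂ} (hS : HasMPrim S P)
    (hP : HasMPrim P P') (l : ℕ) :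
    HasMPrim (fun x => symPow (S x) (P x) l) (fun x => symPowD (S x) (P x) (P' x) l) := by
  induction l with
  | zero => exact hP
  | succ l ih => exact (hS.mul ih).add (ih.mul hS)

theorem vFun_prim (k : Polynomial ℝ) {S P P' : ℝ → Matrix (Fin N) (Fin N) ℂ}
    (hS : HasMPrim S P) (hP : HasMPrim P P') :
    IsPrim (fun x => vFun k (S x) (P x)) (fun x => vD k (S x) (P x) (P' x)) := by
  have h1 := IsPrim.sum (range (k.natDegree + 1))
    (f := fun l x => ((1 / 2 : ℂ) * ((k.coeff l : ℝ) : ℂ)) *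
      trace (P x * symPow (S x) (P x) l))
    (g := fun l x => ((1 / 2 : ℂ) * ((k.coeff l : ℝ) : ℂ)) *
      trace (P' x * symPow (S x) (P x) l + P x * symPowD (S x) (P x) (P' x) l))
    fun l _ => ((hP.mul (symPow_prim hS hP l)).trace).const_mul _
  have e1 : (fun x => vFun k (S x) (P x)) = fun x => ∑ l ∈ range (k.natDegree + 1),
      ((1 / 2 : ℂ) * ((k.coeff l : ℝ) : ℂ)) * trace (P x * symPow (S x) (P x) l) := by
    funext x
    unfold vFun kOp
    rw [Finset.mul_sum, Matrix.trace_sum, Finset.mul_sum]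
    refine Finset.sum_congr rfl fun l _ => ?_
    rw [Matrix.mul_smul, Matrix.trace_smul, smul_eq_mul, mul_assoc]
  have e2 : (fun x => vD k (S x) (P x) (P' x)) = fun x => ∑ l ∈ range (k.natDegree + 1),
      ((1 / 2 : ℂ) * ((k.coeff l : ℝ) : ℂ)) *
      trace (P' x * symPow (S x) (P x) l + P x * symPowD (S x) (P x) (P' x) l) := by
    funext x
    unfold vD kOp kDD
    rw [Finset.sum_mul, Matrix.trace_sum, ← Finset.sum_add_distrib]
    refine Finset.sum_congr rfl fun l _ => ?_
    rw [trace_deriv, Matrix.smul_mul, Matrix.trace_smul, smul_eq_mul]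
    ring
  rw [e1, e2]; exact h1

theorem symPow_cont {S P : ℝ → Matrix (Fin N) (Fin N) ℂ} (hS : Continuous S)
    (hP : Continuous P) (l : ℕ) : Continuous fun x => symPow (S x) (P x) l := by
  induction l with
  | zero => exact hP
  | succ l ih => exact (hS.matrix_mul ih).add (ih.matrix_mul hS)

theorem TT_cont (k : Polynomial ℝ) {S P : ℝ → Matrix (Fin N) (Fin N) ℂ} (hS : Continuous S)
    (hP : Continuous P) : Continuous fun x => TT k (S x) (P x) := by
  have h1 : Continuous fun x => kOp k (S x) (P x) := by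
    unfold kOp
    refine continuous_finsetSum _ fun l _ => ?_
    have h := (symPow_cont hS hP l).const_smul ((k.coeff l : ℝ) : ℂ)
    exact h
  have h2 : Continuous fun x => kDD k (S x) (P x) := by
    unfold kDD
    refine continuous_finsetSum _ fun l _ => continuous_const.mul ?_
    refine continuous_finsetSum _ fun i _ => ?_
    exact ((hP.matrix_mul (symPow_cont hS hP i)).matrix_mul (symPow_cont hS hP _)).matrix_trace
  unfold TT
  exact (Complex.continuous_re.comp h2).neg.sub
    (Complex.continuous_re.comp ((hP.matrix_mul h1).matrix_mul h1).matrix_trace)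

theorem local_energy (k : Polynomial ℝ) (Ψ Ψ' : ℝ → Matrix (Fin N) (Fin m) ℂ)
    (S : ℝ → Matrix (Fin N) (Fin N) ℂ)
    (hΨ : ∀ j a, IsPrim (fun x => Ψ x j a) (fun x => Ψ' x j a))
    (hΨ2 : ∀ j a, ∀ p q : ℝ, IntervalIntegrable (fun x => ‖Ψ' x j a‖ ^ 2) volume p q)
    (hS : ∀ i j, IsPrim (fun x => S x i j) (fun x => (Ψ x * (Ψ x)ᴴ) i j))
    (hSH : ∀ x, (S x).IsHermitian) {p q : ℝ} (hpq : p ≤ q) :
    (vFun k (S q) (Ψ q * (Ψ q)ᴴ)).re - (vFun k (S p) (Ψ p * (Ψ p)ᴴ)).re
        + ∫ x in p..q, TT k (S x) (Ψ x * (Ψ x)ᴴ) ≤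
      ∫ x in p..q, ∑ j, ∑ a, ‖Ψ' x j a‖ ^ 2 := by
  have hΨ' : HasMPrim Ψ Ψ' := hΨ
  have hP : HasMPrim (fun x => Ψ x * (Ψ x)ᴴ)
      (fun x => Ψ' x * (Ψ x)ᴴ + Ψ x * (Ψ' x)ᴴ) := hΨ'.mul hΨ'.star
  have hS' : HasMPrim S (fun x => Ψ x * (Ψ x)ᴴ) := hS
  have hV := (vFun_prim k hS' hP).re
  have hT : Continuous fun x => TT k (S x) (Ψ x * (Ψ x)ᴴ) :=
    TT_cont k hS'.continuous hP.continuous
  rw [hV.2 p q, ← intervalIntegral.integral_add (hV.1 p q) (hT.intervalIntegrable p q)]
  refine intervalIntegral.integral_mono_on hpq ((hV.1 p q).add (hT.intervalIntegrable p q))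
    ?_ fun x _ => ?_
  · have h1 : (fun x => ∑ j, ∑ a, ‖Ψ' x j a‖ ^ 2) =
        ∑ j, ∑ a, fun x => ‖Ψ' x j a‖ ^ 2 := by
      funext x
      simp only [Finset.sum_apply]
    rw [h1]
    exact IntervalIntegrable.sum _ fun j _ => IntervalIntegrable.sum _ fun a _ => hΨ2 j a p q
  · have hPH : (Ψ x * (Ψ x)ᴴ).IsHermitian := Matrix.isHermitian_mul_conjTranspose_self _
    have h2 := pointwise_energy (kOp_herm k (hSH x) hPH) (Ψ x) (Ψ' x)
    refine le_trans (le_of_eq ?_) h2
    unfold vD TT
    rw [Complex.add_re]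
    ring

theorem intervalIntegrable_TT (k : Polynomial ℝ) (Ψ : ℝ → Matrix (Fin N) (Fin m) ℂ)
    (S : ℝ → Matrix (Fin N) (Fin N) ℂ)
    (hΨ : ∀ j a, Continuous (fun x => Ψ x j a)) (hS : ∀ i j, Continuous (fun x => S x i j))
    (p q : ℝ) : IntervalIntegrable (fun x => TT k (S x) (Ψ x * (Ψ x)ᴴ)) volume p q := by
  have h1 : Continuous Ψ := continuous_matrix hΨ
  have h2 : Continuous S := continuous_matrix hS
  exact (TT_cont k h2 (h1.matrix_mul h1.matrix_conjTranspose)).intervalIntegrable p q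

end Vale.Agent.P371
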