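import Vale.Agent.P371.Alg

/-!
# P371 task E : the pointwise matrix inequality (exact `κ`, diagonal `S`)
-/

open Matrix Finset Filter Topology MeasureTheory
open scoped ComplexOrder

namespace Vale.Agent.P371

variable {N : ℕ}

/-- `w_n(x) = 1/(x+2n)` -/
noncomputable def wn (n : ℤ) (x : ℝ) : ℝ := 1 / (x + 2 * n)

lemma sum_Icc_neg (f : ℤ → ℝ) (M : ℕ) :
    ∑ n ∈ Icc (-(M : ℤ)) M, f n = f 0 + ∑ j ∈ range M, (f (-((j : ℤ) + 1)) + f ((j : ℤ) + 1)) := by
  induction M with
  | zero => simp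
  | succ M ih =>
    rw [sum_range_succ, ← add_assoc, ← ih]
    have h : Icc (-((M + 1 : ℕ) : ℤ)) ((M + 1 : ℕ) : ℤ) =
        insert (-((M : ℤ) + 1)) (insert ((M : ℤ) + 1) (Icc (-(M : ℤ)) M)) := by
      ext z
      simp only [mem_Icc, mem_insert]
      push_cast
      omega
    rw [h, sum_insert, sum_insert]
    · ring
    · simp
    · simp only [mem_insert, mem_Icc]
      omega

lemma tendsto_kF {x : ℝ} (hx : 0 < x) (hx2 : x < 2) :
    Tendsto (fun M : ℕ => ∑ n ∈ Icc (-(M : ℤ)) M, wn n x) atTop (𝓝 (kap x)) := by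
  have hz : ((x / 2 : ℝ) : ℂ) ∈ Complex.integerComplement := by
    intro ⟨n, hn⟩
    have h1 : (n : ℝ) = x / 2 := by exact_mod_cast hn
    have h2 : (0 : ℝ) < n := by rw [h1]; linarith
    have h3 : (n : ℝ) < 1 := by rw [h1]; linarith
    have h4 : (0 : ℤ) < n := by exact_mod_cast h2
    have h5 : n < (1 : ℤ) := by exact_mod_cast h3
    omega
  have h := tendsto_logDeriv_euler_cot_sub hz
  have h2 := (Complex.continuous_re.tendsto _).comp h
  have h3 : (fun M : ℕ => ∑ n ∈ Icc (-(M : ℤ)) M, wn n x) =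
      fun M : ℕ => 1 / x + (1 / 2) * (∑ j ∈ range M, cotTerm ((x / 2 : ℝ) : ℂ) j).re := by
    funext M
    rw [sum_Icc_neg]
    have e0 : wn 0 x = 1 / x := by simp [wn]
    rw [e0, Complex.re_sum, mul_sum]
    congr 1
    apply sum_congr rfl
    intro j _
    have : (cotTerm ((x / 2 : ℝ) : ℂ) j) =
        ((1 / (x / 2 - (j + 1)) + 1 / (x / 2 + (j + 1)) : ℝ) : ℂ) := by
      simp [cotTerm]
    rw [this, Complex.ofReal_re]
    simp only [wn]
    push_cast
    have e1 : x + 2 * (-((j : ℝ) + 1)) = 2 * (x / 2 - (j + 1)) := by ring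
    have e2 : x + 2 * ((j : ℝ) + 1) = 2 * (x / 2 + (j + 1)) := by ring
    rw [e1, e2]
    simp only [one_div, mul_inv]
    ring
  rw [h3]
  have h4 : kap x = 1 / x + (1 / 2) * ((Real.pi * Complex.cot (Real.pi * ((x / 2 : ℝ) : ℂ)) - 1 / ((x / 2 : ℝ) : ℂ)).re) := by
    have : (Real.pi * Complex.cot (Real.pi * ((x / 2 : ℝ) : ℂ)) - 1 / ((x / 2 : ℝ) : ℂ)) =
       ((Real.pi * (Real.cos (Real.pi * x / 2) / Real.sin (Real.pi * x / 2)) - 1 / (x / 2) : ℝ) : ℂ) := by
      rw [Complex.cot_eq_cos_div_sin]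
      push_cast
      rw [show (Real.pi : ℂ) * ((x : ℂ) / 2) = (Real.pi : ℂ) * x / 2 by ring]
    rw [this, Complex.ofReal_re]
    unfold kap
    have := hx.ne'
    field_simp
    ring
  rw [h4]
  exact (h2.const_mul _).const_add _

lemma hasDerivAt_kap' {x : ℝ} (hx : 0 < x) (hx2 : x < 2) : HasDerivAt kap (kapD x) x := by
  have hs : Real.sin (Real.pi * x / 2) ≠ 0 := by
    apply ne_of_gt
    apply Real.sin_pos_of_pos_of_lt_pi
    · positivity
    · nlinarith [Real.pi_pos]
  have h1 : HasDerivAt (fun y : ℝ => Real.pi * y / 2) (Real.pi / 2) x := by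
    simpa using ((hasDerivAt_id x).const_mul Real.pi).div_const 2
  have h2 := h1.cos.div h1.sin hs
  have h3 := h2.const_mul (Real.pi / 2)
  refine HasDerivAt.congr_deriv h3 ?_
  unfold kapD
  have := Real.sin_sq_add_cos_sq (Real.pi * x / 2)
  field_simp
  linear_combination (-1 : ℝ) * this

lemma wn_ne {x : ℝ} (hx : 0 < x) (hx2 : x < 2) (n : ℤ) : x + 2 * (n : ℝ) ≠ 0 := by
  rcases le_or_gt 0 n with h | h
  · have : (0 : ℝ) ≤ n := by exact_mod_cast h
    positivity
  · have : (n : ℝ) ≤ -1 := by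
      have : n ≤ -1 := by omega
      exact_mod_cast this
    apply ne_of_lt
    linarith

lemma tendsto_sq {x : ℝ} (hx : 0 < x) (hx2 : x < 2) :
    Tendsto (fun M : ℕ => ∑ n ∈ Icc (-(M : ℤ)) M, wn n x * wn n x) atTop (𝓝 (-kapD x)) := by
  -- termwise differentiation
  set d : ℝ := (2 - x) / 2 with hd
  have hd0 : 0 < d := by rw [hd]; linarith
  have hd1 : d < 1 := by rw [hd]; linarith
  let t : Set ℝ := Set.Ioo 0 (2 - d)
  let g : ℕ → ℝ → ℝ := fun j y => wn (-((j : ℤ) + 1)) y + wn ((j : ℤ) + 1) y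
  let g' : ℕ → ℝ → ℝ := fun j y => -(wn (-((j : ℤ) + 1)) y * wn (-((j : ℤ) + 1)) y +
    wn ((j : ℤ) + 1) y * wn ((j : ℤ) + 1) y)
  let u : ℕ → ℝ := fun j => 2 / d ^ 2 * (1 / ((j : ℝ) + 1) ^ 2)
  have hu : Summable u := by
    apply Summable.mul_left
    have := (summable_nat_add_iff 1).mpr (Real.summable_one_div_nat_pow (p := 2).mpr (by norm_num))
    simpa using this
  have htx : x ∈ t := ⟨hx, by rw [hd]; linarith⟩
  have ht2 : ∀ y ∈ t, 0 < y ∧ y < 2 := fun y hy => ⟨hy.1, by have := hy.2; linarith⟩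
  have hder : ∀ (n : ℤ) (y : ℝ), 0 < y → y < 2 → HasDerivAt (wn n) (-(wn n y * wn n y)) y := by
    intro n y hy hy2
    have h0 := wn_ne hy hy2 n
    have h1 : HasDerivAt (fun z : ℝ => z + 2 * (n : ℝ)) 1 y := (hasDerivAt_id y).add_const _
    have h2 := h1.inv h0
    have : wn n = (fun z : ℝ => z + 2 * (n : ℝ))⁻¹ := by
      funext z; simp [wn]
    rw [this]
    refine HasDerivAt.congr_deriv h2 ?_
    simp only [Pi.inv_apply]
    field_simp
  have hg : ∀ j y, y ∈ t → HasDerivAt (g j) (g' j y) y := by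
    intro j y hy
    obtain ⟨h1, h2⟩ := ht2 y hy
    have := (hder (-((j : ℤ) + 1)) y h1 h2).add (hder ((j : ℤ) + 1) y h1 h2)
    refine HasDerivAt.congr_deriv this ?_
    simp only [g']
    ring
  have hb : ∀ (j : ℕ) (y : ℝ), y ∈ t → ‖g' j y‖ ≤ u j := by
    intro j y hy
    obtain ⟨h1, h2⟩ := ht2 y hy
    have h3 : y < 2 - d := hy.2
    have hj : (0 : ℝ) ≤ j := Nat.cast_nonneg j
    have a1 : |wn (-((j : ℤ) + 1)) y| ≤ 1 / (d * (j + 1)) := by
      unfold wn
      rw [abs_div, abs_one]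
      apply one_div_le_one_div_of_le (by positivity)
      push_cast
      rw [abs_of_neg (by nlinarith)]
      nlinarith
    have a2 : |wn ((j : ℤ) + 1) y| ≤ 1 / (d * (j + 1)) := by
      unfold wn
      rw [abs_div, abs_one]
      apply one_div_le_one_div_of_le (by positivity)
      push_cast
      rw [abs_of_pos (by positivity)]
      nlinarith
    simp only [g', u, norm_neg, Real.norm_eq_abs]
    have e1 : wn (-((j : ℤ) + 1)) y * wn (-((j : ℤ) + 1)) y = |wn (-((j : ℤ) + 1)) y| ^ 2 := by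
      rw [sq_abs]; ring
    have e2 : wn ((j : ℤ) + 1) y * wn ((j : ℤ) + 1) y = |wn ((j : ℤ) + 1) y| ^ 2 := by
      rw [sq_abs]; ring
    rw [e1, e2, abs_of_nonneg (by positivity)]
    have b1 := pow_le_pow_left₀ (abs_nonneg _) a1 2
    have b2 := pow_le_pow_left₀ (abs_nonneg _) a2 2
    have e3 : 2 / d ^ 2 * (1 / ((j : ℝ) + 1) ^ 2) = (1 / (d * (j + 1))) ^ 2 + (1 / (d * (j + 1))) ^ 2 := by
      field_simp
      norm_num
    rw [e3]
    linarith
  have hsg' : ∀ y ∈ t, Summable (fun j => g' j y) := fun y hy =>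
    Summable.of_norm_bounded hu (fun j => hb j y hy)
  have hsumg : ∀ y ∈ t, Summable (fun j => g j y) := by
    intro y hy
    obtain ⟨h1, h2⟩ := ht2 y hy
    have hz : ((y / 2 : ℝ) : ℂ) ∈ Complex.integerComplement := by
      intro ⟨n, hn⟩
      have h1 : (n : ℝ) = y / 2 := by exact_mod_cast hn
      have h2 : (0 : ℝ) < n := by rw [h1]; linarith
      have h3 : (n : ℝ) < 1 := by rw [h1]; linarith
      have h4 : (0 : ℤ) < n := by exact_mod_cast h2
      have h5 : n < (1 : ℤ) := by exact_mod_cast h3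
      omega
    have h3 := (Complex.reCLM.summable (summable_cotTerm hz)).mul_left (1 / 2)
    refine h3.congr (fun j => ?_)
    have : (cotTerm ((y / 2 : ℝ) : ℂ) j) =
        ((1 / (y / 2 - (j + 1)) + 1 / (y / 2 + (j + 1)) : ℝ) : ℂ) := by
      simp [cotTerm]
    simp only [this, Complex.reCLM_apply, Complex.ofReal_re, g, wn]
    push_cast
    have e1 : y + 2 * (-((j : ℝ) + 1)) = 2 * (y / 2 - (j + 1)) := by ring
    have e2 : y + 2 * ((j : ℝ) + 1) = 2 * (y / 2 + (j + 1)) := by ring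
    rw [e1, e2]
    simp only [one_div, mul_inv]
    ring
  have htsum : ∀ y ∈ t, ∑' j, g j y = kap y - 1 / y := by
    intro y hy
    obtain ⟨h1, h2⟩ := ht2 y hy
    have l1 := (hsumg y hy).hasSum.tendsto_sum_nat
    have l2 := tendsto_kF h1 h2
    have l3 : Tendsto (fun M : ℕ => ∑ j ∈ range M, g j y) atTop (𝓝 (kap y - 1 / y)) := by
      have : (fun M : ℕ => ∑ j ∈ range M, g j y) = fun M : ℕ => (∑ n ∈ Icc (-(M : ℤ)) M, wn n y) - 1 / y := by
        funext M
        rw [sum_Icc_neg]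
        simp [g, wn]
      rw [this]
      exact l2.sub_const _
    exact tendsto_nhds_unique l1 l3
  have hD : HasDerivAt (fun z => ∑' j, g j z) (∑' j, g' j x) x :=
    hasDerivAt_tsum_of_isPreconnected hu isOpen_Ioo isPreconnected_Ioo hg hb htx (hsumg x htx) htx
  have hD2 : HasDerivAt (fun z => ∑' j, g j z) (kapD x + 1 / x ^ 2) x := by
    have h1 : HasDerivAt (fun z : ℝ => kap z - 1 / z) (kapD x + 1 / x ^ 2) x := by
      have e1 := (hasDerivAt_inv hx.ne')
      have e2 := (hasDerivAt_kap' hx hx2).sub e1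
      have e3 : (fun z : ℝ => kap z - 1 / z) = kap - fun y => y⁻¹ := by
        funext z; simp
      rw [e3]
      refine HasDerivAt.congr_deriv e2 ?_
      field_simp
      ring
    apply h1.congr_of_eventuallyEq
    filter_upwards [isOpen_Ioo.mem_nhds htx] with z hz
    exact htsum z hz
  have hval := hD.unique hD2
  have hs := (hsg' x htx).hasSum.tendsto_sum_nat
  rw [hval] at hs
  have hfin : (fun M : ℕ => ∑ n ∈ Icc (-(M : ℤ)) M, wn n x * wn n x) =
      fun M : ℕ => 1 / x ^ 2 - ∑ j ∈ range M, g' j x := by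
    funext M
    rw [sum_Icc_neg]
    simp only [g', sum_neg_distrib]
    have : wn 0 x * wn 0 x = 1 / x ^ 2 := by
      simp [wn]; ring
    rw [this]
    ring
  rw [hfin]
  have := hs.const_sub (1 / x ^ 2)
  have e : 1 / x ^ 2 - (kapD x + 1 / x ^ 2) = - kapD x := by ring
  rwa [e] at this

lemma tendsto_wnwn {x y : ℝ} (hx : 0 < x) (hx2 : x < 2) (hy : 0 < y) (hy2 : y < 2) :
    Tendsto (fun M : ℕ => ∑ n ∈ Icc (-(M : ℤ)) M, wn n x * wn n y) atTop (𝓝 (kapDD x y)) := by
  by_cases h : x = y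
  · subst h
    simpa [kapDD] using tendsto_sq hx hx2
  · have hxy : x - y ≠ 0 := sub_ne_zero.mpr h
    have h1 := ((tendsto_kF hx hx2).sub (tendsto_kF hy hy2)).div_const (x - y)
    have h2 := h1.neg
    simp only [kapDD, if_neg h]
    refine h2.congr (fun M => ?_)
    rw [← sum_sub_distrib, sum_div, ← sum_neg_distrib]
    apply sum_congr rfl
    intro n _
    have e1 := wn_ne hx hx2 n
    have e2 := wn_ne hy hy2 n
    simp only [wn]
    field_simp
    ring

/-- Cauchy matrices are positive semidefinite. -/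
lemma cauchy_psd (x : Fin N → ℝ) (hx : ∀ i, 0 < x i) :
    (Matrix.of fun i k => ((1 / (x i + x k) : ℝ) : ℂ)).PosSemidef := by
  refine .of_dotProduct_mulVec_nonneg ?_ (fun v => ?_)
  · ext i k
    simp [Matrix.conjTranspose_apply, add_comm]
  · have key : star v ⬝ᵥ ((Matrix.of fun i k => ((1 / (x i + x k) : ℝ) : ℂ)) *ᵥ v) =
        ((∫ t in Set.Ioi (0 : ℝ), ‖∑ k, v k * (Real.exp (-(x k) * t) : ℂ)‖ ^ 2 : ℝ) : ℂ) := by
      have hI : ∀ i k, ((1 / (x i + x k) : ℝ) : ℂ) =
          ∫ t in Set.Ioi (0 : ℝ), ((Real.exp (-(x i + x k) * t) : ℝ) : ℂ) := by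
        intro i k
        rw [integral_complex_ofReal]
        congr 1
        rw [integral_exp_mul_Ioi (by linarith [hx i, hx k]), mul_zero, Real.exp_zero,
          neg_div_neg_eq]
      have hint : ∀ i k, Integrable (fun t : ℝ => star (v i) * v k *
          ((Real.exp (-(x i + x k) * t) : ℝ) : ℂ)) (volume.restrict (Set.Ioi 0)) := by
        intro i k
        apply Integrable.const_mul
        apply Integrable.ofReal
        exact integrableOn_exp_mul_Ioi (by linarith [hx i, hx k]) 0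
      rw [← integral_complex_ofReal]
      have e1 : ∀ t : ℝ, ((‖∑ k, v k * (Real.exp (-(x k) * t) : ℂ)‖ ^ 2 : ℝ) : ℂ) =
          ∑ i, ∑ k, star (v i) * v k * ((Real.exp (-(x i + x k) * t) : ℝ) : ℂ) := by
        intro t
        have : ((‖∑ k, v k * (Real.exp (-(x k) * t) : ℂ)‖ ^ 2 : ℝ) : ℂ) =
          (starRingEnd ℂ) (∑ k, v k * (Real.exp (-(x k) * t) : ℂ)) * (∑ k, v k * (Real.exp (-(x k) * t) : ℂ)) := by
          rw [← Complex.normSq_eq_conj_mul_self, Complex.normSq_eq_norm_sq]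
        rw [this, map_sum, sum_mul_sum]
        apply sum_congr rfl; intro i _
        apply sum_congr rfl; intro k _
        have e : Real.exp (-(x i + x k) * t) = Real.exp (-(x i) * t) * Real.exp (-(x k) * t) := by
          rw [← Real.exp_add]; ring_nf
        rw [e, map_mul, Complex.conj_ofReal]
        push_cast
        simp only [Complex.star_def]
        ring
      simp_rw [e1]
      rw [integral_finsetSum _ (fun i _ => integrable_finsetSum _ (fun k _ => hint i k))]
      simp only [dotProduct, mulVec, Matrix.of_apply, mul_sum]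
      apply sum_congr rfl; intro i _
      rw [integral_finsetSum _ (fun k _ => hint i k)]
      apply sum_congr rfl; intro k _
      rw [integral_const_mul, ← hI]
      simp only [Pi.star_apply]
      ring
    rw [key]
    have : (0 : ℝ) ≤ ∫ t in Set.Ioi (0 : ℝ), ‖∑ k, v k * (Real.exp (-(x k) * t) : ℂ)‖ ^ 2 :=
      integral_nonneg (fun t => by positivity)
    exact_mod_cast this

lemma ones_psd : (Matrix.of fun (_ _ : Fin N) => (1 : ℂ)).PosSemidef := by
  have := posSemidef_vecMulVec_self_star (fun _ : Fin N => (1 : ℂ))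
  convert this using 1
  ext i j
  simp [vecMulVec_apply]

/-- the kernel `1 + 2 c/(x_i+x_k)` with `c` and all `x_i` of the same sign -/
lemma kernel_psd (s : Fin N → ℝ) (hs : ∀ i, 0 < s i ∧ s i < 1) (n : ℤ) (j : Fin N) :
    (Matrix.of fun i k => ((1 + 2 * (s j + n) * wn n (s i + s k) : ℝ) : ℂ)).PosSemidef := by
  rcases le_or_gt 0 n with h | h
  · have hn : (0 : ℝ) ≤ n := by exact_mod_cast h
    have hc := (cauchy_psd (fun i => s i + n) (fun i => by linarith [(hs i).1])).smul
      (show (0 : ℂ) ≤ ((2 * (s j + n) : ℝ) : ℂ) by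
        have : (0 : ℝ) ≤ 2 * (s j + n) := by linarith [(hs j).1]
        exact_mod_cast this)
    have := ones_psd.add hc
    convert this using 1
    ext i k
    simp only [Matrix.add_apply, Matrix.of_apply, Matrix.smul_apply, smul_eq_mul, wn]
    push_cast
    ring
  · have hn : (n : ℝ) ≤ -1 := by
      have : n ≤ -1 := by omega
      exact_mod_cast this
    have hc := (cauchy_psd (fun i => -(s i + n)) (fun i => by linarith [(hs i).2])).smul
      (show (0 : ℂ) ≤ ((2 * (-(s j + n)) : ℝ) : ℂ) by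
        have : (0 : ℝ) ≤ 2 * (-(s j + n)) := by linarith [(hs j).2]
        exact_mod_cast this)
    have := ones_psd.add hc
    convert this using 1
    ext i k
    simp only [Matrix.add_apply, Matrix.of_apply, Matrix.smul_apply, smul_eq_mul, wn]
    have e : (1 : ℝ) / (s i + s k + 2 * n) = - (1 / (-(s i + n) + -(s k + n))) := by
      rw [← one_div_neg_eq_neg_one_div]
      congr 1
      ring
    rw [e]
    push_cast
    ring

/-- cyclic relabelling of a triple sum -/
lemma cyc_sum (P : Matrix (Fin N) (Fin N) ℂ) (c : Fin N → Fin N → Fin N → ℝ) :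
    ∑ i, ∑ j, ∑ k, P i j * P j k * P k i * ((c j k i : ℝ) : ℂ) =
      ∑ i, ∑ j, ∑ k, P i j * P j k * P k i * ((c i j k : ℝ) : ℂ) := by
  have h1 : ∑ i, ∑ j, ∑ k, P i j * P j k * P k i * ((c j k i : ℝ) : ℂ) =
      ∑ j, ∑ k, ∑ i, P i j * P j k * P k i * ((c j k i : ℝ) : ℂ) := by
    rw [sum_comm]
    apply sum_congr rfl; intro j _
    rw [sum_comm]
  rw [h1]
  apply sum_congr rfl; intro i _
  apply sum_congr rfl; intro j _
  apply sum_congr rfl; intro k _
  ring

lemma center_nonneg (s : Fin N → ℝ) (hs : ∀ i, 0 < s i ∧ s i < 1)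
    (P : Matrix (Fin N) (Fin N) ℂ) (hP : P.PosSemidef) (n m : ℤ) :
    0 ≤ (∑ i, ∑ j, ∑ k, P i j * P j k * P k i *
      (((s i - s j) * (s k - s j) * (wn n (s i + s j) * wn m (s i + s j)) *
        (wn n (s j + s k) * wn m (s j + s k)) *
        ((1 + 2 * (s j + n) * wn n (s k + s i)) * (1 + 2 * (s j + m) * wn m (s k + s i))) : ℝ) : ℂ)).re := by
  rw [sum_comm, Complex.re_sum]
  apply sum_nonneg
  intro j _
  have hM := (hP.hadamard ((kernel_psd s hs n j).hadamard (kernel_psd s hs m j)))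
  have h := hM.re_dotProduct_nonneg (fun i => P i j * (((s i - s j) * (wn n (s i + s j) * wn m (s i + s j)) : ℝ) : ℂ))
  refine le_of_le_of_eq h ?_
  simp only [RCLike.re_to_complex]
  congr 1
  rw [sum_comm]
  simp only [dotProduct, mulVec, mul_sum]
  apply sum_congr rfl; intro k _
  apply sum_congr rfl; intro i _
  have hPc : star (P k j) = P j k := by
    have := hP.1.apply j k
    exact this
  simp only [Pi.star_apply, star_mul', hPc, Matrix.hadamard_apply, Matrix.of_apply, Complex.star_def, Complex.conj_ofReal]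
  rw [show s k + s j = s j + s k by ring]
  push_cast
  ring

lemma pair_nonneg (s : Fin N → ℝ) (hs : ∀ i, 0 < s i ∧ s i < 1)
    (P : Matrix (Fin N) (Fin N) ℂ) (hP : P.PosSemidef) (n m : ℤ) :
    0 ≤ (∑ i, ∑ j, ∑ k, P i j * P j k * P k i *
      ((2 * (wn n (s i + s j) * wn m (s i + s j)) - wn n (s i + s j) * wn m (s j + s k)
        - wn m (s i + s j) * wn n (s j + s k) : ℝ) : ℂ)).re := by
  set c : Fin N → Fin N → Fin N → ℝ := fun i j k =>
    2 * (wn n (s i + s j) * wn m (s i + s j)) - wn n (s i + s j) * wn m (s j + s k)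
        - wn m (s i + s j) * wn n (s j + s k) with hc
  set d : Fin N → Fin N → Fin N → ℝ := fun i j k =>
    (s i - s j) * (s k - s j) * (wn n (s i + s j) * wn m (s i + s j)) *
        (wn n (s j + s k) * wn m (s j + s k)) *
        ((1 + 2 * (s j + n) * wn n (s k + s i)) * (1 + 2 * (s j + m) * wn m (s k + s i))) with hd
  have hcd : ∀ i j k, c i j k + c j k i + c k i j = (1 / 2) * (d i j k + d j k i + d k i j) := by
    intro i j k
    have h1 : s i + s j + 2 * (n : ℝ) ≠ 0 := wn_ne (by linarith [(hs i).1, (hs j).1]) (by linarith [(hs i).2, (hs j).2]) n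
    have h2 : s j + s k + 2 * (n : ℝ) ≠ 0 := wn_ne (by linarith [(hs k).1, (hs j).1]) (by linarith [(hs k).2, (hs j).2]) n
    have h3 : s k + s i + 2 * (n : ℝ) ≠ 0 := wn_ne (by linarith [(hs k).1, (hs i).1]) (by linarith [(hs k).2, (hs i).2]) n
    have h4 : s i + s j + 2 * (m : ℝ) ≠ 0 := wn_ne (by linarith [(hs i).1, (hs j).1]) (by linarith [(hs i).2, (hs j).2]) m
    have h5 : s j + s k + 2 * (m : ℝ) ≠ 0 := wn_ne (by linarith [(hs k).1, (hs j).1]) (by linarith [(hs k).2, (hs j).2]) m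
    have h6 : s k + s i + 2 * (m : ℝ) ≠ 0 := wn_ne (by linarith [(hs k).1, (hs i).1]) (by linarith [(hs k).2, (hs i).2]) m
    simp only [hc, hd, wn]
    field_simp
    ring
  have h3c : 3 * ∑ i, ∑ j, ∑ k, P i j * P j k * P k i * ((c i j k : ℝ) : ℂ) =
      ∑ i, ∑ j, ∑ k, P i j * P j k * P k i * ((c i j k + c j k i + c k i j : ℝ) : ℂ) := by
    have e1 := cyc_sum P c
    have e2 := cyc_sum P (fun i j k => c j k i)
    simp only [Complex.ofReal_add, mul_add, sum_add_distrib]
    rw [e1]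
    rw [show (∑ i, ∑ j, ∑ k, P i j * P j k * P k i * ((c k i j : ℝ) : ℂ)) =
      ∑ i, ∑ j, ∑ k, P i j * P j k * P k i * ((c i j k : ℝ) : ℂ) from e2.trans e1]
    ring
  have h3d : 3 * ∑ i, ∑ j, ∑ k, P i j * P j k * P k i * ((d i j k : ℝ) : ℂ) =
      ∑ i, ∑ j, ∑ k, P i j * P j k * P k i * ((d i j k + d j k i + d k i j : ℝ) : ℂ) := by
    have e1 := cyc_sum P d
    have e2 := cyc_sum P (fun i j k => d j k i)
    simp only [Complex.ofReal_add, mul_add, sum_add_distrib]
    rw [e1]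
    rw [show (∑ i, ∑ j, ∑ k, P i j * P j k * P k i * ((d k i j : ℝ) : ℂ)) =
      ∑ i, ∑ j, ∑ k, P i j * P j k * P k i * ((d i j k : ℝ) : ℂ) from e2.trans e1]
    ring
  have heq : ∑ i, ∑ j, ∑ k, P i j * P j k * P k i * ((c i j k : ℝ) : ℂ) =
      (1 / 2) * ∑ i, ∑ j, ∑ k, P i j * P j k * P k i * ((d i j k : ℝ) : ℂ) := by
    have h3 : (3 : ℂ) ≠ 0 := by norm_num
    apply mul_left_cancel₀ h3
    rw [h3c, mul_left_comm, h3d, mul_sum]
    apply sum_congr rfl; intro i _
    rw [mul_sum]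
    apply sum_congr rfl; intro j _
    rw [mul_sum]
    apply sum_congr rfl; intro k _
    rw [hcd]
    push_cast
    ring
  rw [heq]
  have h := center_nonneg s hs P hP n m
  have : ((1 : ℂ) / 2 * ∑ i, ∑ j, ∑ k, P i j * P j k * P k i * ((d i j k : ℝ) : ℂ)).re =
    (1 / 2) * (∑ i, ∑ j, ∑ k, P i j * P j k * P k i * ((d i j k : ℝ) : ℂ)).re := by
    rw [show (1 : ℂ) / 2 = ((1 / 2 : ℝ) : ℂ) by push_cast; rfl, Complex.re_ofReal_mul]
  rw [this]
  apply mul_nonneg (by norm_num)
  exact h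

theorem pointwise_kap (s : Fin N → ℝ) (hs : ∀ i, 0 < s i ∧ s i < 1)
    (P : Matrix (Fin N) (Fin N) ℂ) (hP : P.PosSemidef) :
    (Real.pi ^ 2 / 4) * (trace (P * P * P)).re ≤
      (∑ i, ∑ j, ∑ l, P i j * P j l * P l i *
        ((kapDD (s i + s j) (s j + s l) - kap (s i + s j) * kap (s j + s l) : ℝ) : ℂ)).re := by
  -- the partial sums
  have hpos : ∀ i j, 0 < s i + s j ∧ s i + s j < 2 := fun i j =>
    ⟨by linarith [(hs i).1, (hs j).1], by linarith [(hs i).2, (hs j).2]⟩
  let kF : ℕ → ℝ → ℝ := fun M x => ∑ n ∈ Icc (-(M : ℤ)) M, wn n x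
  let qF : ℕ → ℝ → ℝ → ℝ := fun M x y => ∑ n ∈ Icc (-(M : ℤ)) M, wn n x * wn n y
  have hnn : ∀ M : ℕ, 0 ≤ (∑ i, ∑ j, ∑ k, P i j * P j k * P k i *
      ((2 * (kF M (s i + s j) * kF M (s i + s j) - qF M (s i + s j) (s i + s j)) -
        2 * (kF M (s i + s j) * kF M (s j + s k) - qF M (s i + s j) (s j + s k)) : ℝ) : ℂ)).re := by
    intro M
    have h1 : 0 ≤ ∑ n ∈ Icc (-(M : ℤ)) M, ∑ m ∈ Icc (-(M : ℤ)) M, if n = m then 0 else
        (∑ i, ∑ j, ∑ k, P i j * P j k * P k i *
        ((2 * (wn n (s i + s j) * wn m (s i + s j)) - wn n (s i + s j) * wn m (s j + s k)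
        - wn m (s i + s j) * wn n (s j + s k) : ℝ) : ℂ)).re := by
      apply sum_nonneg; intro n _
      apply sum_nonneg; intro m _
      split_ifs
      · exact le_rfl
      · exact pair_nonneg s hs P hP n m
    refine le_of_le_of_eq h1 ?_
    have h2 : ∀ (n m : ℤ), (if n = m then 0 else
        (∑ i, ∑ j, ∑ k, P i j * P j k * P k i *
        ((2 * (wn n (s i + s j) * wn m (s i + s j)) - wn n (s i + s j) * wn m (s j + s k)
        - wn m (s i + s j) * wn n (s j + s k) : ℝ) : ℂ)).re) =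
        (∑ i, ∑ j, ∑ k, P i j * P j k * P k i *
        (((if n = m then 0 else 2 * (wn n (s i + s j) * wn m (s i + s j)) -
          wn n (s i + s j) * wn m (s j + s k) - wn m (s i + s j) * wn n (s j + s k)) : ℝ) : ℂ)).re := by
      intro n m
      split_ifs <;> simp
    simp_rw [h2]
    simp_rw [← Complex.re_sum]
    congr 1
    have h3 : ∀ i j k, (∑ n ∈ Icc (-(M : ℤ)) M, ∑ m ∈ Icc (-(M : ℤ)) M,
        (if n = m then 0 else 2 * (wn n (s i + s j) * wn m (s i + s j)) -
          wn n (s i + s j) * wn m (s j + s k) - wn m (s i + s j) * wn n (s j + s k))) =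
        2 * (kF M (s i + s j) * kF M (s i + s j) - qF M (s i + s j) (s i + s j)) -
        2 * (kF M (s i + s j) * kF M (s j + s k) - qF M (s i + s j) (s j + s k)) := by
      intro i j k
      set x := s i + s j
      set y := s j + s k
      have e1 : ∀ n m : ℤ, (if n = m then 0 else 2 * (wn n x * wn m x) -
          wn n x * wn m y - wn m x * wn n y) =
          (2 * (wn n x * wn m x) - wn n x * wn m y - wn m x * wn n y) -
          (if n = m then (2 * (wn n x * wn n x) - 2 * (wn n x * wn n y)) else 0) := by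
        intro n m
        split_ifs with h
        · subst h; ring
        · ring
      simp_rw [e1, sum_sub_distrib]
      have e2 : ∑ n ∈ Icc (-(M : ℤ)) M, ∑ m ∈ Icc (-(M : ℤ)) M, 2 * (wn n x * wn m x) =
          2 * (kF M x * kF M x) := by
        simp only [kF]
        rw [sum_mul_sum, mul_sum]
        apply sum_congr rfl; intro n _
        rw [mul_sum]
      have e3 : ∑ n ∈ Icc (-(M : ℤ)) M, ∑ m ∈ Icc (-(M : ℤ)) M, wn n x * wn m y =
          kF M x * kF M y := by
        simp only [kF, sum_mul_sum]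
      have e4 : ∑ n ∈ Icc (-(M : ℤ)) M, ∑ m ∈ Icc (-(M : ℤ)) M, wn m x * wn n y =
          kF M x * kF M y := by
        rw [sum_comm]
        simp only [kF, sum_mul_sum]
      have e5 : ∑ n ∈ Icc (-(M : ℤ)) M, ∑ m ∈ Icc (-(M : ℤ)) M,
          (if n = m then (2 * (wn n x * wn n x) - 2 * (wn n x * wn n y)) else 0) =
          2 * qF M x x - 2 * qF M x y := by
        have : ∀ n ∈ Icc (-(M : ℤ)) M, ∑ m ∈ Icc (-(M : ℤ)) M,
          (if n = m then (2 * (wn n x * wn n x) - 2 * (wn n x * wn n y)) else 0) =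
            2 * (wn n x * wn n x) - 2 * (wn n x * wn n y) := by
          intro n hn
          rw [sum_ite_eq]
          simp [hn]
        rw [sum_congr rfl this, sum_sub_distrib]
        simp only [qF, mul_sum]
      rw [e2, e3, e4, e5]
      ring
    have h4 : ∀ n m : ℤ, ∑ i, ∑ j, ∑ k, P i j * P j k * P k i *
        (((if n = m then 0 else 2 * (wn n (s i + s j) * wn m (s i + s j)) -
          wn n (s i + s j) * wn m (s j + s k) - wn m (s i + s j) * wn n (s j + s k)) : ℝ) : ℂ) =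
        ∑ t : Fin N × Fin N × Fin N, P t.1 t.2.1 * P t.2.1 t.2.2 * P t.2.2 t.1 *
        (((if n = m then 0 else 2 * (wn n (s t.1 + s t.2.1) * wn m (s t.1 + s t.2.1)) -
          wn n (s t.1 + s t.2.1) * wn m (s t.2.1 + s t.2.2) -
          wn m (s t.1 + s t.2.1) * wn n (s t.2.1 + s t.2.2)) : ℝ) : ℂ) := by
      intro n m
      rw [Fintype.sum_prod_type]
      apply sum_congr rfl; intro i _
      rw [Fintype.sum_prod_type]
    simp_rw [h4]
    have h5 : ∀ n ∈ Icc (-(M : ℤ)) M, ∑ m ∈ Icc (-(M : ℤ)) M,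
        ∑ t : Fin N × Fin N × Fin N, P t.1 t.2.1 * P t.2.1 t.2.2 * P t.2.2 t.1 *
        (((if n = m then 0 else 2 * (wn n (s t.1 + s t.2.1) * wn m (s t.1 + s t.2.1)) -
          wn n (s t.1 + s t.2.1) * wn m (s t.2.1 + s t.2.2) -
          wn m (s t.1 + s t.2.1) * wn n (s t.2.1 + s t.2.2)) : ℝ) : ℂ) =
        ∑ t : Fin N × Fin N × Fin N, ∑ m ∈ Icc (-(M : ℤ)) M,
          P t.1 t.2.1 * P t.2.1 t.2.2 * P t.2.2 t.1 *
        (((if n = m then 0 else 2 * (wn n (s t.1 + s t.2.1) * wn m (s t.1 + s t.2.1)) -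
          wn n (s t.1 + s t.2.1) * wn m (s t.2.1 + s t.2.2) -
          wn m (s t.1 + s t.2.1) * wn n (s t.2.1 + s t.2.2)) : ℝ) : ℂ) := by
      intro n _
      rw [sum_comm]
    rw [sum_congr rfl h5, sum_comm, Fintype.sum_prod_type]
    apply sum_congr rfl; intro i _
    rw [Fintype.sum_prod_type]
    apply sum_congr rfl; intro j _
    apply sum_congr rfl; intro k _
    simp_rw [← mul_sum]
    rw [← h3 i j k]
    push_cast
    rfl
  -- pass to the limit
  have hlim : Tendsto (fun M : ℕ => (∑ i, ∑ j, ∑ k, P i j * P j k * P k i *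
      ((2 * (kF M (s i + s j) * kF M (s i + s j) - qF M (s i + s j) (s i + s j)) -
        2 * (kF M (s i + s j) * kF M (s j + s k) - qF M (s i + s j) (s j + s k)) : ℝ) : ℂ)).re)
      atTop (𝓝 (∑ i, ∑ j, ∑ k, P i j * P j k * P k i *
      ((2 * (kap (s i + s j) * kap (s i + s j) - kapDD (s i + s j) (s i + s j)) -
        2 * (kap (s i + s j) * kap (s j + s k) - kapDD (s i + s j) (s j + s k)) : ℝ) : ℂ)).re) := by
    apply (Complex.continuous_re.tendsto _).comp
    apply tendsto_finsetSum; intro i _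
    apply tendsto_finsetSum; intro j _
    apply tendsto_finsetSum; intro k _
    apply Tendsto.const_mul
    apply (Complex.continuous_ofReal.tendsto _).comp
    have t1 := tendsto_kF (hpos i j).1 (hpos i j).2
    have t2 := tendsto_kF (hpos j k).1 (hpos j k).2
    have t3 := tendsto_wnwn (hpos i j).1 (hpos i j).2 (hpos i j).1 (hpos i j).2
    have t4 := tendsto_wnwn (hpos i j).1 (hpos i j).2 (hpos j k).1 (hpos j k).2
    exact (((t1.mul t1).sub t3).const_mul 2).sub (((t1.mul t2).sub t4).const_mul 2)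
  have hge := ge_of_tendsto' hlim hnn
  have hval : ∀ i j, kap (s i + s j) * kap (s i + s j) - kapDD (s i + s j) (s i + s j) =
      - (Real.pi ^ 2 / 4) := by
    intro i j
    have hs0 : Real.sin (Real.pi * (s i + s j) / 2) ≠ 0 := by
      apply ne_of_gt
      apply Real.sin_pos_of_pos_of_lt_pi
      · have := (hpos i j).1; positivity
      · have := (hpos i j).2; nlinarith [Real.pi_pos]
    simp only [kapDD, if_true, kapD, kap]
    have := Real.sin_sq_add_cos_sq (Real.pi * (s i + s j) / 2)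
    field_simp
    linear_combination (4 : ℝ) * this
  have htr : trace (P * P * P) = ∑ i, ∑ j, ∑ k, P i j * P j k * P k i := by
    simp only [trace, Matrix.diag, Matrix.mul_apply, sum_mul]
    apply sum_congr rfl; intro i _
    rw [sum_comm]
  have hsplit : ∑ i, ∑ j, ∑ k, P i j * P j k * P k i *
      ((2 * (kap (s i + s j) * kap (s i + s j) - kapDD (s i + s j) (s i + s j)) -
        2 * (kap (s i + s j) * kap (s j + s k) - kapDD (s i + s j) (s j + s k)) : ℝ) : ℂ) =
      ((-2 * (Real.pi ^ 2 / 4) : ℝ) : ℂ) * trace (P * P * P) +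
      ((2 : ℝ) : ℂ) * ∑ i, ∑ j, ∑ l, P i j * P j l * P l i *
        ((kapDD (s i + s j) (s j + s l) - kap (s i + s j) * kap (s j + s l) : ℝ) : ℂ) := by
    rw [htr, mul_sum, mul_sum, ← sum_add_distrib]
    apply sum_congr rfl; intro i _
    rw [mul_sum, mul_sum, ← sum_add_distrib]
    apply sum_congr rfl; intro j _
    rw [mul_sum, mul_sum, ← sum_add_distrib]
    apply sum_congr rfl; intro k _
    rw [hval i j]
    push_cast
    ring
  rw [hsplit, Complex.add_re, Complex.re_ofReal_mul, Complex.re_ofReal_mul] at hge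
  linarith

end Vale.Agent.P371
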