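import Vale.Agent.P371.PolyApprox
import Vale.Agent.P371.Pointwise

/-!
# P371 task D : the finite dimensional inequality for a polynomial close to `κ`
-/

open Matrix Finset
open scoped ComplexOrder

namespace Vale.Agent.P371

variable {N : ℕ}

lemma symPow_conj (U D Q : Matrix (Fin N) (Fin N) ℂ) (hU : Uᴴ * U = 1) (l : ℕ) :
    symPow (U * D * Uᴴ) (U * Q * Uᴴ) l = U * symPow D Q l * Uᴴ := by
  induction l with
  | zero => rfl
  | succ l ih =>
    simp only [symPow_succ, ih]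
    have h1 : U * D * Uᴴ * (U * symPow D Q l * Uᴴ) = U * (D * symPow D Q l) * Uᴴ := by
      calc U * D * Uᴴ * (U * symPow D Q l * Uᴴ) = U * D * (Uᴴ * U) * symPow D Q l * Uᴴ := by
            simp only [Matrix.mul_assoc]
        _ = _ := by rw [hU]; simp only [Matrix.mul_one, Matrix.mul_assoc]
    have h2 : U * symPow D Q l * Uᴴ * (U * D * Uᴴ) = U * (symPow D Q l * D) * Uᴴ := by
      calc U * symPow D Q l * Uᴴ * (U * D * Uᴴ) = U * symPow D Q l * (Uᴴ * U) * D * Uᴴ := by
            simp only [Matrix.mul_assoc]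
        _ = _ := by rw [hU]; simp only [Matrix.mul_one, Matrix.mul_assoc]
    rw [h1, h2, Matrix.mul_add, Matrix.add_mul]

lemma trace_conj3 (U A B C : Matrix (Fin N) (Fin N) ℂ) (hU : Uᴴ * U = 1) :
    trace (U * A * Uᴴ * (U * B * Uᴴ) * (U * C * Uᴴ)) = trace (A * B * C) := by
  have : U * A * Uᴴ * (U * B * Uᴴ) * (U * C * Uᴴ) = U * (A * B * C) * Uᴴ := by
    calc U * A * Uᴴ * (U * B * Uᴴ) * (U * C * Uᴴ)
        = U * A * (Uᴴ * U) * B * (Uᴴ * U) * C * Uᴴ := by simp only [Matrix.mul_assoc]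
      _ = _ := by rw [hU]; simp only [Matrix.mul_one, Matrix.mul_assoc]
  rw [this, Matrix.trace_mul_comm, ← Matrix.mul_assoc, hU, Matrix.one_mul]

lemma trace_conj1 (U A : Matrix (Fin N) (Fin N) ℂ) (hU : Uᴴ * U = 1) :
    trace (U * A * Uᴴ) = trace A := by
  rw [Matrix.trace_mul_comm, ← Matrix.mul_assoc, hU, Matrix.one_mul]

lemma kOp_conj (k : Polynomial ℝ) (U D Q : Matrix (Fin N) (Fin N) ℂ) (hU : Uᴴ * U = 1) :
    kOp k (U * D * Uᴴ) (U * Q * Uᴴ) = U * kOp k D Q * Uᴴ := by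
  simp only [kOp, symPow_conj U D Q hU, Matrix.mul_sum, Matrix.sum_mul, Matrix.mul_smul,
    Matrix.smul_mul]

lemma TT_conj (k : Polynomial ℝ) (U D Q : Matrix (Fin N) (Fin N) ℂ) (hU : Uᴴ * U = 1) :
    TT k (U * D * Uᴴ) (U * Q * Uᴴ) = TT k D Q := by
  simp only [TT, kDD, kOp_conj k U D Q hU, symPow_conj U D Q hU, trace_conj3 U _ _ _ hU]

lemma symPow_diag (s : Fin N → ℝ) (Q : Matrix (Fin N) (Fin N) ℂ) (l : ℕ) (a b : Fin N) :
    symPow (diagonal fun i => (s i : ℂ)) Q l a b = ((s a + s b : ℝ) : ℂ) ^ l * Q a b := by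
  induction l with
  | zero => simp [symPow_zero]
  | succ l ih =>
    simp only [symPow_succ, Matrix.add_apply, diagonal_mul, mul_diagonal, ih]
    push_cast
    ring

lemma kOp_diag (k : Polynomial ℝ) (s : Fin N → ℝ) (Q : Matrix (Fin N) (Fin N) ℂ) (a b : Fin N) :
    kOp k (diagonal fun i => (s i : ℂ)) Q a b = ((k.eval (s a + s b) : ℝ) : ℂ) * Q a b := by
  simp only [kOp, Matrix.sum_apply, Matrix.smul_apply, symPow_diag, smul_eq_mul]
  rw [Polynomial.eval_eq_sum_range]
  push_cast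
  rw [sum_mul]
  apply sum_congr rfl; intro l _
  ring

/-- the divided difference of a polynomial -/
noncomputable def pdd (k : Polynomial ℝ) (x y : ℝ) : ℝ :=
  ∑ l ∈ range (k.natDegree + 1), k.coeff l * ∑ i ∈ range l, x ^ i * y ^ (l - 1 - i)

lemma trace_mul_sum3 (A B C : Matrix (Fin N) (Fin N) ℂ) :
    trace (A * B * C) = ∑ a, ∑ b, ∑ c, A a b * B b c * C c a := by
  simp only [trace, Matrix.diag, Matrix.mul_apply, sum_mul]
  apply sum_congr rfl; intro i _
  rw [sum_comm]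

lemma TT_diag (k : Polynomial ℝ) (s : Fin N → ℝ) (Q : Matrix (Fin N) (Fin N) ℂ) :
    TT k (diagonal fun i => (s i : ℂ)) Q =
      (∑ i, ∑ j, ∑ l, Q i j * Q j l * Q l i *
        ((- pdd k (s i + s j) (s j + s l) - k.eval (s i + s j) * k.eval (s j + s l) : ℝ) : ℂ)).re := by
  have h1 : kDD k (diagonal fun i => (s i : ℂ)) Q =
      ∑ a, ∑ b, ∑ c, Q a b * Q b c * Q c a * ((pdd k (s b + s c) (s c + s a) : ℝ) : ℂ) := by
    simp only [kDD, trace_mul_sum3, symPow_diag]
    have : ∀ l ∈ range (k.natDegree + 1), ((k.coeff l : ℝ) : ℂ) * ∑ i ∈ range l,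
        ∑ a, ∑ b, ∑ c, Q a b * (((s b + s c : ℝ) : ℂ) ^ i * Q b c) *
          (((s c + s a : ℝ) : ℂ) ^ (l - 1 - i) * Q c a) =
        ∑ a, ∑ b, ∑ c, Q a b * Q b c * Q c a * ((k.coeff l * ∑ i ∈ range l,
          (s b + s c) ^ i * (s c + s a) ^ (l - 1 - i) : ℝ) : ℂ) := by
      intro l _
      rw [mul_sum]
      simp_rw [mul_sum]
      rw [sum_comm]
      apply sum_congr rfl; intro a _
      rw [sum_comm]
      apply sum_congr rfl; intro b _
      rw [sum_comm]
      apply sum_congr rfl; intro c _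
      push_cast
      rw [mul_sum]
      apply sum_congr rfl; intro i _
      ring
    rw [sum_congr rfl this, sum_comm]
    apply sum_congr rfl; intro a _
    rw [sum_comm]
    apply sum_congr rfl; intro b _
    rw [sum_comm]
    apply sum_congr rfl; intro c _
    rw [← mul_sum, pdd]
    push_cast
    rfl
  have h2 : trace (Q * kOp k (diagonal fun i => (s i : ℂ)) Q * kOp k (diagonal fun i => (s i : ℂ)) Q) =
      ∑ a, ∑ b, ∑ c, Q a b * Q b c * Q c a * ((k.eval (s b + s c) * k.eval (s c + s a) : ℝ) : ℂ) := by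
    rw [trace_mul_sum3]
    apply sum_congr rfl; intro a _
    apply sum_congr rfl; intro b _
    apply sum_congr rfl; intro c _
    rw [kOp_diag, kOp_diag]
    push_cast
    ring
  rw [TT, h1, h2, ← Complex.neg_re, ← Complex.sub_re]
  congr 1
  have e := cyc_sum Q (fun i j l => - pdd k (s i + s j) (s j + s l) - k.eval (s i + s j) * k.eval (s j + s l))
  rw [← e]
  rw [← sum_neg_distrib, ← sum_sub_distrib]
  apply sum_congr rfl; intro a _
  rw [← sum_neg_distrib, ← sum_sub_distrib]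
  apply sum_congr rfl; intro b _
  rw [← sum_neg_distrib, ← sum_sub_distrib]
  apply sum_congr rfl; intro c _
  push_cast
  ring

open scoped MatrixOrder in
lemma exists_conjTranspose_mul_self {Q : Matrix (Fin N) (Fin N) ℂ} (hQ : Q.PosSemidef) :
    ∃ B : Matrix (Fin N) (Fin N) ℂ, Q = Bᴴ * B := by
  obtain ⟨B, hB⟩ := CStarAlgebra.nonneg_iff_eq_star_mul_self.mp hQ.nonneg
  exact ⟨B, hB⟩

lemma norm_apply_le_trace (Q : Matrix (Fin N) (Fin N) ℂ) (hQ : Q.PosSemidef) (a b : Fin N) :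
    ‖Q a b‖ ≤ (trace Q).re := by
  obtain ⟨B, hB⟩ : ∃ B : Matrix (Fin N) (Fin N) ℂ, Q = Bᴴ * B := exists_conjTranspose_mul_self hQ
  have hd : ∀ c, (Q c c).re = ∑ k, ‖B k c‖ ^ 2 := by
    intro c
    rw [hB, Matrix.mul_apply, Complex.re_sum]
    apply sum_congr rfl; intro k _
    rw [conjTranspose_apply, Complex.star_def, ← Complex.normSq_eq_conj_mul_self, Complex.ofReal_re,
      Complex.normSq_eq_norm_sq]
  have hdn : ∀ c, 0 ≤ (Q c c).re := fun c => by rw [hd]; positivity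
  have hle : ‖Q a b‖ ≤ ((Q a a).re + (Q b b).re) / 2 := by
    rw [hd, hd, hB, Matrix.mul_apply]
    refine (norm_sum_le _ _).trans ?_
    rw [← sum_add_distrib, sum_div]
    apply sum_le_sum; intro k _
    rw [norm_mul, conjTranspose_apply, norm_star]
    nlinarith [sq_nonneg (‖B k a‖ - ‖B k b‖)]
  have htr : (trace Q).re = ∑ c, (Q c c).re := by
    simp [trace]
  have h1 : ∀ c, (Q c c).re ≤ (trace Q).re := by
    intro c
    rw [htr]
    exact single_le_sum (fun i _ => hdn i) (mem_univ c)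
  linarith [h1 a, h1 b]

lemma continuousOn_kap (ε : ℝ) (hε : 0 < ε) :
    ContinuousOn kap (Set.Icc (2 * ε) (2 - 2 * ε)) := by
  intro x hx
  exact (hasDerivAt_kap' (by linarith [hx.1]) (by linarith [hx.2])).continuousAt.continuousWithinAt

lemma exists_unitary (S : Matrix (Fin N) (Fin N) ℂ) (hS : S.IsHermitian) :
    ∃ (U : Matrix (Fin N) (Fin N) ℂ) (s : Fin N → ℝ), Uᴴ * U = 1 ∧ U * Uᴴ = 1 ∧
      S = U * (diagonal fun i => (s i : ℂ)) * Uᴴ := by
  refine ⟨hS.eigenvectorUnitary, hS.eigenvalues, ?_, ?_, ?_⟩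
  · exact Unitary.coe_star_mul_self hS.eigenvectorUnitary
  · exact Unitary.coe_mul_star_self hS.eigenvectorUnitary
  · have := hS.spectral_theorem
    rw [Unitary.conjStarAlgAut_apply] at this
    exact this

theorem exists_poly (N : ℕ) (ε δ : ℝ) (hε : 0 < ε) (hε' : ε < 1 / 2) (hδ : 0 < δ) :
    ∃ k : Polynomial ℝ, ∀ S P : Matrix (Fin N) (Fin N) ℂ,
      (S - (ε : ℂ) • (1 : Matrix (Fin N) (Fin N) ℂ)).PosSemidef →
      (((1 - ε : ℝ) : ℂ) • (1 : Matrix (Fin N) (Fin N) ℂ) - S).PosSemidef →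
      P.PosSemidef →
      (Real.pi ^ 2 / 4) * (trace (P * P * P)).re - δ * (trace P).re ^ 3 ≤ TT k S P := by
  obtain ⟨C, hC⟩ := isCompact_Icc.exists_bound_of_continuousOn (continuousOn_kap ε hε)
  have hC0 : 0 ≤ C := by
    have := hC 1 ⟨by linarith, by linarith⟩
    exact (norm_nonneg _).trans this
  set η : ℝ := min 1 (δ / ((N : ℝ) ^ 3 * (2 + 2 * C) + 1)) with hη
  have hden : 0 < (N : ℝ) ^ 3 * (2 + 2 * C) + 1 := by positivity
  have hη0 : 0 < η := by
    rw [hη]; exact lt_min one_pos (by positivity)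
  have hη1 : η ≤ 1 := min_le_left _ _
  have hη2 : η * ((N : ℝ) ^ 3 * (2 + 2 * C)) ≤ δ := by
    have h1 : η ≤ δ / ((N : ℝ) ^ 3 * (2 + 2 * C) + 1) := min_le_right _ _
    rw [le_div_iff₀ hden] at h1
    nlinarith
  obtain ⟨k, hk1, hk2⟩ := exists_poly_approx_dd ε η hε hε' hη0
  refine ⟨k, fun S P hS1 hS2 hP => ?_⟩
  have hSH : S.IsHermitian := by
    have h1 := hS1.1
    have h2 : ((ε : ℂ) • (1 : Matrix (Fin N) (Fin N) ℂ)).IsHermitian := by
      ext i j
      simp only [Matrix.conjTranspose_apply, Matrix.smul_apply, Matrix.one_apply, smul_eq_mul,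
        eq_comm (a := j)]
      split_ifs <;> simp
    have := h1.add h2
    simpa using this
  obtain ⟨U, s, hU1, hU2, hSU⟩ := exists_unitary S hSH
  set Q := Uᴴ * P * U with hQ
  have hPQ : P = U * Q * Uᴴ := by
    rw [hQ]
    calc P = (U * Uᴴ) * P * (U * Uᴴ) := by rw [hU2]; simp
      _ = _ := by simp only [Matrix.mul_assoc]
  have hQP : Q.PosSemidef := hP.conjTranspose_mul_mul_same U
  -- eigenvalue bounds
  have hs1 : ∀ i, ε ≤ s i := by
    intro i
    have h1 := hS1.conjTranspose_mul_mul_same U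
    have h2 : Uᴴ * (S - (ε : ℂ) • (1 : Matrix (Fin N) (Fin N) ℂ)) * U =
        diagonal (fun i => ((s i - ε : ℝ) : ℂ)) := by
      rw [hSU, Matrix.mul_sub, Matrix.sub_mul]
      have e1 : Uᴴ * (U * (diagonal fun i => (s i : ℂ)) * Uᴴ) * U = diagonal fun i => (s i : ℂ) := by
        calc Uᴴ * (U * (diagonal fun i => (s i : ℂ)) * Uᴴ) * U
            = (Uᴴ * U) * (diagonal fun i => (s i : ℂ)) * (Uᴴ * U) := by
              simp only [Matrix.mul_assoc]
          _ = _ := by rw [hU1]; simp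
      rw [e1]
      simp only [Matrix.mul_smul, Matrix.smul_mul, Matrix.mul_one, hU1]
      ext a b
      by_cases hab : a = b
      · subst hab; simp
      · simp [hab]
    rw [h2] at h1
    have h3 := h1.diag_nonneg (i := i)
    rw [diagonal_apply_eq] at h3
    have h4 : (0 : ℝ) ≤ s i - ε := by exact_mod_cast h3
    linarith
  have hs2 : ∀ i, s i ≤ 1 - ε := by
    intro i
    have h1 := hS2.conjTranspose_mul_mul_same U
    have h2 : Uᴴ * (((1 - ε : ℝ) : ℂ) • (1 : Matrix (Fin N) (Fin N) ℂ) - S) * U =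
        diagonal (fun i => ((1 - ε - s i : ℝ) : ℂ)) := by
      rw [hSU, Matrix.mul_sub, Matrix.sub_mul]
      have e1 : Uᴴ * (U * (diagonal fun i => (s i : ℂ)) * Uᴴ) * U = diagonal fun i => (s i : ℂ) := by
        calc Uᴴ * (U * (diagonal fun i => (s i : ℂ)) * Uᴴ) * U
            = (Uᴴ * U) * (diagonal fun i => (s i : ℂ)) * (Uᴴ * U) := by
              simp only [Matrix.mul_assoc]
          _ = _ := by rw [hU1]; simp
      rw [e1]
      simp only [Matrix.mul_smul, Matrix.smul_mul, Matrix.mul_one, hU1]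
      ext a b
      by_cases hab : a = b
      · subst hab; simp
      · simp [hab]
    rw [h2] at h1
    have h3 := h1.diag_nonneg (i := i)
    rw [diagonal_apply_eq] at h3
    have h4 : (0 : ℝ) ≤ 1 - ε - s i := by exact_mod_cast h3
    linarith
  -- transfer to the diagonal case
  have hTT : TT k S P = TT k (diagonal fun i => (s i : ℂ)) Q := by
    rw [hSU, hPQ]; exact TT_conj k U _ Q hU1
  have htr3 : trace (P * P * P) = trace (Q * Q * Q) := by
    rw [hPQ]; exact trace_conj3 U Q Q Q hU1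
  have htr1 : trace P = trace Q := by
    rw [hPQ]; exact trace_conj1 U Q hU1
  rw [hTT, htr3, htr1, TT_diag]
  have hpw := pointwise_kap s (fun i => ⟨by linarith [hs1 i], by linarith [hs2 i]⟩) Q hQP
  have hmem : ∀ i j, s i + s j ∈ Set.Icc (2 * ε) (2 - 2 * ε) := fun i j =>
    ⟨by linarith [hs1 i, hs1 j], by linarith [hs2 i, hs2 j]⟩
  have htr0 : 0 ≤ (trace Q).re := by
    have := hQP.trace_nonneg
    exact (Complex.le_def.mp this).1
  set c1 : Fin N → Fin N → Fin N → ℝ := fun i j l =>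
    kapDD (s i + s j) (s j + s l) - kap (s i + s j) * kap (s j + s l) with hc1
  set c2 : Fin N → Fin N → Fin N → ℝ := fun i j l =>
    - pdd k (s i + s j) (s j + s l) - k.eval (s i + s j) * k.eval (s j + s l) with hc2
  have hcc : ∀ i j l, |c1 i j l - c2 i j l| ≤ η * (2 + 2 * C) := by
    intro i j l
    have h1 := hk2 _ (hmem i j) _ (hmem j l)
    have h2 := hk1 _ (hmem i j)
    have h3 := hk1 _ (hmem j l)
    have h4 := hC _ (hmem i j)
    have h5 := hC _ (hmem j l)
    rw [Real.norm_eq_abs] at h4 h5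
    have e : c1 i j l - c2 i j l = (pdd k (s i + s j) (s j + s l) + kapDD (s i + s j) (s j + s l)) +
        ((k.eval (s i + s j) - kap (s i + s j)) * (k.eval (s j + s l) - kap (s j + s l)) +
        (k.eval (s i + s j) - kap (s i + s j)) * kap (s j + s l) +
        kap (s i + s j) * (k.eval (s j + s l) - kap (s j + s l))) := by
      simp only [hc1, hc2]; ring
    rw [e]
    have g1 : |(k.eval (s i + s j) - kap (s i + s j)) * (k.eval (s j + s l) - kap (s j + s l))| ≤ η * 1 := by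
      rw [abs_mul]
      exact mul_le_mul h2 (h3.trans hη1) (abs_nonneg _) hη0.le
    have g2 : |(k.eval (s i + s j) - kap (s i + s j)) * kap (s j + s l)| ≤ η * C := by
      rw [abs_mul]
      exact mul_le_mul h2 h5 (abs_nonneg _) hη0.le
    have g3 : |kap (s i + s j) * (k.eval (s j + s l) - kap (s j + s l))| ≤ η * C := by
      rw [abs_mul, mul_comm]
      exact mul_le_mul h3 h4 (abs_nonneg _) hη0.le
    have h1' : |pdd k (s i + s j) (s j + s l) + kapDD (s i + s j) (s j + s l)| ≤ η := h1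
    calc _ ≤ η + (η * 1 + η * C + η * C) :=
          (abs_add_le _ _).trans (add_le_add h1' ((abs_add_le _ _).trans
            (add_le_add ((abs_add_le _ _).trans (add_le_add g1 g2)) g3)))
      _ = η * (2 + 2 * C) := by ring
  have hdiff : (∑ i, ∑ j, ∑ l, Q i j * Q j l * Q l i * ((c1 i j l : ℝ) : ℂ)).re -
      (∑ i, ∑ j, ∑ l, Q i j * Q j l * Q l i * ((c2 i j l : ℝ) : ℂ)).re ≤
      δ * (trace Q).re ^ 3 := by
    rw [← Complex.sub_re]
    have e : (∑ i, ∑ j, ∑ l, Q i j * Q j l * Q l i * ((c1 i j l : ℝ) : ℂ)) -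
      (∑ i, ∑ j, ∑ l, Q i j * Q j l * Q l i * ((c2 i j l : ℝ) : ℂ)) =
      ∑ i, ∑ j, ∑ l, Q i j * Q j l * Q l i * ((c1 i j l - c2 i j l : ℝ) : ℂ) := by
      rw [← sum_sub_distrib]
      apply sum_congr rfl; intro i _
      rw [← sum_sub_distrib]
      apply sum_congr rfl; intro j _
      rw [← sum_sub_distrib]
      apply sum_congr rfl; intro l _
      push_cast; ring
    rw [e]
    refine (Complex.re_le_norm _).trans ?_
    have hb : ∀ i j l, ‖Q i j * Q j l * Q l i * ((c1 i j l - c2 i j l : ℝ) : ℂ)‖ ≤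
        (trace Q).re ^ 3 * (η * (2 + 2 * C)) := by
      intro i j l
      rw [norm_mul, norm_mul, norm_mul, Complex.norm_real, Real.norm_eq_abs]
      have q1 := norm_apply_le_trace Q hQP i j
      have q2 := norm_apply_le_trace Q hQP j l
      have q3 := norm_apply_le_trace Q hQP l i
      have : ‖Q i j‖ * ‖Q j l‖ * ‖Q l i‖ ≤ (trace Q).re ^ 3 := by
        calc ‖Q i j‖ * ‖Q j l‖ * ‖Q l i‖ ≤ (trace Q).re * (trace Q).re * (trace Q).re :=
              mul_le_mul (mul_le_mul q1 q2 (norm_nonneg _) htr0) q3 (norm_nonneg _) (by positivity)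
          _ = _ := by ring
      exact mul_le_mul this (hcc i j l) (abs_nonneg _) (by positivity)
    calc ‖∑ i, ∑ j, ∑ l, Q i j * Q j l * Q l i * ((c1 i j l - c2 i j l : ℝ) : ℂ)‖
        ≤ ∑ i : Fin N, ∑ j : Fin N, ∑ l : Fin N, (trace Q).re ^ 3 * (η * (2 + 2 * C)) :=
          norm_sum_le_of_le _ (fun i _ => norm_sum_le_of_le _ (fun j _ =>
            norm_sum_le_of_le _ (fun l _ => hb i j l)))
      _ = (η * ((N : ℝ) ^ 3 * (2 + 2 * C))) * (trace Q).re ^ 3 := by
          simp only [sum_const, card_univ, Fintype.card_fin, nsmul_eq_mul]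
          ring
      _ ≤ δ * (trace Q).re ^ 3 := by
          apply mul_le_mul_of_nonneg_right hη2 (by positivity)
  have hpw' : (Real.pi ^ 2 / 4) * (trace (Q * Q * Q)).re ≤
      (∑ i, ∑ j, ∑ l, Q i j * Q j l * Q l i * ((c1 i j l : ℝ) : ℂ)).re := hpw
  change _ ≤ (∑ i, ∑ j, ∑ l, Q i j * Q j l * Q l i * ((c2 i j l : ℝ) : ℂ)).re
  linarith

end Vale.Agent.P371
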