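import Vale.Agent.P371.Defs
import Vale.Agent.P371.Energy
import Vale.Agent.P371.FinDim

/-!
# P371 task G : the kinetic inequality for orthonormal families in `H¹(ℝ; ℂ^m)`
-/

open Matrix Finset MeasureTheory
open scoped ComplexOrder

namespace Vale.Agent.P371

variable {N m : ℕ}

/-! ### one function in `H¹` -/

namespace IsH1

variable {u u' : ℝ → Vec m}

theorem locInt (h : IsH1 u u') : LocallyIntegrable u' volume :=
  h.memLp_deriv.locallyIntegrable (by norm_num)

theorem intInt (h : IsH1 u u') (a b : ℝ) : IntervalIntegrable u' volume a b :=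
  (h.locInt.integrableOn_isCompact isCompact_uIcc).intervalIntegrable

theorem continuous (h : IsH1 u u') : Continuous u := by
  have h1 : u = fun x => u 0 + ∫ t in (0:ℝ)..x, u' t := by
    funext x
    have := h.sub_eq 0 x
    rw [← this]; abel
  rw [h1]
  exact continuous_const.add (intervalIntegral.continuous_primitive (fun a b => h.intInt a b) 0)

theorem integrable_sq (h : IsH1 u u') : Integrable (fun x => ‖u x‖ ^ 2) :=
  (memLp_two_iff_integrable_sq_norm h.memLp.1).1 h.memLp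

theorem integrable_sq_deriv (h : IsH1 u u') : Integrable (fun x => ‖u' x‖ ^ 2) :=
  (memLp_two_iff_integrable_sq_norm h.memLp_deriv.1).1 h.memLp_deriv

theorem sq_le (h : IsH1 u u') (x : ℝ) :
    ‖u x‖ ^ 2 ≤ ∫ y in x..(x + 1), (2 * (‖u y‖ ^ 2 + ‖u' y‖ ^ 2)) := by
  have hint : IntervalIntegrable (fun y => ‖u' y‖) volume x (x + 1) := (h.intInt _ _).norm
  have hint2 : IntervalIntegrable (fun y => ‖u' y‖ ^ 2) volume x (x + 1) :=
    h.integrable_sq_deriv.intervalIntegrable
  have hintu : IntervalIntegrable (fun y => ‖u y‖ ^ 2) volume x (x + 1) :=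
    h.integrable_sq.intervalIntegrable
  set c := ∫ y in x..(x + 1), ‖u' y‖ with hc
  have hc0 : 0 ≤ c := intervalIntegral.integral_nonneg (by linarith) (fun _ _ => norm_nonneg _)
  have hcs : c ^ 2 ≤ ∫ y in x..(x + 1), ‖u' y‖ ^ 2 := by
    have h0 : 0 ≤ ∫ y in x..(x + 1), (‖u' y‖ - c) ^ 2 :=
      intervalIntegral.integral_nonneg (by linarith) (fun _ _ => sq_nonneg _)
    have h1 : ∫ y in x..(x + 1), (‖u' y‖ - c) ^ 2 =
        (∫ y in x..(x + 1), ‖u' y‖ ^ 2) - 2 * c * c + c ^ 2 := by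
      have e : (fun y => (‖u' y‖ - c) ^ 2) = fun y => ‖u' y‖ ^ 2 - (2 * c) * ‖u' y‖ + c ^ 2 := by
        funext y; ring
      rw [e, intervalIntegral.integral_add (hint2.sub (hint.const_mul _)) (by simp),
        intervalIntegral.integral_sub hint2 (hint.const_mul _),
        intervalIntegral.integral_const_mul, intervalIntegral.integral_const, ← hc]
      simp
    rw [h1] at h0
    nlinarith
  have key : ∀ y ∈ Set.Icc x (x + 1), ‖u x‖ ^ 2 ≤ 2 * ‖u y‖ ^ 2 + 2 * c ^ 2 := by
    intro y hy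
    have h1 : ‖u y - u x‖ ≤ c := by
      rw [h.sub_eq x y]
      refine (intervalIntegral.norm_integral_le_integral_norm hy.1).trans ?_
      rw [hc]
      exact intervalIntegral.integral_mono_interval le_rfl hy.1 hy.2
        (Filter.Eventually.of_forall fun _ => norm_nonneg _) hint
    have h2 : ‖u x‖ ≤ ‖u y‖ + c := by
      have := norm_sub_norm_le (u x) (u y)
      rw [norm_sub_rev] at this
      linarith
    have h3 : 0 ≤ ‖u x‖ := norm_nonneg _
    nlinarith [sq_nonneg (‖u y‖ - c)]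
  have h4 : ‖u x‖ ^ 2 = ∫ _y in x..(x + 1), ‖u x‖ ^ 2 := by
    rw [intervalIntegral.integral_const]; simp
  have h5 : (∫ _y in x..(x + 1), ‖u x‖ ^ 2) ≤ ∫ y in x..(x + 1), (2 * ‖u y‖ ^ 2 + 2 * c ^ 2) :=
    intervalIntegral.integral_mono_on (by linarith) (by simp) ((hintu.const_mul 2).add (by simp)) key
  have h6 : ∫ y in x..(x + 1), (2 * ‖u y‖ ^ 2 + 2 * c ^ 2) =
      2 * (∫ y in x..(x + 1), ‖u y‖ ^ 2) + 2 * c ^ 2 := by
    rw [intervalIntegral.integral_add (hintu.const_mul 2) (by simp),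
      intervalIntegral.integral_const_mul, intervalIntegral.integral_const]
    simp
  have h7 : ∫ y in x..(x + 1), (2 * (‖u y‖ ^ 2 + ‖u' y‖ ^ 2)) =
      2 * (∫ y in x..(x + 1), ‖u y‖ ^ 2) + 2 * ∫ y in x..(x + 1), ‖u' y‖ ^ 2 := by
    rw [intervalIntegral.integral_const_mul, intervalIntegral.integral_add hintu hint2]
    ring
  rw [h7]
  linarith

end IsH1

/-- For an integrable `g`, the integrals over `[x, x+1]` tend to zero at `+∞`. -/
theorem tendsto_window_atTop {g : ℝ → ℝ} (hg : Integrable g) :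
    Filter.Tendsto (fun x => ∫ y in x..(x + 1), g y) Filter.atTop (nhds 0) := by
  have h1 : Filter.Tendsto (fun x => ∫ y in (0:ℝ)..x, g y) Filter.atTop
      (nhds (∫ y in Set.Ioi 0, g y)) :=
    intervalIntegral_tendsto_integral_Ioi 0 hg.integrableOn Filter.tendsto_id
  have h2 : Filter.Tendsto (fun x => ∫ y in (0:ℝ)..(x + 1), g y) Filter.atTop
      (nhds (∫ y in Set.Ioi 0, g y)) :=
    intervalIntegral_tendsto_integral_Ioi 0 hg.integrableOn
      (Filter.tendsto_atTop_add_const_right _ _ Filter.tendsto_id)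
  have h3 := h2.sub h1
  rw [sub_self] at h3
  refine h3.congr fun x => ?_
  rw [intervalIntegral.integral_interval_sub_left hg.intervalIntegrable hg.intervalIntegrable]

theorem tendsto_window_atBot {g : ℝ → ℝ} (hg : Integrable g) :
    Filter.Tendsto (fun x => ∫ y in x..(x + 1), g y) Filter.atBot (nhds 0) := by
  have h1 : Filter.Tendsto (fun x => ∫ y in x..(0:ℝ), g y) Filter.atBot
      (nhds (∫ y in Set.Iic 0, g y)) :=
    intervalIntegral_tendsto_integral_Iic 0 hg.integrableOn Filter.tendsto_id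
  have h2 : Filter.Tendsto (fun x => ∫ y in (x + 1)..(0:ℝ), g y) Filter.atBot
      (nhds (∫ y in Set.Iic 0, g y)) :=
    intervalIntegral_tendsto_integral_Iic 0 hg.integrableOn
      (Filter.tendsto_atBot_add_const_right _ _ Filter.tendsto_id)
  have h3 := h1.sub h2
  rw [sub_self] at h3
  refine h3.congr fun x => ?_
  rw [← intervalIntegral.integral_add_adjacent_intervals (a := x) (b := x + 1) (c := 0)
    hg.intervalIntegrable hg.intervalIntegrable]
  ring

theorem window_le {g : ℝ → ℝ} (hg : Integrable g) (hg0 : ∀ x, 0 ≤ g x) (x : ℝ) :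
    ∫ y in x..(x + 1), g y ≤ ∫ y, g y := by
  rw [intervalIntegral.integral_of_le (by linarith)]
  exact setIntegral_le_integral hg (Filter.Eventually.of_forall hg0)

namespace IsH1

variable {u u' : ℝ → Vec m}

theorem integrable_bd (h : IsH1 u u') :
    Integrable (fun y => 2 * (‖u y‖ ^ 2 + ‖u' y‖ ^ 2)) :=
  (h.integrable_sq.add h.integrable_sq_deriv).const_mul 2

theorem exists_bound (h : IsH1 u u') : ∃ C : ℝ, 0 ≤ C ∧ ∀ x, ‖u x‖ ≤ C := by
  refine ⟨√(∫ y, 2 * (‖u y‖ ^ 2 + ‖u' y‖ ^ 2)), Real.sqrt_nonneg _, fun x => ?_⟩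
  apply Real.le_sqrt_of_sq_le
  exact (h.sq_le x).trans (window_le h.integrable_bd (fun y => by positivity) x)

theorem tendsto_atTop (h : IsH1 u u') : Filter.Tendsto u Filter.atTop (nhds 0) := by
  rw [tendsto_zero_iff_norm_tendsto_zero]
  have h1 : Filter.Tendsto (fun x => √(∫ y in x..(x + 1), (2 * (‖u y‖ ^ 2 + ‖u' y‖ ^ 2))))
      Filter.atTop (nhds 0) := by
    have := (tendsto_window_atTop h.integrable_bd).sqrt
    rwa [Real.sqrt_zero] at this
  exact squeeze_zero (fun _ => norm_nonneg _) (fun x => Real.le_sqrt_of_sq_le (h.sq_le x)) h1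

theorem tendsto_atBot (h : IsH1 u u') : Filter.Tendsto u Filter.atBot (nhds 0) := by
  rw [tendsto_zero_iff_norm_tendsto_zero]
  have h1 : Filter.Tendsto (fun x => √(∫ y in x..(x + 1), (2 * (‖u y‖ ^ 2 + ‖u' y‖ ^ 2))))
      Filter.atBot (nhds 0) := by
    have := (tendsto_window_atBot h.integrable_bd).sqrt
    rwa [Real.sqrt_zero] at this
  exact squeeze_zero (fun _ => norm_nonneg _) (fun x => Real.le_sqrt_of_sq_le (h.sq_le x)) h1

theorem isPrim (h : IsH1 u u') (a : Fin m) : IsPrim (fun x => u x a) (fun x => u' x a) := by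
  have hL : ∀ p q : ℝ, IntervalIntegrable (fun x => u' x a) volume p q := fun p q =>
    ⟨(EuclideanSpace.proj (𝕜 := ℂ) a).integrable_comp (h.intInt p q).1,
     (EuclideanSpace.proj (𝕜 := ℂ) a).integrable_comp (h.intInt p q).2⟩
  refine ⟨hL, fun p q => ?_⟩
  have := (EuclideanSpace.proj (𝕜 := ℂ) a).intervalIntegral_comp_comm (h.intInt p q)
  have h2 : (EuclideanSpace.proj (𝕜 := ℂ) a) (u q - u p) = u q a - u p a := by simp
  rw [← h2, h.sub_eq p q, ← this]
  rfl

theorem norm_apply_le (x : ℝ) (a : Fin m) : ‖u x a‖ ≤ ‖u x‖ := by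
  exact EuclideanSpace.norm_eq (u x) ▸ by
    apply Real.le_sqrt_of_sq_le
    exact Finset.single_le_sum (f := fun i => ‖u x i‖ ^ 2) (fun i _ => by positivity)
      (Finset.mem_univ a)

theorem continuous_apply (h : IsH1 u u') (a : Fin m) : Continuous (fun x => u x a) :=
  (EuclideanSpace.proj (𝕜 := ℂ) a).continuous.comp h.continuous

end IsH1

/-! ### the Gram matrix -/

/-- The matrix `P(x) = Ψ(x) Ψ(x)ᴴ`. -/
noncomputable def gram (u : Fin N → ℝ → Vec m) (x : ℝ) : Matrix (Fin N) (Fin N) ℂ :=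
  psiMat u x * (psiMat u x)ᴴ

theorem gram_apply (u : Fin N → ℝ → Vec m) (x : ℝ) (i j : Fin N) :
    gram u x i j = ∑ a, u i x a * star (u j x a) := by
  simp [gram, psiMat, Matrix.mul_apply, Matrix.conjTranspose_apply]

theorem gram_eq_inner (u : Fin N → ℝ → Vec m) (x : ℝ) (i j : Fin N) :
    gram u x i j = inner ℂ (u j x) (u i x) := by
  rw [gram_apply]
  simp [PiLp.inner_apply]

theorem norm_gram_le (u : Fin N → ℝ → Vec m) (x : ℝ) (i j : Fin N) :
    ‖gram u x i j‖ ≤ ‖u j x‖ * ‖u i x‖ := by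
  rw [gram_eq_inner]
  exact norm_inner_le_norm _ _

section family

variable {u u' : Fin N → ℝ → Vec m}

theorem continuous_gram (hu : ∀ j, IsH1 (u j) (u' j)) (i j : Fin N) :
    Continuous fun x => gram u x i j := by
  simp_rw [gram_eq_inner]
  exact (hu j).continuous.inner (hu i).continuous

theorem exists_bound_family (hu : ∀ j, IsH1 (u j) (u' j)) : ∃ C : ℝ, 0 ≤ C ∧ ∀ j x, ‖u j x‖ ≤ C := by
  choose C hC0 hC using fun j => (hu j).exists_bound
  refine ⟨∑ j, C j, Finset.sum_nonneg fun j _ => hC0 j, fun j x => ?_⟩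
  exact (hC j x).trans (Finset.single_le_sum (f := C) (fun i _ => hC0 i) (Finset.mem_univ j))

theorem integrable_gram (hu : ∀ j, IsH1 (u j) (u' j)) (i j : Fin N) :
    Integrable fun x => gram u x i j := by
  have h1 : Integrable fun x => (‖u j x‖ ^ 2 + ‖u i x‖ ^ 2) :=
    (hu j).integrable_sq.add (hu i).integrable_sq
  refine h1.mono' (continuous_gram hu i j).aestronglyMeasurable
    (Filter.Eventually.of_forall fun x => ?_)
  refine (norm_gram_le u x i j).trans ?_
  nlinarith [sq_nonneg (‖u j x‖ - ‖u i x‖), sq_nonneg (‖u j x‖ + ‖u i x‖)]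

theorem tendsto_gram_atTop (hu : ∀ j, IsH1 (u j) (u' j)) (i j : Fin N) :
    Filter.Tendsto (fun x => gram u x i j) Filter.atTop (nhds 0) := by
  simp_rw [gram_eq_inner]
  have := (hu j).tendsto_atTop.inner (𝕜 := ℂ) (hu i).tendsto_atTop
  simpa using this

theorem tendsto_gram_atBot (hu : ∀ j, IsH1 (u j) (u' j)) (i j : Fin N) :
    Filter.Tendsto (fun x => gram u x i j) Filter.atBot (nhds 0) := by
  simp_rw [gram_eq_inner]
  have := (hu j).tendsto_atBot.inner (𝕜 := ℂ) (hu i).tendsto_atBot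
  simpa using this

theorem exists_bound_gram (hu : ∀ j, IsH1 (u j) (u' j)) :
    ∃ C : ℝ, 0 ≤ C ∧ ∀ x i j, ‖gram u x i j‖ ≤ C := by
  obtain ⟨C, hC0, hC⟩ := exists_bound_family hu
  refine ⟨C * C, by positivity, fun x i j => (norm_gram_le u x i j).trans ?_⟩
  exact mul_le_mul (hC j x) (hC i x) (norm_nonneg _) hC0

theorem integrable_gram_mul3 (hu : ∀ j, IsH1 (u j) (u' j)) (i j k l p q : Fin N) :
    Integrable fun x => gram u x i j * gram u x k l * gram u x p q := by
  obtain ⟨C, hC0, hC⟩ := exists_bound_gram hu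
  have h1 : Integrable fun x => (C * C) * ‖gram u x p q‖ := (integrable_gram hu p q).norm.const_mul _
  refine h1.mono' (((continuous_gram hu i j).mul (continuous_gram hu k l)).mul
    (continuous_gram hu p q)).aestronglyMeasurable (Filter.Eventually.of_forall fun x => ?_)
  rw [norm_mul, norm_mul]
  exact mul_le_mul_of_nonneg_right (mul_le_mul (hC x i j) (hC x k l) (norm_nonneg _) hC0)
    (norm_nonneg _)

end family

theorem trace_mul3 (P : Matrix (Fin N) (Fin N) ℂ) :
    trace (P * P * P) = ∑ i, ∑ j, ∑ k, P i k * P k j * P j i := by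
  simp [Matrix.trace, Matrix.mul_apply, Finset.sum_mul]

theorem integrable_tr_cube (u u' : Fin N → ℝ → Vec m) (hu : ∀ j, IsH1 (u j) (u' j)) :
    Integrable (fun x => (trace (psiMat u x * (psiMat u x)ᴴ * (psiMat u x * (psiMat u x)ᴴ) *
      (psiMat u x * (psiMat u x)ᴴ))).re) := by
  have h : Integrable fun x => trace (gram u x * gram u x * gram u x) := by
    simp_rw [trace_mul3]
    refine integrable_finsetSum _ fun i _ => integrable_finsetSum _ fun j _ =>
      integrable_finsetSum _ fun k _ => integrable_gram_mul3 hu _ _ _ _ _ _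
  exact h.re

theorem trace_gram_re (u : Fin N → ℝ → Vec m) (x : ℝ) :
    (trace (gram u x)).re = ∑ j, ‖u j x‖ ^ 2 := by
  rw [Matrix.trace, Complex.re_sum]
  refine Finset.sum_congr rfl fun j _ => ?_
  rw [Matrix.diag_apply, gram_eq_inner, inner_self_eq_norm_sq_to_K]
  norm_cast

theorem integrable_trace_cube (u u' : Fin N → ℝ → Vec m) (hu : ∀ j, IsH1 (u j) (u' j)) :
    Integrable (fun x => (trace (gram u x)).re ^ 3) := by
  obtain ⟨C, hC0, hC⟩ := exists_bound_family hu
  have h1 : Integrable fun x => (∑ j : Fin N, C ^ 2) ^ 2 * ∑ j, ‖u j x‖ ^ 2 :=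
    (integrable_finsetSum _ fun j _ => (hu j).integrable_sq).const_mul _
  refine h1.mono' ?_ (Filter.Eventually.of_forall fun x => ?_)
  · simp_rw [trace_gram_re]
    exact ((continuous_finsetSum _ fun j _ => (hu j).continuous.norm.pow 2).pow 3).aestronglyMeasurable
  · rw [trace_gram_re]
    have h0 : 0 ≤ ∑ j, ‖u j x‖ ^ 2 := Finset.sum_nonneg fun j _ => by positivity
    have h2 : ∑ j, ‖u j x‖ ^ 2 ≤ ∑ j : Fin N, C ^ 2 :=
      Finset.sum_le_sum fun j _ => pow_le_pow_left₀ (norm_nonneg _) (hC j x) 2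
    rw [Real.norm_of_nonneg (by positivity), pow_succ]
    exact mul_le_mul_of_nonneg_right (pow_le_pow_left₀ h0 h2 2) h0

/-! ### continuity of `V` -/

theorem continuous_symPow (l : ℕ) :
    Continuous fun p : Matrix (Fin N) (Fin N) ℂ × Matrix (Fin N) (Fin N) ℂ => symPow p.1 p.2 l := by
  induction l with
  | zero => exact continuous_snd
  | succ l ih =>
    simp only [symPow_zero, symPow_succ]
    exact (continuous_fst.matrix_mul ih).add (ih.matrix_mul continuous_fst)

theorem continuous_vFun (k : Polynomial ℝ) :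
    Continuous fun p : Matrix (Fin N) (Fin N) ℂ × Matrix (Fin N) (Fin N) ℂ =>
      vFun k p.1 p.2 := by
  unfold vFun kOp
  refine continuous_const.mul (Continuous.matrix_trace (continuous_snd.matrix_mul ?_))
  refine continuous_finsetSum _ fun l _ => ?_
  have := continuous_symPow (N := N) l
  fun_prop

theorem vFun_zero (k : Polynomial ℝ) (S : Matrix (Fin N) (Fin N) ℂ) : vFun k S 0 = 0 := by
  simp [vFun]

theorem tendsto_matrix {n₁ n₂ : Type*} {f : ℝ → Matrix n₁ n₂ ℂ} {L : Matrix n₁ n₂ ℂ}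
    {l : Filter ℝ} (h : ∀ i j, Filter.Tendsto (fun x => f x i j) l (nhds (L i j))) :
    Filter.Tendsto f l (nhds L) :=
  tendsto_pi_nhds.2 fun i => tendsto_pi_nhds.2 fun j => h i j

/-! ### the cumulated density -/

/-- `S_ε(x) = ε + (1 - 2ε) ∫_{-∞}^x P`. -/
noncomputable def cum (u : Fin N → ℝ → Vec m) (ε x : ℝ) : Matrix (Fin N) (Fin N) ℂ :=
  (ε : ℂ) • (1 : Matrix (Fin N) (Fin N) ℂ) +
    Matrix.of fun i j => ((1 - 2 * ε : ℝ) : ℂ) * ∫ t in Set.Iic x, gram u t i j

section cum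

variable {u u' : Fin N → ℝ → Vec m}

theorem cum_sub (hu : ∀ j, IsH1 (u j) (u' j)) (ε a b : ℝ) (i j : Fin N) :
    cum u ε b i j - cum u ε a i j = ∫ x in a..b, ((1 - 2 * ε : ℝ) : ℂ) * gram u x i j := by
  rw [intervalIntegral.integral_const_mul,
    ← intervalIntegral.integral_Iic_sub_Iic (integrable_gram hu i j).integrableOn
      (integrable_gram hu i j).integrableOn]
  simp [cum]
  ring

theorem quad_integral (hu : ∀ j, IsH1 (u j) (u' j)) (s : Set ℝ) (v : Fin N → ℂ) :
    star v ⬝ᵥ ((Matrix.of fun i j => ∫ t in s, gram u t i j) *ᵥ v) =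
      ∫ t in s, star v ⬝ᵥ (gram u t *ᵥ v) := by
  simp only [dotProduct, Matrix.mulVec, Matrix.of_apply]
  rw [integral_finsetSum _ (fun i _ => ?_)]
  · refine Finset.sum_congr rfl fun i _ => ?_
    rw [integral_const_mul, integral_finsetSum _ (fun j _ => ?_)]
    · congr 1
      refine Finset.sum_congr rfl fun j _ => ?_
      rw [integral_mul_const]
    · exact ((integrable_gram hu i j).integrableOn.mul_const _)
  · refine Integrable.const_mul ?_ _
    exact integrable_finsetSum _ fun j _ => (integrable_gram hu i j).integrableOn.mul_const _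

theorem gram_posSemidef (u : Fin N → ℝ → Vec m) (x : ℝ) : (gram u x).PosSemidef := by
  have := Matrix.posSemidef_self_mul_conjTranspose (psiMat u x)
  exact this

theorem integral_gram_posSemidef (hu : ∀ j, IsH1 (u j) (u' j)) (s : Set ℝ) :
    (Matrix.of fun i j => ∫ t in s, gram u t i j).PosSemidef := by
  refine Matrix.PosSemidef.of_dotProduct_mulVec_nonneg ?_ fun v => ?_
  · ext i j
    rw [Matrix.conjTranspose_apply, Matrix.of_apply, Matrix.of_apply]
    have h := fun t => congrFun (congrFun (gram_posSemidef u t).1 i) j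
    simp_rw [← h, Matrix.conjTranspose_apply]
    exact (integral_conj).symm
  · rw [quad_integral hu]
    have h := fun t => (gram_posSemidef u t).dotProduct_mulVec_nonneg v
    have hre : ∀ t, star v ⬝ᵥ (gram u t *ᵥ v) = (((star v ⬝ᵥ (gram u t *ᵥ v)).re : ℝ) : ℂ) := by
      intro t
      have := Complex.le_def.1 (h t)
      apply Complex.ext
      · simp
      · simpa using this.2.symm
    have e : ∫ t in s, star v ⬝ᵥ (gram u t *ᵥ v) =
        ∫ t in s, (((star v ⬝ᵥ (gram u t *ᵥ v)).re : ℝ) : ℂ) :=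
      integral_congr_ae (Filter.Eventually.of_forall hre)
    rw [e, integral_complex_ofReal]
    have h2 : 0 ≤ ∫ t in s, (star v ⬝ᵥ (gram u t *ᵥ v)).re :=
      integral_nonneg fun t => (Complex.le_def.1 (h t)).1
    exact_mod_cast h2

theorem integral_gram_univ (hon : ∀ i j, ∫ x, inner ℂ (u i x) (u j x) = if i = j then (1 : ℂ) else 0)
    (i j : Fin N) : ∫ t, gram u t i j = (1 : Matrix (Fin N) (Fin N) ℂ) i j := by
  simp_rw [gram_eq_inner]
  rw [hon, Matrix.one_apply]
  simp only [eq_comm]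

theorem cum_lower (hu : ∀ j, IsH1 (u j) (u' j)) {ε : ℝ} (hε : ε < 1 / 2) (x : ℝ) :
    (cum u ε x - (ε : ℂ) • (1 : Matrix (Fin N) (Fin N) ℂ)).PosSemidef := by
  have h := (integral_gram_posSemidef hu (Set.Iic x)).smul
    (show (0:ℂ) ≤ ((1 - 2 * ε : ℝ) : ℂ) by
      rw [Complex.zero_le_real]; linarith)
  convert h using 1
  ext i j
  simp [cum]

theorem cum_upper (hu : ∀ j, IsH1 (u j) (u' j))
    (hon : ∀ i j, ∫ x, inner ℂ (u i x) (u j x) = if i = j then (1 : ℂ) else 0)
    {ε : ℝ} (hε : ε < 1 / 2) (x : ℝ) :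
    (((1 - ε : ℝ) : ℂ) • (1 : Matrix (Fin N) (Fin N) ℂ) - cum u ε x).PosSemidef := by
  have h := (integral_gram_posSemidef hu (Set.Ioi x)).smul
    (show (0:ℂ) ≤ ((1 - 2 * ε : ℝ) : ℂ) by
      rw [Complex.zero_le_real]; linarith)
  convert h using 1
  ext i j
  have h1 : (∫ t in Set.Iic x, gram u t i j) + ∫ t in Set.Ioi x, gram u t i j =
      (1 : Matrix (Fin N) (Fin N) ℂ) i j := by
    rw [← integral_gram_univ hon i j]
    exact intervalIntegral.integral_Iic_add_Ioi (integrable_gram hu i j).integrableOn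
      (integrable_gram hu i j).integrableOn
  simp only [cum, Matrix.sub_apply, Matrix.smul_apply, Matrix.add_apply, Matrix.of_apply,
    smul_eq_mul]
  rw [← h1]
  push_cast
  ring

theorem cum_isHermitian (hu : ∀ j, IsH1 (u j) (u' j)) {ε : ℝ} (hε : ε < 1 / 2) (x : ℝ) :
    (cum u ε x).IsHermitian := by
  have h1 := (cum_lower hu hε x).1
  have h2 : (((ε : ℝ) : ℂ) • (1 : Matrix (Fin N) (Fin N) ℂ)).IsHermitian := by
    rw [Matrix.IsHermitian, Matrix.conjTranspose_smul, Matrix.conjTranspose_one]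
    simp
  have h3 := h1.add h2
  simpa using h3

theorem tendsto_cum_atTop (hu : ∀ j, IsH1 (u j) (u' j)) (ε : ℝ) :
    ∃ L : Matrix (Fin N) (Fin N) ℂ, Filter.Tendsto (fun x => cum u ε x) Filter.atTop (nhds L) := by
  refine ⟨Matrix.of fun i j => cum u ε 0 i j + ((1 - 2 * ε : ℝ) : ℂ) *
    ∫ t in Set.Ioi 0, gram u t i j, ?_⟩
  refine tendsto_matrix fun i j => ?_
  have h1 : Filter.Tendsto (fun x => ∫ y in (0:ℝ)..x, gram u y i j) Filter.atTop
      (nhds (∫ y in Set.Ioi 0, gram u y i j)) :=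
    intervalIntegral_tendsto_integral_Ioi 0 (integrable_gram hu i j).integrableOn Filter.tendsto_id
  have h2 : (fun x => cum u ε x i j) = fun x => cum u ε 0 i j +
      ((1 - 2 * ε : ℝ) : ℂ) * ∫ y in (0:ℝ)..x, gram u y i j := by
    funext x
    have := cum_sub hu ε 0 x i j
    rw [intervalIntegral.integral_const_mul] at this
    rw [← this]; ring
  rw [h2]
  exact tendsto_const_nhds.add (h1.const_mul _)

theorem tendsto_cum_atBot (hu : ∀ j, IsH1 (u j) (u' j)) (ε : ℝ) :
    ∃ L : Matrix (Fin N) (Fin N) ℂ, Filter.Tendsto (fun x => cum u ε x) Filter.atBot (nhds L) := by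
  refine ⟨Matrix.of fun i j => cum u ε 0 i j - ((1 - 2 * ε : ℝ) : ℂ) *
    ∫ t in Set.Iic 0, gram u t i j, ?_⟩
  refine tendsto_matrix fun i j => ?_
  have h1 : Filter.Tendsto (fun x => ∫ y in x..(0:ℝ), gram u y i j) Filter.atBot
      (nhds (∫ y in Set.Iic 0, gram u y i j)) :=
    intervalIntegral_tendsto_integral_Iic 0 (integrable_gram hu i j).integrableOn Filter.tendsto_id
  have h2 : (fun x => cum u ε x i j) = fun x => cum u ε 0 i j -
      ((1 - 2 * ε : ℝ) : ℂ) * ∫ y in x..(0:ℝ), gram u y i j := by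
    funext x
    have := cum_sub hu ε x 0 i j
    rw [intervalIntegral.integral_const_mul] at this
    rw [← this]; ring
  rw [h2]
  exact tendsto_const_nhds.sub (h1.const_mul _)

end cum

/-! ### the main estimate for fixed `ε`, `δ` -/

theorem psi_scaled_gram (u : Fin N → ℝ → Vec m) (c : ℝ) (x : ℝ) :
    (((c : ℝ) : ℂ) • psiMat u x) * (((c : ℝ) : ℂ) • psiMat u x)ᴴ =
      (((c * c : ℝ) : ℂ)) • gram u x := by
  rw [Matrix.conjTranspose_smul, Matrix.smul_mul, Matrix.mul_smul, smul_smul, gram]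
  congr 1
  simp

theorem kinetic_eps (u u' : Fin N → ℝ → Vec m) (hu : ∀ j, IsH1 (u j) (u' j))
    (hon : ∀ i j, ∫ x, inner ℂ (u i x) (u j x) = if i = j then (1 : ℂ) else 0)
    {ε δ : ℝ} (hε : 0 < ε) (hε' : ε < 1 / 2) (hδ : 0 < δ) :
    (1 - 2 * ε) ^ 3 * ((Real.pi ^ 2 / 4) * (∫ x, (trace (gram u x * gram u x * gram u x)).re)
      - δ * ∫ x, (trace (gram u x)).re ^ 3) ≤ (1 - 2 * ε) * ∑ j, ∫ x, ‖u' j x‖ ^ 2 := by
  obtain ⟨k, hk⟩ := exists_poly N ε δ hε hε' hδ
  set c : ℝ := √(1 - 2 * ε) with hc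
  have hcc : c * c = 1 - 2 * ε := Real.mul_self_sqrt (by linarith)
  set Ψ : ℝ → Matrix (Fin N) (Fin m) ℂ := fun x => (c : ℂ) • psiMat u x with hΨdef
  set Ψ' : ℝ → Matrix (Fin N) (Fin m) ℂ := fun x => (c : ℂ) • psiMat u' x with hΨ'def
  have hPe : ∀ x, Ψ x * (Ψ x)ᴴ = ((1 - 2 * ε : ℝ) : ℂ) • gram u x := by
    intro x
    rw [← hcc]
    exact psi_scaled_gram u c x
  have hprim : ∀ j a, IsPrim (fun x => Ψ x j a) (fun x => Ψ' x j a) := by
    intro j a
    obtain ⟨h1, h2⟩ := (hu j).isPrim a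
    refine ⟨fun p q => (h1 p q).const_mul _, fun p q => ?_⟩
    simp only [hΨdef, hΨ'def, Matrix.smul_apply, psiMat, Matrix.of_apply, smul_eq_mul]
    rw [intervalIntegral.integral_const_mul, ← h2 p q]
    ring
  have hsq : ∀ j a, Integrable fun x => ‖Ψ' x j a‖ ^ 2 := by
    intro j a
    have h1 : AEStronglyMeasurable (fun x => u' j x a) volume :=
      (EuclideanSpace.proj (𝕜 := ℂ) a).continuous.comp_aestronglyMeasurable (hu j).memLp_deriv.1
    have h2 : Integrable fun x => ‖u' j x a‖ ^ 2 := by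
      refine (hu j).integrable_sq_deriv.mono' (h1.norm.pow 2)
        (Filter.Eventually.of_forall fun x => ?_)
      rw [Real.norm_of_nonneg (by positivity)]
      exact pow_le_pow_left₀ (norm_nonneg _) (IsH1.norm_apply_le (u := u' j) x a) 2
    have h3 := h2.const_mul (c ^ 2)
    refine h3.congr (Filter.Eventually.of_forall fun x => ?_)
    simp only [hΨ'def, Matrix.smul_apply, psiMat, Matrix.of_apply, smul_eq_mul, norm_mul, mul_pow,
      Complex.norm_real, Real.norm_eq_abs, sq_abs]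
  have hS : ∀ i j, IsPrim (fun x => cum u ε x i j) (fun x => (Ψ x * (Ψ x)ᴴ) i j) := by
    intro i j
    have e : (fun x => (Ψ x * (Ψ x)ᴴ) i j) = fun x => ((1 - 2 * ε : ℝ) : ℂ) * gram u x i j := by
      funext x
      rw [hPe]
      simp
    rw [e]
    exact ⟨fun p q => ((integrable_gram hu i j).const_mul _).intervalIntegrable,
      fun p q => cum_sub hu ε p q i j⟩
  have henergy : ∀ r : ℝ, 0 ≤ r →
      (vFun k (cum u ε r) (Ψ r * (Ψ r)ᴴ)).re - (vFun k (cum u ε (-r)) (Ψ (-r) * (Ψ (-r))ᴴ)).re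
        + ∫ x in (-r)..r, TT k (cum u ε x) (Ψ x * (Ψ x)ᴴ) ≤
      ∫ x in (-r)..r, ∑ j, ∑ a, ‖Ψ' x j a‖ ^ 2 := by
    intro r hr
    exact local_energy k Ψ Ψ' (cum u ε) hprim (fun j a p q => (hsq j a).intervalIntegrable) hS
      (cum_isHermitian hu hε') (by linarith)
  -- the lower bound for `TT`
  have hlow : ∀ x, (1 - 2 * ε) ^ 3 * ((Real.pi ^ 2 / 4) * (trace (gram u x * gram u x * gram u x)).re
      - δ * (trace (gram u x)).re ^ 3) ≤ TT k (cum u ε x) (Ψ x * (Ψ x)ᴴ) := by
    intro x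
    have h := hk (cum u ε x) (Ψ x * (Ψ x)ᴴ) (cum_lower hu hε' x) (cum_upper hu hon hε' x)
      (by rw [hPe]
          exact (gram_posSemidef u x).smul (by rw [Complex.zero_le_real]; linarith))
    refine le_trans (le_of_eq ?_) h
    rw [hPe]
    have e1 : trace (((1 - 2 * ε : ℝ) : ℂ) • gram u x * ((1 - 2 * ε : ℝ) : ℂ) • gram u x *
        ((1 - 2 * ε : ℝ) : ℂ) • gram u x) =
        (((1 - 2 * ε) ^ 3 : ℝ) : ℂ) * trace (gram u x * gram u x * gram u x) := by
      simp only [Matrix.smul_mul, Matrix.mul_smul, Matrix.trace_smul, smul_eq_mul]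
      push_cast
      ring
    rw [e1, Matrix.trace_smul, smul_eq_mul, Complex.re_ofReal_mul, Complex.re_ofReal_mul]
    ring
  have hintlow : Integrable fun x => (1 - 2 * ε) ^ 3 *
      ((Real.pi ^ 2 / 4) * (trace (gram u x * gram u x * gram u x)).re
      - δ * (trace (gram u x)).re ^ 3) :=
    (((integrable_tr_cube u u' hu).const_mul _).sub
      ((integrable_trace_cube u u' hu).const_mul _)).const_mul _
  have hcontS : ∀ i j, Continuous fun x => cum u ε x i j := by
    intro i j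
    have h1 : (fun x => cum u ε x i j) = fun x => cum u ε 0 i j +
        ∫ y in (0:ℝ)..x, ((1 - 2 * ε : ℝ) : ℂ) * gram u y i j := by
      funext x
      rw [← cum_sub hu ε 0 x i j]; ring
    rw [h1]
    exact continuous_const.add (intervalIntegral.continuous_primitive
      (fun a b => ((integrable_gram hu i j).const_mul _).intervalIntegrable) 0)
  have hineq : ∀ r : ℝ, 0 ≤ r →
      (vFun k (cum u ε r) (Ψ r * (Ψ r)ᴴ)).re - (vFun k (cum u ε (-r)) (Ψ (-r) * (Ψ (-r))ᴴ)).re
        + ∫ x in (-r)..r, (1 - 2 * ε) ^ 3 *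
      ((Real.pi ^ 2 / 4) * (trace (gram u x * gram u x * gram u x)).re
      - δ * (trace (gram u x)).re ^ 3) ≤
      ∫ x in (-r)..r, ∑ j, ∑ a, ‖Ψ' x j a‖ ^ 2 := by
    intro r hr
    refine le_trans (add_le_add le_rfl ?_) (henergy r hr)
    refine intervalIntegral.integral_mono_on (by linarith) hintlow.intervalIntegrable ?_
      (fun x _ => hlow x)
    refine intervalIntegrable_TT k Ψ (cum u ε) (fun j a => ?_) hcontS _ _
    exact continuous_const.mul ((hu j).continuous_apply a)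
  -- limits
  have hPtop : Filter.Tendsto (fun x => Ψ x * (Ψ x)ᴴ) Filter.atTop (nhds 0) := by
    simp_rw [hPe]
    refine tendsto_matrix fun i j => ?_
    have := (tendsto_gram_atTop hu i j).const_mul (((1 - 2 * ε : ℝ) : ℂ))
    simpa using this
  have hPbot : Filter.Tendsto (fun x => Ψ x * (Ψ x)ᴴ) Filter.atBot (nhds 0) := by
    simp_rw [hPe]
    refine tendsto_matrix fun i j => ?_
    have := (tendsto_gram_atBot hu i j).const_mul (((1 - 2 * ε : ℝ) : ℂ))
    simpa using this
  have hVtop : Filter.Tendsto (fun x => (vFun k (cum u ε x) (Ψ x * (Ψ x)ᴴ)).re) Filter.atTop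
      (nhds 0) := by
    obtain ⟨L, hL⟩ := tendsto_cum_atTop hu ε
    have h1 := ((continuous_vFun (N := N) k).tendsto (L, 0)).comp (hL.prodMk_nhds hPtop)
    rw [vFun_zero] at h1
    have h2 := (Complex.continuous_re.tendsto 0).comp h1
    simpa [Function.comp_def] using h2
  have hVbot : Filter.Tendsto (fun x => (vFun k (cum u ε x) (Ψ x * (Ψ x)ᴴ)).re) Filter.atBot
      (nhds 0) := by
    obtain ⟨L, hL⟩ := tendsto_cum_atBot hu ε
    have h1 := ((continuous_vFun (N := N) k).tendsto (L, 0)).comp (hL.prodMk_nhds hPbot)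
    rw [vFun_zero] at h1
    have h2 := (Complex.continuous_re.tendsto 0).comp h1
    simpa [Function.comp_def] using h2
  have hVbot' : Filter.Tendsto (fun r => (vFun k (cum u ε (-r)) (Ψ (-r) * (Ψ (-r))ᴴ)).re)
      Filter.atTop (nhds 0) := hVbot.comp Filter.tendsto_neg_atTop_atBot
  have hI1 := intervalIntegral_tendsto_integral hintlow Filter.tendsto_neg_atTop_atBot
    Filter.tendsto_id
  have hintΨ : Integrable fun x => ∑ j, ∑ a, ‖Ψ' x j a‖ ^ 2 :=
    integrable_finsetSum _ fun j _ => integrable_finsetSum _ fun a _ => hsq j a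
  have hI2 := intervalIntegral_tendsto_integral hintΨ Filter.tendsto_neg_atTop_atBot
    Filter.tendsto_id
  have hlim := (hVtop.sub hVbot').add hI1
  have hfinal := le_of_tendsto_of_tendsto hlim hI2
    ((Filter.eventually_ge_atTop 0).mono fun r hr => hineq r hr)
  have hi3 : Integrable fun x => (trace (gram u x * gram u x * gram u x)).re :=
    integrable_tr_cube u u' hu
  rw [sub_zero, zero_add, integral_const_mul,
    integral_sub (hi3.const_mul _)
      ((integrable_trace_cube u u' hu).const_mul _), integral_const_mul, integral_const_mul]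
    at hfinal
  refine hfinal.trans (le_of_eq ?_)
  have e : (fun x => ∑ j, ∑ a, ‖Ψ' x j a‖ ^ 2) = fun x => ∑ j, (1 - 2 * ε) * ‖u' j x‖ ^ 2 := by
    funext x
    refine Finset.sum_congr rfl fun j _ => ?_
    rw [EuclideanSpace.norm_sq_eq, Finset.mul_sum]
    refine Finset.sum_congr rfl fun a _ => ?_
    simp only [hΨ'def, Matrix.smul_apply, psiMat, Matrix.of_apply, smul_eq_mul, norm_mul, mul_pow,
      Complex.norm_real, Real.norm_eq_abs, sq_abs]
    rw [← hcc]; ring
  rw [e, integral_finsetSum _ fun j _ => (hu j).integrable_sq_deriv.const_mul _, Finset.mul_sum]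
  refine Finset.sum_congr rfl fun j _ => ?_
  rw [integral_const_mul]

theorem kinetic (u u' : Fin N → ℝ → Vec m) (hu : ∀ j, IsH1 (u j) (u' j))
    (hon : ∀ i j, ∫ x, inner ℂ (u i x) (u j x) = if i = j then (1 : ℂ) else 0) :
    (Real.pi ^ 2 / 4) * ∫ x, (trace (psiMat u x * (psiMat u x)ᴴ * (psiMat u x * (psiMat u x)ᴴ) *
      (psiMat u x * (psiMat u x)ᴴ))).re ≤ ∑ j, ∫ x, ‖u' j x‖ ^ 2 := by
  set A := ∫ x, (trace (gram u x * gram u x * gram u x)).re with hA
  set B := ∫ x, (trace (gram u x)).re ^ 3 with hB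
  set D := ∑ j, ∫ x, ‖u' j x‖ ^ 2 with hD
  change (Real.pi ^ 2 / 4) * A ≤ D
  have h1 : ∀ ε ∈ Set.Ioo (0:ℝ) (1/2), (1 - 2 * ε) ^ 3 * ((Real.pi ^ 2 / 4) * A - ε * B) ≤
      (1 - 2 * ε) * D := fun ε hε => kinetic_eps u u' hu hon hε.1 hε.2 hε.1
  have hc1 : Filter.Tendsto (fun ε : ℝ => (1 - 2 * ε) ^ 3 * ((Real.pi ^ 2 / 4) * A - ε * B))
      (nhdsWithin 0 (Set.Ioi 0)) (nhds ((1 - 2 * 0) ^ 3 * ((Real.pi ^ 2 / 4) * A - 0 * B))) :=
    (Continuous.tendsto (by fun_prop) 0).mono_left nhdsWithin_le_nhds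
  have hc2 : Filter.Tendsto (fun ε : ℝ => (1 - 2 * ε) * D)
      (nhdsWithin 0 (Set.Ioi 0)) (nhds ((1 - 2 * 0) * D)) :=
    (Continuous.tendsto (by fun_prop) 0).mono_left nhdsWithin_le_nhds
  have h2 := le_of_tendsto_of_tendsto hc1 hc2 (by
    filter_upwards [Ioo_mem_nhdsGT (show (0:ℝ) < 1/2 by norm_num)] with ε hε using h1 ε hε)
  simpa using h2

end Vale.Agent.P371
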