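import Vale.Agent.P371.Alg

/-!
# P371 task F : polynomial approximation of `κ(x) = (π/2) cot (πx/2)` in `C¹([2ε, 2-2ε])`
-/

open Set

namespace Vale.Agent.P371

theorem sin_half_pos {x : ℝ} (hx : x ∈ Ioo (0 : ℝ) 2) : 0 < Real.sin (Real.pi * x / 2) := by
  have hp := Real.pi_pos
  apply Real.sin_pos_of_pos_of_lt_pi
  · have := mul_pos hp hx.1
    linarith
  · have := mul_lt_mul_of_pos_left hx.2 hp
    linarith

theorem hasDerivAt_kap {x : ℝ} (hx : x ∈ Ioo (0 : ℝ) 2) : HasDerivAt kap (kapD x) x := by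
  have hs : Real.sin (Real.pi * x / 2) ≠ 0 := (sin_half_pos hx).ne'
  have h1 : HasDerivAt (fun y : ℝ => Real.pi * y / 2) (Real.pi / 2) x := by
    have := ((hasDerivAt_id x).const_mul Real.pi).div_const 2
    simpa using this
  have h4 := (h1.cos.div h1.sin hs).const_mul (Real.pi / 2)
  have e : kapD x = Real.pi / 2 * ((-Real.sin (Real.pi * x / 2) * (Real.pi / 2) *
      Real.sin (Real.pi * x / 2) - Real.cos (Real.pi * x / 2) *
        (Real.cos (Real.pi * x / 2) * (Real.pi / 2))) / Real.sin (Real.pi * x / 2) ^ 2) := by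
    unfold kapD
    have := Real.sin_sq_add_cos_sq (Real.pi * x / 2)
    have e2 : -Real.sin (Real.pi * x / 2) * (Real.pi / 2) *
      Real.sin (Real.pi * x / 2) - Real.cos (Real.pi * x / 2) *
        (Real.cos (Real.pi * x / 2) * (Real.pi / 2)) = - (Real.pi / 2) *
        (Real.sin (Real.pi * x / 2) ^ 2 + Real.cos (Real.pi * x / 2) ^ 2) := by ring
    rw [e2, this]
    ring
  rw [e]
  exact h4

theorem continuousOn_kapD : ContinuousOn kapD (Ioo 0 2) := by
  intro x hx
  apply ContinuousAt.continuousWithinAt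
  unfold kapD
  have hs : Real.sin (Real.pi * x / 2) ≠ 0 := (sin_half_pos hx).ne'
  apply ContinuousAt.div
  · fun_prop
  · fun_prop
  · positivity

/-- An antiderivative of a polynomial. -/
noncomputable def antider (p : Polynomial ℝ) : Polynomial ℝ :=
  ∑ n ∈ Finset.range (p.natDegree + 1), Polynomial.monomial (n + 1) (p.coeff n / (n + 1))

theorem derivative_antider (p : Polynomial ℝ) : (antider p).derivative = p := by
  unfold antider
  rw [Polynomial.derivative_sum]
  conv_rhs => rw [Polynomial.as_sum_range p]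
  apply Finset.sum_congr rfl
  intro n _
  rw [Polynomial.derivative_monomial]
  have : ((n : ℝ) + 1) ≠ 0 := by positivity
  congr 1
  push_cast
  field_simp

/-- the polynomial with both approximation properties, in Lipschitz form -/
theorem exists_poly_lip (ε η : ℝ) (hε : 0 < ε) (hε' : ε < 1 / 2) (hη : 0 < η) :
    ∃ k : Polynomial ℝ, (∀ x ∈ Icc (2 * ε) (2 - 2 * ε), |k.derivative.eval x - kapD x| ≤ η) ∧
      (∀ x ∈ Icc (2 * ε) (2 - 2 * ε), |k.eval x - kap x| ≤ η) ∧
      ∀ x ∈ Icc (2 * ε) (2 - 2 * ε), ∀ y ∈ Icc (2 * ε) (2 - 2 * ε),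
        |(k.eval x - kap x) - (k.eval y - kap y)| ≤ η * |x - y| := by
  have hsub : Icc (2 * ε) (2 - 2 * ε) ⊆ Ioo (0 : ℝ) 2 := by
    intro x hx
    exact ⟨by linarith [hx.1], by linarith [hx.2]⟩
  obtain ⟨p, hp⟩ := exists_polynomial_near_of_continuousOn (2 * ε) (2 - 2 * ε) kapD
    (continuousOn_kapD.mono hsub) η hη
  let k : Polynomial ℝ := antider p - Polynomial.C ((antider p).eval 1)
  have kd : k.derivative = p := by
    simp only [k, Polynomial.derivative_sub, Polynomial.derivative_C, sub_zero,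
      derivative_antider]
  have hlip : ∀ x ∈ Icc (2 * ε) (2 - 2 * ε), ∀ y ∈ Icc (2 * ε) (2 - 2 * ε),
        |(k.eval x - kap x) - (k.eval y - kap y)| ≤ η * |x - y| := by
    intro x hx y hy
    have h := (convex_Icc (2 * ε) (2 - 2 * ε)).norm_image_sub_le_of_norm_hasDerivWithin_le
      (f := fun z => k.eval z - kap z) (f' := fun z => k.derivative.eval z - kapD z) (C := η)
      (fun z hz => ((k.hasDerivAt z).sub (hasDerivAt_kap (hsub hz))).hasDerivWithinAt)
      (fun z hz => by
        rw [kd, Real.norm_eq_abs]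
        exact (hp z hz).le) hy hx
    simpa only [Real.norm_eq_abs] using h
  refine ⟨k, ?_, ?_, hlip⟩
  · intro x hx
    rw [kd]
    exact (hp x hx).le
  · intro x hx
    have h1 : (1 : ℝ) ∈ Icc (2 * ε) (2 - 2 * ε) := ⟨by linarith, by linarith⟩
    have h := hlip x hx 1 h1
    have k1 : k.eval 1 = 0 := by simp [k]
    have kap1 : kap 1 = 0 := by
      unfold kap
      rw [mul_one, Real.cos_pi_div_two]
      simp
    rw [k1, kap1] at h
    have hx1 : |x - 1| ≤ 1 := by
      rw [abs_le]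
      constructor <;> linarith [hx.1, hx.2]
    have : η * |x - 1| ≤ η * 1 := mul_le_mul_of_nonneg_left hx1 hη.le
    simpa using h.trans this

theorem exists_poly_approx (ε η : ℝ) (hε : 0 < ε) (hε' : ε < 1 / 2) (hη : 0 < η) :
    ∃ k : Polynomial ℝ, ∀ x ∈ Icc (2 * ε) (2 - 2 * ε),
      |k.eval x - kap x| ≤ η ∧ |k.derivative.eval x - kapD x| ≤ η := by
  obtain ⟨k, h1, h2, _⟩ := exists_poly_lip ε η hε hε' hη
  exact ⟨k, fun x hx => ⟨h2 x hx, h1 x hx⟩⟩

theorem dd_ne (k : Polynomial ℝ) {x y : ℝ} (hxy : x ≠ y) :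
    (∑ l ∈ Finset.range (k.natDegree + 1), k.coeff l *
      ∑ i ∈ Finset.range l, x ^ i * y ^ (l - 1 - i)) = (k.eval x - k.eval y) / (x - y) := by
  have hne : x - y ≠ 0 := sub_ne_zero.2 hxy
  rw [eq_div_iff hne, Polynomial.eval_eq_sum_range, Polynomial.eval_eq_sum_range,
    ← Finset.sum_sub_distrib, Finset.sum_mul]
  apply Finset.sum_congr rfl
  intro l _
  rw [mul_assoc, (Commute.all x y).geom_sum₂_mul, mul_sub]

theorem dd_eq (k : Polynomial ℝ) (x : ℝ) :
    (∑ l ∈ Finset.range (k.natDegree + 1), k.coeff l *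
      ∑ i ∈ Finset.range l, x ^ i * x ^ (l - 1 - i)) = k.derivative.eval x := by
  conv_rhs => rw [Polynomial.as_sum_range k, Polynomial.derivative_sum, Polynomial.eval_finsetSum]
  apply Finset.sum_congr rfl
  intro l _
  rw [Polynomial.derivative_monomial, Polynomial.eval_monomial]
  have : ∀ i ∈ Finset.range l, x ^ i * x ^ (l - 1 - i) = x ^ (l - 1) := by
    intro i hi
    rw [← pow_add]
    congr 1
    have := Finset.mem_range.1 hi
    omega
  rw [Finset.sum_congr rfl this, Finset.sum_const, Finset.card_range, nsmul_eq_mul]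
  ring

/-- divided difference version -/
theorem exists_poly_approx_dd (ε η : ℝ) (hε : 0 < ε) (hε' : ε < 1 / 2) (hη : 0 < η) :
    ∃ k : Polynomial ℝ, (∀ x ∈ Icc (2 * ε) (2 - 2 * ε), |k.eval x - kap x| ≤ η) ∧
      ∀ x ∈ Icc (2 * ε) (2 - 2 * ε), ∀ y ∈ Icc (2 * ε) (2 - 2 * ε),
        |(∑ l ∈ Finset.range (k.natDegree + 1), k.coeff l *
            ∑ i ∈ Finset.range l, x ^ i * y ^ (l - 1 - i)) + kapDD x y| ≤ η := by
  obtain ⟨k, h1, h2, h3⟩ := exists_poly_lip ε η hε hε' hη
  refine ⟨k, h2, ?_⟩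
  intro x hx y hy
  by_cases hxy : x = y
  · subst hxy
    rw [dd_eq]
    unfold kapDD
    rw [if_pos rfl]
    exact h1 x hx
  · rw [dd_ne k hxy]
    unfold kapDD
    rw [if_neg hxy]
    have hne : x - y ≠ 0 := sub_ne_zero.2 hxy
    have hpos : 0 < |x - y| := abs_pos.2 hne
    have e : (k.eval x - k.eval y) / (x - y) + -((kap x - kap y) / (x - y)) =
        ((k.eval x - kap x) - (k.eval y - kap y)) / (x - y) := by
      field_simp
      ring
    rw [e, abs_div, div_le_iff₀ hpos]
    exact h3 x hx y hy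

end Vale.Agent.P371
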