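import Vale.Agent.P371.Defs

/-!
# P371 task K : the lower bound `4/(3√3 π) ≤ L_1(m)` from `W = (3/4) sech² x`
(in the first channel), eigenfunction `sech^{1/2} x`, eigenvalue `-1/4`,
`∫ W^{3/2} = 3√3 π / 16`.
-/

open Matrix Finset MeasureTheory Filter
open scoped ENNReal Topology ComplexOrder

namespace Vale.Agent.P371

namespace SharpAux

/-! ### Hyperbolic scalars -/

/-- `1 / cosh x`. -/
noncomputable def sc (x : ℝ) : ℝ := (Real.cosh x)⁻¹

/-- `sinh x / cosh x`. -/
noncomputable def th (x : ℝ) : ℝ := Real.sinh x * (Real.cosh x)⁻¹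

/-- `cosh x ^ (-1/2)`. -/
noncomputable def bb (x : ℝ) : ℝ := Real.exp (-(1 / 2) * Real.log (Real.cosh x))

theorem sc_pos (x : ℝ) : 0 < sc x := inv_pos.mpr (Real.cosh_pos x)

theorem bb_pos (x : ℝ) : 0 < bb x := Real.exp_pos _

theorem bb_sq (x : ℝ) : bb x ^ 2 = sc x := by
  unfold bb sc
  rw [← Real.exp_nat_mul]
  have : ((2 : ℕ) : ℝ) * (-(1 / 2) * Real.log (Real.cosh x)) = -Real.log (Real.cosh x) := by
    push_cast; ring
  rw [this, Real.exp_neg, Real.exp_log (Real.cosh_pos x)]

theorem th_sq (x : ℝ) : th x ^ 2 = 1 - sc x ^ 2 := by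
  unfold th sc
  have h := Real.cosh_sq x
  have h0 := (Real.cosh_pos x).ne'
  field_simp
  linarith

theorem hasDerivAt_sc (x : ℝ) : HasDerivAt sc (-(th x * sc x)) x := by
  unfold sc
  have h := (Real.hasDerivAt_cosh x).inv (Real.cosh_pos x).ne'
  have e : -(th x * (Real.cosh x)⁻¹) = -Real.sinh x / Real.cosh x ^ 2 := by
    unfold th
    have h0 := (Real.cosh_pos x).ne'
    field_simp
  rw [e]
  exact h

theorem hasDerivAt_th (x : ℝ) : HasDerivAt th (sc x ^ 2) x := by
  have h := (Real.hasDerivAt_sinh x).mul (hasDerivAt_sc x)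
  have e : Real.cosh x * sc x + Real.sinh x * -(th x * sc x) = sc x ^ 2 := by
    have h1 := Real.cosh_sq x
    have h0 := (Real.cosh_pos x).ne'
    unfold th sc
    field_simp
    linarith
  rw [← e]
  exact h

theorem hasDerivAt_bb (x : ℝ) : HasDerivAt bb (-(1 / 2) * (th x * bb x)) x := by
  have h := (((Real.hasDerivAt_cosh x).log (Real.cosh_pos x).ne').const_mul (-(1 / 2))).exp
  have e : Real.exp (-(1 / 2) * Real.log (Real.cosh x)) *
      (-(1 / 2) * (Real.sinh x / Real.cosh x)) = -(1 / 2) * (th x * bb x) := by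
    unfold th bb
    ring
  rw [← e]
  exact h

theorem hasDerivAt_bb' (x : ℝ) :
    HasDerivAt (fun x => -(1 / 2) * (th x * bb x)) ((1 / 4 - 3 / 4 * sc x ^ 2) * bb x) x := by
  have h := ((hasDerivAt_th x).mul (hasDerivAt_bb x)).const_mul (-(1 / 2))
  have e : -(1 / 2) * (sc x ^ 2 * bb x + th x * (-(1 / 2) * (th x * bb x))) =
      (1 / 4 - 3 / 4 * sc x ^ 2) * bb x := by
    have := th_sq x
    linear_combination (1 / 4 * bb x) * this
  rw [← e]
  exact h

theorem continuous_sc : Continuous sc :=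
  continuous_iff_continuousAt.mpr fun x => (hasDerivAt_sc x).continuousAt

theorem continuous_th : Continuous th :=
  continuous_iff_continuousAt.mpr fun x => (hasDerivAt_th x).continuousAt

theorem continuous_bb : Continuous bb :=
  continuous_iff_continuousAt.mpr fun x => (hasDerivAt_bb x).continuousAt

theorem sc_le_one (x : ℝ) : sc x ≤ 1 := inv_le_one_of_one_le₀ (Real.one_le_cosh x)

theorem abs_th_le (x : ℝ) : |th x| ≤ 1 := by
  rw [← sq_le_one_iff_abs_le_one, th_sq]
  have := sq_nonneg (sc x)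
  linarith

theorem sc_le (x : ℝ) : sc x ≤ 2 * (1 + x ^ 2)⁻¹ := by
  have h1 : (1 + x ^ 2) / 2 ≤ Real.cosh x := by
    have h2 : Real.cosh x = 1 + 2 * Real.sinh (x / 2) ^ 2 := by
      have h3 : x = 2 * (x / 2) := by ring
      conv_lhs => rw [h3]
      rw [Real.cosh_two_mul, Real.cosh_sq]
      ring
    have h4 : (x / 2) ^ 2 ≤ Real.sinh (x / 2) ^ 2 := by
      rw [sq_le_sq]
      rcases le_total 0 (x / 2) with h | h
      · rw [abs_of_nonneg h, abs_of_nonneg (Real.sinh_nonneg_iff.mpr h)]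
        exact Real.self_le_sinh_iff.mpr h
      · rw [abs_of_nonpos h, abs_of_nonpos (Real.sinh_nonpos_iff.mpr h)]
        have := Real.sinh_le_self_iff.mpr h
        linarith
    rw [h2]
    nlinarith [sq_nonneg x]
  have h5 : 0 < (1 + x ^ 2) / 2 := by positivity
  calc sc x ≤ ((1 + x ^ 2) / 2)⁻¹ := inv_anti₀ h5 h1
    _ = 2 * (1 + x ^ 2)⁻¹ := by rw [inv_div]; ring

theorem integrable_sc : Integrable sc := by
  refine (integrable_inv_one_add_sq.const_mul 2).mono' continuous_sc.aestronglyMeasurable ?_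
  filter_upwards with x
  rw [Real.norm_of_nonneg (sc_pos x).le]
  exact sc_le x

theorem integrable_sc_cube : Integrable fun x => sc x ^ 3 := by
  refine integrable_sc.mono' (continuous_sc.pow 3).aestronglyMeasurable ?_
  filter_upwards with x
  have h1 := (sc_pos x).le
  have h2 := sc_le_one x
  rw [Real.norm_of_nonneg (pow_nonneg h1 3)]
  calc sc x ^ 3 = sc x * (sc x) ^ 2 := by ring
    _ ≤ sc x * 1 := mul_le_mul_of_nonneg_left (pow_le_one₀ h1 h2) h1
    _ = sc x := mul_one _

theorem tendsto_sinh_atTop : Tendsto Real.sinh atTop atTop :=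
  tendsto_atTop_mono' atTop ((eventually_ge_atTop 0).mono fun _ hx => Real.self_le_sinh_iff.mpr hx)
    tendsto_id

theorem tendsto_sinh_atBot : Tendsto Real.sinh atBot atBot :=
  tendsto_atBot_mono' atBot ((eventually_le_atBot 0).mono fun _ hx => Real.sinh_le_self_iff.mpr hx)
    tendsto_id

theorem tendsto_gd_atTop : Tendsto (fun x => Real.arctan (Real.sinh x)) atTop (𝓝 (Real.pi / 2)) :=
  (tendsto_nhds_of_tendsto_nhdsWithin Real.tendsto_arctan_atTop).comp tendsto_sinh_atTop

theorem tendsto_gd_atBot :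
    Tendsto (fun x => Real.arctan (Real.sinh x)) atBot (𝓝 (-(Real.pi / 2))) :=
  (tendsto_nhds_of_tendsto_nhdsWithin Real.tendsto_arctan_atBot).comp tendsto_sinh_atBot

theorem hasDerivAt_gd (x : ℝ) : HasDerivAt (fun x => Real.arctan (Real.sinh x)) (sc x) x := by
  have h := (Real.hasDerivAt_arctan (Real.sinh x)).comp x (Real.hasDerivAt_sinh x)
  have e : 1 / (1 + Real.sinh x ^ 2) * Real.cosh x = sc x := by
    have h1 := Real.cosh_sq x
    have h0 := (Real.cosh_pos x).ne'
    have h2 : 1 + Real.sinh x ^ 2 = Real.cosh x ^ 2 := by linarith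
    unfold sc
    rw [h2]
    field_simp
  rw [← e]
  exact h

theorem integral_sc : ∫ x, sc x = Real.pi := by
  rw [integral_of_hasDerivAt_of_tendsto hasDerivAt_gd integrable_sc tendsto_gd_atBot
    tendsto_gd_atTop]
  ring

theorem tendsto_sc_atTop : Tendsto sc atTop (𝓝 0) := by
  have h1 : Tendsto (fun x : ℝ => 2 * (1 + x ^ 2)⁻¹) atTop (𝓝 (2 * 0)) := by
    refine Tendsto.const_mul 2 (tendsto_inv_atTop_zero.comp ?_)
    exact tendsto_atTop_add_const_left atTop 1 (tendsto_pow_atTop two_ne_zero)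
  rw [mul_zero] at h1
  exact squeeze_zero (fun x => (sc_pos x).le) sc_le h1

theorem tendsto_sc_atBot : Tendsto sc atBot (𝓝 0) := by
  have h : sc = fun x => sc (-x) := by
    funext x
    unfold sc
    rw [Real.cosh_neg]
  rw [h]
  exact tendsto_sc_atTop.comp tendsto_neg_atBot_atTop

theorem integral_sc_cube : ∫ x, sc x ^ 3 = Real.pi / 2 := by
  have hd : ∀ x, HasDerivAt (fun x => 1 / 2 * (th x * sc x + Real.arctan (Real.sinh x)))
      (sc x ^ 3) x := by
    intro x
    have h := (((hasDerivAt_th x).mul (hasDerivAt_sc x)).add (hasDerivAt_gd x)).const_mul (1 / 2)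
    have e : 1 / 2 * (sc x ^ 2 * sc x + th x * -(th x * sc x) + sc x) = sc x ^ 3 := by
      have := th_sq x
      linear_combination (-(1 / 2) * sc x) * this
    rw [← e]
    exact h
  have hz : ∀ l : Filter ℝ, Tendsto sc l (𝓝 0) → Tendsto (fun x => th x * sc x) l (𝓝 0) := by
    intro l hl
    refine squeeze_zero_norm (fun x => ?_) hl
    rw [norm_mul, Real.norm_eq_abs, Real.norm_of_nonneg (sc_pos x).le]
    exact mul_le_of_le_one_left (sc_pos x).le (abs_th_le x)
  rw [integral_of_hasDerivAt_of_tendsto hd integrable_sc_cube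
    (((hz _ tendsto_sc_atBot).add tendsto_gd_atBot).const_mul (1 / 2))
    (((hz _ tendsto_sc_atTop).add tendsto_gd_atTop).const_mul (1 / 2))]
  ring

/-! ### Integration by parts -/

/-- Square integrable functions with a square integrable weak derivative. -/
structure RH1 (r r' : ℝ → ℝ) : Prop where
  memLp : MemLp r 2 volume
  memLp' : MemLp r' 2 volume
  sub_eq : ∀ a b : ℝ, r b - r a = ∫ x in a..b, r' x

theorem RH1.locInt {r r' : ℝ → ℝ} (h : RH1 r r') : LocallyIntegrable r' volume :=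
  h.memLp'.locallyIntegrable (by norm_num)

theorem RH1.eq {r r' : ℝ → ℝ} (h : RH1 r r') : r = fun x => (∫ t in (0:ℝ)..x, r' t) + r 0 := by
  funext x
  rw [← h.sub_eq 0 x]
  ring

theorem RH1.ac {r r' : ℝ → ℝ} (h : RH1 r r') {T : ℝ} (hT : 0 ≤ T) :
    AbsolutelyContinuousOnInterval r (-T) T := by
  rw [h.eq]
  have h1 : IntervalIntegrable r' volume (-T) T :=
    intervalIntegrable_iff.mpr
      ((h.locInt.integrableOn_isCompact isCompact_uIcc).mono_set Set.uIoc_subset_uIcc)
  have h2 := h1.absolutelyContinuousOnInterval_intervalIntegral (c := 0)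
    (by rw [Set.uIcc_of_le (by linarith)]; constructor <;> linarith)
  have h3 : AbsolutelyContinuousOnInterval (fun _ : ℝ => r 0) (-T) T :=
    (LipschitzWith.const (r 0)).lipschitzOnWith.absolutelyContinuousOnInterval
  exact h2.add h3

theorem RH1.ae_deriv {r r' : ℝ → ℝ} (h : RH1 r r') : ∀ᵐ x, deriv r x = r' x := by
  filter_upwards [_root_.LocallyIntegrable.ae_hasDerivAt_integral h.locInt] with x hx
  have h1 := (hx 0).add_const (r 0)
  rw [h.eq]
  exact h1.deriv

theorem ibp {r r' g g' : ℝ → ℝ} (h : RH1 r r') (k : RH1 g g') :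
    Integrable (fun x => r' x * g x + r x * g' x) ∧ ∫ x, (r' x * g x + r x * g' x) = 0 := by
  have hint : Integrable (fun x => r' x * g x + r x * g' x) :=
    (h.memLp'.integrable_mul k.memLp).add (h.memLp.integrable_mul k.memLp')
  refine ⟨hint, ?_⟩
  have hlim := intervalIntegral_tendsto_integral hint tendsto_neg_atTop_atBot tendsto_id
  have hrg : Integrable (fun x => r x * g x) := h.memLp.integrable_mul k.memLp
  have hrg' : Integrable (fun x => r x * g x - r (-x) * g (-x)) := hrg.sub hrg.comp_neg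
  have heq : (fun T : ℝ => ∫ x in (-T)..(id T), (r' x * g x + r x * g' x)) =ᶠ[atTop]
      fun T => r T * g T - r (-T) * g (-T) := by
    filter_upwards [eventually_ge_atTop 0] with T hT
    rw [← (h.ac hT).integral_deriv_mul_eq_sub (k.ac hT)]
    refine intervalIntegral.integral_congr_ae ?_
    filter_upwards [h.ae_deriv, k.ae_deriv] with x h1 h2 _
    rw [h1, h2]
  have hlim2 := hlim.congr' heq
  refine IntegrableAtFilter.eq_zero_of_tendsto (μ := volume) (l := atTop)
    ⟨Set.univ, univ_mem, hrg'.integrableOn⟩ ?_ hlim2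
  intro s hs
  obtain ⟨a, ha⟩ := mem_atTop_sets.mp hs
  refine le_antisymm le_top ?_
  rw [← Real.volume_Ici (a := a)]
  exact measure_mono ha


theorem memLp_bb : MemLp bb 2 volume := by
  rw [memLp_two_iff_integrable_sq continuous_bb.aestronglyMeasurable]
  refine integrable_sc.congr ?_
  filter_upwards with x
  exact (bb_sq x).symm

theorem continuous_bb1 : Continuous fun x => -(1 / 2) * (th x * bb x) :=
  continuous_const.mul (continuous_th.mul continuous_bb)

theorem continuous_bb2 : Continuous fun x => (1 / 4 - 3 / 4 * sc x ^ 2) * bb x :=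
  (continuous_const.sub (continuous_const.mul (continuous_sc.pow 2))).mul continuous_bb

theorem memLp_bb1 : MemLp (fun x => -(1 / 2) * (th x * bb x)) 2 volume := by
  refine memLp_bb.mono continuous_bb1.aestronglyMeasurable ?_
  filter_upwards with x
  have h1 := abs_th_le x
  have h2 := (bb_pos x).le
  rw [norm_mul, norm_mul, Real.norm_eq_abs (th x), Real.norm_of_nonneg h2]
  have h3 : ‖(-(1 / 2) : ℝ)‖ = 1 / 2 := by rw [Real.norm_eq_abs, abs_neg]; norm_num
  rw [h3]
  nlinarith [mul_le_mul_of_nonneg_right h1 h2, mul_nonneg (abs_nonneg (th x)) h2]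

theorem memLp_bb2 : MemLp (fun x => (1 / 4 - 3 / 4 * sc x ^ 2) * bb x) 2 volume := by
  refine memLp_bb.mono continuous_bb2.aestronglyMeasurable ?_
  filter_upwards with x
  have h2 := (bb_pos x).le
  rw [norm_mul, Real.norm_of_nonneg h2]
  have h3 : ‖(1 / 4 - 3 / 4 * sc x ^ 2 : ℝ)‖ ≤ 1 := by
    rw [Real.norm_eq_abs, abs_le]
    have h4 := (sc_pos x).le
    have h5 := sc_le_one x
    have h6 : sc x ^ 2 ≤ 1 := pow_le_one₀ h4 h5
    constructor <;> nlinarith [sq_nonneg (sc x)]
  exact mul_le_of_le_one_left h2 h3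

/-- The eigenfunction, its derivative and its second derivative. -/
noncomputable def aa (x : ℝ) : ℝ := (√Real.pi)⁻¹ * bb x

/-- First derivative. -/
noncomputable def aa1 (x : ℝ) : ℝ := (√Real.pi)⁻¹ * (-(1 / 2) * (th x * bb x))

/-- Second derivative. -/
noncomputable def aa2 (x : ℝ) : ℝ := (√Real.pi)⁻¹ * ((1 / 4 - 3 / 4 * sc x ^ 2) * bb x)

theorem rh1_of_hasDerivAt {g g' : ℝ → ℝ} (h1 : MemLp g 2 volume) (h2 : MemLp g' 2 volume)
    (hc : Continuous g') (hd : ∀ x, HasDerivAt g (g' x) x) : RH1 g g' where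
  memLp := h1
  memLp' := h2
  sub_eq := fun a b =>
    (intervalIntegral.integral_eq_sub_of_hasDerivAt (fun x _ => hd x)
      (hc.intervalIntegrable a b)).symm

theorem rh1_aa : RH1 aa aa1 :=
  rh1_of_hasDerivAt (memLp_bb.const_mul _) (memLp_bb1.const_mul _)
    (continuous_const.mul continuous_bb1) fun x => (hasDerivAt_bb x).const_mul _

theorem rh1_aa1 : RH1 aa1 aa2 :=
  rh1_of_hasDerivAt (memLp_bb1.const_mul _) (memLp_bb2.const_mul _)
    (continuous_const.mul continuous_bb2) fun x => (hasDerivAt_bb' x).const_mul _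

theorem aa2_eq (x : ℝ) : aa2 x = 1 / 4 * aa x - 3 / 4 * sc x ^ 2 * aa x := by
  unfold aa2 aa
  ring

theorem integral_aa_sq : ∫ x, aa x ^ 2 = 1 := by
  have h : ∀ x, aa x ^ 2 = Real.pi⁻¹ * sc x := by
    intro x
    unfold aa
    rw [mul_pow, bb_sq, inv_pow, Real.sq_sqrt Real.pi_pos.le]
  simp_rw [h]
  rw [integral_const_mul, integral_sc, inv_mul_cancel₀ Real.pi_ne_zero]

/-! ### The vector valued part -/

variable {m : ℕ}

/-- Coordinate as a continuous real linear map. -/
noncomputable def co (i : Fin m) : Vec m →L[ℝ] ℂ :=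
  (EuclideanSpace.proj i : Vec m →L[ℂ] ℂ).restrictScalars ℝ

theorem co_apply (i : Fin m) (v : Vec m) : co i v = v i := rfl

theorem rh1_comp {φ φ' : ℝ → Vec m} (h : IsH1 φ φ') (L : Vec m →L[ℝ] ℝ) :
    RH1 (fun x => L (φ x)) (fun x => L (φ' x)) where
  memLp := h.memLp.continuousLinearMap_comp L
  memLp' := h.memLp_deriv.continuousLinearMap_comp L
  sub_eq := fun a b => by
    have hl : LocallyIntegrable φ' volume := h.memLp_deriv.locallyIntegrable (by norm_num)
    have h1 : IntervalIntegrable φ' volume a b :=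
      intervalIntegrable_iff.mpr
        ((hl.integrableOn_isCompact isCompact_uIcc).mono_set Set.uIoc_subset_uIcc)
    rw [L.intervalIntegral_comp_comm h1, ← h.sub_eq a b, map_sub]

theorem integrable_pair {g : ℝ → ℝ} {P : ℝ → ℂ} (hg : MemLp g 2 volume) (hP : MemLp P 2 volume) :
    Integrable fun x => (g x : ℂ) * (starRingEnd ℂ) (P x) := by
  have h1 : MemLp (fun x => (g x : ℂ)) 2 volume := hg.continuousLinearMap_comp Complex.ofRealCLM
  have h2 : MemLp (fun x => (starRingEnd ℂ) (P x)) 2 volume :=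
    hP.continuousLinearMap_comp (Complex.conjCLE : ℂ →L[ℝ] ℂ)
  exact h1.integrable_mul h2

theorem integral_pair {g g' : ℝ → ℝ} (hg : RH1 g g') {φ φ' : ℝ → Vec m} (h : IsH1 φ φ')
    (i : Fin m) :
    ∫ x, ((g x : ℂ) * (starRingEnd ℂ) (φ' x i) + (g' x : ℂ) * (starRingEnd ℂ) (φ x i)) = 0 := by
  have hP : MemLp (fun x => φ x i) 2 volume := h.memLp.continuousLinearMap_comp (co i)
  have hP' : MemLp (fun x => φ' x i) 2 volume := h.memLp_deriv.continuousLinearMap_comp (co i)
  have hint := (integrable_pair hg.memLp hP').add (integrable_pair hg.memLp' hP)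
  have hre := ibp (rh1_comp h (Complex.reCLM.comp (co i))) hg
  have him := ibp (rh1_comp h (Complex.imCLM.comp (co i))) hg
  apply Complex.ext
  · have e := integral_re hint
    have e2 : (∫ x, ((g x : ℂ) * (starRingEnd ℂ) (φ' x i) +
        (g' x : ℂ) * (starRingEnd ℂ) (φ x i))).re =
        ∫ x, ((φ' x i).re * g x + (φ x i).re * g' x) := by
      refine Eq.trans e.symm ?_
      refine integral_congr_ae ?_
      filter_upwards with x
      simp only [Pi.add_apply, map_add, RCLike.re_to_complex, Complex.re_ofReal_mul,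
        Complex.conj_re]
      ring
    rw [e2]
    exact hre.2
  · have e := integral_im hint
    have e2 : (∫ x, ((g x : ℂ) * (starRingEnd ℂ) (φ' x i) +
        (g' x : ℂ) * (starRingEnd ℂ) (φ x i))).im =
        ∫ x, -((φ' x i).im * g x + (φ x i).im * g' x) := by
      refine Eq.trans e.symm ?_
      refine integral_congr_ae ?_
      filter_upwards with x
      simp only [Pi.add_apply, map_add, RCLike.im_to_complex, Complex.im_ofReal_mul,
        Complex.conj_im]
      ring
    rw [e2, integral_neg]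
    have := him.2
    change -(∫ x, ((φ' x i).im * g x + (φ x i).im * g' x)) = 0
    rw [neg_eq_zero]
    exact this

/-- Real multiples of a basis vector. -/
noncomputable def ray (i : Fin m) : ℝ →L[ℝ] Vec m :=
  Complex.ofRealCLM.smulRight (EuclideanSpace.single i (1 : ℂ) : Vec m)

theorem ray_apply (i : Fin m) (t : ℝ) : ray i t = (t : ℂ) • EuclideanSpace.single i (1 : ℂ) := rfl

theorem isH1_ray {g g' : ℝ → ℝ} (h : RH1 g g') (i : Fin m) :
    IsH1 (fun x => ray i (g x)) (fun x => ray i (g' x)) where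
  memLp := h.memLp.continuousLinearMap_comp (ray i)
  memLp_deriv := h.memLp'.continuousLinearMap_comp (ray i)
  sub_eq := fun a b => by
    have h1 : IntervalIntegrable g' volume a b :=
      intervalIntegrable_iff.mpr
        ((h.locInt.integrableOn_isCompact isCompact_uIcc).mono_set Set.uIoc_subset_uIcc)
    rw [(ray i).intervalIntegral_comp_comm h1, ← h.sub_eq a b, map_sub]

theorem inner_ray (i : Fin m) (v : Vec m) (t : ℝ) :
    inner ℂ v (ray i t) = (t : ℂ) * (starRingEnd ℂ) (v i) := by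
  rw [ray_apply, inner_smul_right, EuclideanSpace.inner_single_right, one_mul]

/-- The potential. -/
noncomputable def Wp (i₀ : Fin m) (x : ℝ) : Matrix (Fin m) (Fin m) ℂ :=
  Matrix.diagonal fun i => if i = i₀ then ((3 / 4 * sc x ^ 2 : ℝ) : ℂ) else 0

theorem pairing_Wp (i₀ : Fin m) (x : ℝ) (v : Vec m) (t : ℝ) :
    pairing (Wp i₀ x) v (ray i₀ t) =
      ((3 / 4 * sc x ^ 2 * t : ℝ) : ℂ) * (starRingEnd ℂ) (v i₀) := by
  unfold pairing Wp
  rw [Finset.sum_eq_single i₀]
  · rw [Finset.sum_eq_single i₀]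
    · simp only [Matrix.diagonal_apply_eq, if_true, ray_apply, PiLp.smul_apply,
        PiLp.single_apply, smul_eq_mul, mul_one]
      push_cast
      ring
    · intro b _ hb
      rw [Matrix.diagonal_apply_ne _ (Ne.symm hb)]
      ring
    · intro h
      exact absurd (Finset.mem_univ _) h
  · intro a _ ha
    refine Finset.sum_eq_zero fun b _ => ?_
    by_cases hab : a = b
    · subst hab
      rw [Matrix.diagonal_apply_eq, if_neg ha]
      ring
    · rw [Matrix.diagonal_apply_ne _ hab]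
      ring
  · intro h
    exact absurd (Finset.mem_univ _) h

theorem isEigen_Wp (i₀ : Fin m) : IsEigen (Wp i₀) (-(1 / 4)) fun x => ray i₀ (aa x) := by
  refine ⟨fun x => ray i₀ (aa1 x), isH1_ray rh1_aa i₀, ?_⟩
  intro φ φ' h
  have hP : MemLp (fun x => φ x i₀) 2 volume := h.memLp.continuousLinearMap_comp (co i₀)
  have hP' : MemLp (fun x => φ' x i₀) 2 volume := h.memLp_deriv.continuousLinearMap_comp (co i₀)
  have h0 := integral_pair rh1_aa1 h i₀
  have hi1 := integrable_pair rh1_aa.memLp' hP'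
  have hi2 := integrable_pair rh1_aa1.memLp' hP
  have hi3 := integrable_pair rh1_aa.memLp hP
  rw [integral_add hi1 hi2] at h0
  have hi4 : Integrable fun x => ((3 / 4 * sc x ^ 2 * aa x : ℝ) : ℂ) * (starRingEnd ℂ) (φ x i₀) := by
    refine ((hi3.const_mul (1 / 4 : ℂ)).sub hi2).congr ?_
    filter_upwards with x
    simp only [Pi.sub_apply]
    rw [aa2_eq]
    push_cast
    ring
  have e2 : ∫ x, (aa2 x : ℂ) * (starRingEnd ℂ) (φ x i₀) =
      (1 / 4 : ℂ) * (∫ x, (aa x : ℂ) * (starRingEnd ℂ) (φ x i₀)) -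
        ∫ x, ((3 / 4 * sc x ^ 2 * aa x : ℝ) : ℂ) * (starRingEnd ℂ) (φ x i₀) := by
    rw [← integral_const_mul, ← integral_sub (hi3.const_mul _) hi4]
    refine integral_congr_ae ?_
    filter_upwards with x
    rw [aa2_eq]
    push_cast
    ring
  simp_rw [inner_ray, pairing_Wp]
  push_cast at e2 h0 ⊢
  linear_combination h0 - e2

theorem inner_self_ray (i : Fin m) (t : ℝ) : inner ℂ (ray i t) (ray i t) = ((t ^ 2 : ℝ) : ℂ) := by
  rw [inner_ray, ray_apply, PiLp.smul_apply, PiLp.single_apply, if_pos rfl, smul_eq_mul,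
    mul_one, Complex.conj_ofReal]
  push_cast
  ring

theorem isONEigen_Wp (i₀ : Fin m) :
    IsONEigen (Wp i₀) (fun _ : Fin 1 => -(1 / 4 : ℝ)) (fun _ : Fin 1 => fun x => ray i₀ (aa x)) := by
  refine ⟨fun _ => by norm_num, fun _ => isEigen_Wp i₀, fun i j => ?_⟩
  rw [if_pos (Subsingleton.elim i j)]
  simp_rw [inner_self_ray]
  have h := integral_complex_ofReal (μ := volume) (f := fun x => aa x ^ 2)
  rw [integral_aa_sq] at h
  rw [← Complex.ofReal_one, ← h]

theorem le_negMoment_Wp (i₀ : Fin m) : ENNReal.ofReal (1 / 4) ≤ negMoment 1 (Wp i₀) := by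
  unfold negMoment
  refine le_iSup_of_le 1 (le_iSup_of_le (fun _ => -(1 / 4)) (le_iSup_of_le _
    (le_iSup_of_le (isONEigen_Wp i₀) ?_)))
  rw [Fin.sum_univ_one, Real.rpow_one, abs_neg, abs_of_pos (by norm_num : (0:ℝ) < 1 / 4)]

theorem posSemidef_Wp (i₀ : Fin m) (x : ℝ) : (Wp i₀ x).PosSemidef := by
  refine Matrix.PosSemidef.diagonal fun i => ?_
  show (0 : ℂ) ≤ if i = i₀ then ((3 / 4 * sc x ^ 2 : ℝ) : ℂ) else 0
  split_ifs
  · have : (0 : ℝ) ≤ 3 / 4 * sc x ^ 2 := by positivity
    exact_mod_cast this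
  · exact le_rfl

theorem sum_eigenvalues_Wp (i₀ : Fin m) (x : ℝ) :
    ∑ i, (posSemidef_Wp i₀ x).isHermitian.eigenvalues i = 3 / 4 * sc x ^ 2 := by
  have h := (posSemidef_Wp i₀ x).isHermitian.trace_eq_sum_eigenvalues
  have h2 : (Wp i₀ x).trace = ((3 / 4 * sc x ^ 2 : ℝ) : ℂ) := by
    unfold Wp
    rw [Matrix.trace_diagonal, Finset.sum_ite_eq' Finset.univ i₀, if_pos (Finset.mem_univ _)]
  rw [h2] at h
  have h3 : (((3 / 4 * sc x ^ 2 : ℝ)) : ℂ) =
      ((∑ i, (posSemidef_Wp i₀ x).isHermitian.eigenvalues i : ℝ) : ℂ) := by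
    rw [h]
    push_cast
    rfl
  exact (Complex.ofReal_injective h3).symm

theorem trPow_Wp (i₀ : Fin m) (x p : ℝ) :
    trPow (Wp i₀ x) p = ∑ i, ((posSemidef_Wp i₀ x).isHermitian.eigenvalues i) ^ p := by
  unfold trPow
  rw [dif_pos (posSemidef_Wp i₀ x).isHermitian]

theorem trPow_Wp_le (i₀ : Fin m) (x : ℝ) :
    trPow (Wp i₀ x) (1 + 1 / 2) ≤ (3 / 4 * √(3 / 4)) * sc x ^ 3 := by
  rw [trPow_Wp]
  set c : ℝ := 3 / 4 * sc x ^ 2 with hc
  have hc0 : 0 ≤ c := by positivity
  have hs : ∑ i, (posSemidef_Wp i₀ x).isHermitian.eigenvalues i = c := sum_eigenvalues_Wp i₀ x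
  have hn : ∀ i, 0 ≤ (posSemidef_Wp i₀ x).isHermitian.eigenvalues i := fun i =>
    (posSemidef_Wp i₀ x).eigenvalues_nonneg i
  have hle : ∀ i, (posSemidef_Wp i₀ x).isHermitian.eigenvalues i ≤ c := fun i => by
    rw [← hs]
    exact Finset.single_le_sum (fun j _ => hn j) (Finset.mem_univ i)
  have h1 : ∀ i, ((posSemidef_Wp i₀ x).isHermitian.eigenvalues i) ^ ((1 : ℝ) + 1 / 2) ≤
      (posSemidef_Wp i₀ x).isHermitian.eigenvalues i * √c := by
    intro i
    rw [Real.rpow_add_of_nonneg (hn i) zero_le_one (by norm_num), Real.rpow_one,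
      ← Real.sqrt_eq_rpow]
    exact mul_le_mul_of_nonneg_left (Real.sqrt_le_sqrt (hle i)) (hn i)
  calc ∑ i, ((posSemidef_Wp i₀ x).isHermitian.eigenvalues i) ^ ((1 : ℝ) + 1 / 2)
      ≤ ∑ i, (posSemidef_Wp i₀ x).isHermitian.eigenvalues i * √c :=
        Finset.sum_le_sum fun i _ => h1 i
    _ = c * √c := by rw [← Finset.sum_mul, hs]
    _ = (3 / 4 * √(3 / 4)) * sc x ^ 3 := by
        rw [hc, Real.sqrt_mul (by norm_num), Real.sqrt_sq (sc_pos x).le]
        ring

/-- Lower bound for the density. -/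
noncomputable def low (m : ℕ) (x : ℝ) : ℝ := (3 / 4 * sc x ^ 2 / m) ^ ((1 : ℝ) + 1 / 2)

theorem low_le_trPow_Wp (i₀ : Fin m) (x : ℝ) : low m x ≤ trPow (Wp i₀ x) (1 + 1 / 2) := by
  rw [trPow_Wp]
  have hs := sum_eigenvalues_Wp i₀ x
  have hn : ∀ i, 0 ≤ (posSemidef_Wp i₀ x).isHermitian.eigenvalues i := fun i =>
    (posSemidef_Wp i₀ x).eigenvalues_nonneg i
  have hm : (0 : ℝ) < m := by
    have : 0 < m := lt_of_le_of_lt (Nat.zero_le _) i₀.isLt
    exact_mod_cast this
  have hsum : ∑ _i : Fin m, 3 / 4 * sc x ^ 2 / m ≤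
      ∑ i, (posSemidef_Wp i₀ x).isHermitian.eigenvalues i := by
    rw [hs, Finset.sum_const, Finset.card_univ, Fintype.card_fin, nsmul_eq_mul]
    exact (mul_div_cancel₀ _ hm.ne').le
  obtain ⟨i, _, hi⟩ := Finset.exists_le_of_sum_le ⟨i₀, Finset.mem_univ i₀⟩ hsum
  have h1 : low m x ≤ ((posSemidef_Wp i₀ x).isHermitian.eigenvalues i) ^ ((1 : ℝ) + 1 / 2) :=
    Real.rpow_le_rpow (by positivity) hi (by norm_num)
  exact h1.trans (Finset.single_le_sum
    (f := fun i => ((posSemidef_Wp i₀ x).isHermitian.eigenvalues i) ^ ((1 : ℝ) + 1 / 2))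
    (fun j _ => Real.rpow_nonneg (hn j) _) (Finset.mem_univ i))

theorem potInt_Wp_ne_zero (i₀ : Fin m) : potInt (Wp i₀) (1 + 1 / 2) ≠ 0 := by
  have hm : (0 : ℝ) < m := by
    have : 0 < m := lt_of_le_of_lt (Nat.zero_le _) i₀.isLt
    exact_mod_cast this
  have hpos : ∀ x, 0 < low m x := fun x => by
    have := sc_pos x
    unfold low
    positivity
  have hmeas : Measurable fun x => ENNReal.ofReal (low m x) := by
    refine ENNReal.measurable_ofReal.comp ?_
    have h1 : Measurable fun x => 3 / 4 * sc x ^ 2 / (m : ℝ) :=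
      ((continuous_const.mul (continuous_sc.pow 2)).div_const _).measurable
    exact h1.pow_const _
  intro h0
  have h1 : ∫⁻ x, ENNReal.ofReal (low m x) = 0 := by
    refine le_antisymm ?_ bot_le
    rw [← h0]
    exact lintegral_mono fun x => ENNReal.ofReal_le_ofReal (low_le_trPow_Wp i₀ x)
  rw [lintegral_eq_zero_iff hmeas] at h1
  have h2 : ∀ᵐ _x : ℝ, False := by
    filter_upwards [h1] with x hx
    have h3 : ENNReal.ofReal (low m x) = 0 := hx
    rw [ENNReal.ofReal_eq_zero] at h3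
    exact absurd (hpos x) (not_lt.mpr h3)
  have h4 : (volume : Measure ℝ) = 0 := by
    rwa [eventually_false_iff_eq_bot, ae_eq_bot] at h2
  exact Measure.measure_univ_ne_zero.mp (by rw [Real.volume_univ]; exact ENNReal.top_ne_zero) h4

theorem const_eq : (3 / 4 * √(3 / 4)) * (Real.pi / 2) = 3 * √3 * Real.pi / 16 := by
  have h : √(3 / 4 : ℝ) = √3 / 2 := by
    rw [Real.sqrt_div (by norm_num)]
    congr 1
    rw [show (4 : ℝ) = 2 ^ 2 by norm_num, Real.sqrt_sq (by norm_num)]
  rw [h]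
  ring

theorem potInt_Wp_le (i₀ : Fin m) :
    potInt (Wp i₀) (1 + 1 / 2) ≤ ENNReal.ofReal (3 * √3 * Real.pi / 16) := by
  have h1 : ∫ x, (3 / 4 * √(3 / 4)) * sc x ^ 3 = 3 * √3 * Real.pi / 16 := by
    rw [integral_const_mul, integral_sc_cube, const_eq]
  rw [← h1, ofReal_integral_eq_lintegral_ofReal (integrable_sc_cube.const_mul _)]
  · exact lintegral_mono fun x => ENNReal.ofReal_le_ofReal (trPow_Wp_le i₀ x)
  · filter_upwards with x
    have := (sc_pos x).le
    simp only [Pi.zero_apply]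
    positivity

end SharpAux


open SharpAux in
theorem le_LT_one (m : ℕ) (hm : 1 ≤ m) :
    ENNReal.ofReal (4 / (3 * √3 * Real.pi)) ≤ LT 1 m := by
  have i₀ : Fin m := ⟨0, hm⟩
  have hle := potInt_Wp_le i₀
  have hpot : IsPotential 1 (Wp i₀) := by
    refine ⟨fun a b => ?_, posSemidef_Wp i₀, ?_⟩
    · unfold Wp
      by_cases hab : a = b
      · subst hab
        simp only [Matrix.diagonal_apply_eq]
        split_ifs
        · exact (Complex.continuous_ofReal.comp
            (continuous_const.mul (continuous_sc.pow 2))).measurable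
        · exact measurable_const
      · simp only [Matrix.diagonal_apply_ne _ hab]
        exact measurable_const
    · exact (hle.trans_lt ENNReal.ofReal_lt_top).ne
  have h3 : (0 : ℝ) < 3 * √3 * Real.pi / 16 := by positivity
  unfold LT
  refine le_iSup_of_le (Wp i₀) (le_iSup_of_le hpot (le_iSup_of_le (potInt_Wp_ne_zero i₀) ?_))
  have e : 4 / (3 * √3 * Real.pi) = (1 / 4) / (3 * √3 * Real.pi / 16) := by
    have h5 : (√3 : ℝ) ≠ 0 := by positivity
    have h6 := Real.pi_ne_zero
    field_simp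
    norm_num
  rw [e, ENNReal.ofReal_div_of_pos h3]
  exact ENNReal.div_le_div (le_negMoment_Wp i₀) hle

end Vale.Agent.P371
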