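import Vale.Agent.P371.Defs
import Vale.Agent.P371.Alg

/-!
# P371 task H : the pointwise trace Young inequality
-/

open Matrix Finset
open scoped ComplexOrder

namespace Vale.Agent.P371

variable {N m : ℕ}

theorem young_conj_mul_self (z : ℂ) : (starRingEnd ℂ) z * z = ((‖z‖ ^ 2 : ℝ) : ℂ) := by
  rw [mul_comm, Complex.mul_conj, Complex.normSq_eq_norm_sq]

/-- The scalar Young inequality. -/
theorem young_scalar (w r : ℝ) (hr : 0 ≤ r) :
    w * r ≤ (Real.pi ^ 2 / 4) * r ^ 3 + 4 / (3 * √3 * Real.pi) * (max w 0) ^ (3 / 2 : ℝ) := by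
  have hp := Real.pi_pos
  have h3 : 0 < √3 := Real.sqrt_pos.2 (by norm_num)
  have h33 : √3 * √3 = 3 := Real.mul_self_sqrt (by norm_num)
  rcases le_or_gt w 0 with hw | hw
  · have h1 : w * r ≤ 0 := mul_nonpos_of_nonpos_of_nonneg hw hr
    have h2 : 0 ≤ (Real.pi ^ 2 / 4) * r ^ 3 := by positivity
    have h4 : 0 ≤ 4 / (3 * √3 * Real.pi) * (max w 0) ^ (3 / 2 : ℝ) := by positivity
    linarith
  · rw [max_eq_left hw.le]
    obtain ⟨y, hy⟩ : ∃ y, y = √w := ⟨_, rfl⟩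
    have hy0 : 0 < y := by rw [hy]; exact Real.sqrt_pos.2 hw
    have hyw : w = y ^ 2 := by rw [hy, Real.sq_sqrt hw.le]
    have hpow : w ^ (3 / 2 : ℝ) = y ^ 3 := by
      rw [hyw, ← Real.rpow_natCast, ← Real.rpow_mul hy0.le, ← Real.rpow_natCast]
      norm_num
    rw [hpow, hyw]
    obtain ⟨z, hz⟩ : ∃ z, r = 2 / (√3 * Real.pi) * z := by
      refine ⟨r * (√3 * Real.pi) / 2, ?_⟩
      field_simp
    have hz0 : 0 ≤ z := by
      by_contra hcon
      push Not at hcon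
      have : 2 / (√3 * Real.pi) * z < 0 := mul_neg_of_pos_of_neg (by positivity) hcon
      linarith
    have key : 0 ≤ 2 / (3 * √3 * Real.pi) * ((z - y) ^ 2 * (z + 2 * y)) := by positivity
    have e : (Real.pi ^ 2 / 4) * (2 / (√3 * Real.pi) * z) ^ 3 + 4 / (3 * √3 * Real.pi) * y ^ 3 -
        y ^ 2 * (2 / (√3 * Real.pi) * z) =
        2 / (3 * √3 * Real.pi) * ((z - y) ^ 2 * (z + 2 * y)) := by
      have h3c : √3 ^ 3 = 3 * √3 := by
        calc √3 ^ 3 = √3 * √3 * √3 := by ring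
          _ = 3 * √3 := by rw [h33]
      have e1 : (Real.pi ^ 2 / 4) * (2 / (√3 * Real.pi) * z) ^ 3 =
          2 / (3 * √3 * Real.pi) * z ^ 3 := by
        rw [mul_pow, div_pow, mul_pow, h3c]
        field_simp
        ring
      rw [e1]
      field_simp
      ring
    rw [hz]
    linarith

/-- The diagonal of the cube of a Gram matrix. -/
theorem young_gram (C : Matrix (Fin N) (Fin m) ℂ) (i : Fin m) :
    (∑ j, ‖C j i‖ ^ 2) ^ 3 ≤ ((Cᴴ * C * (Cᴴ * C) * (Cᴴ * C)) i i).re := by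
  obtain ⟨G, hG⟩ : ∃ G, G = Cᴴ * C := ⟨_, rfl⟩
  have hGH : Gᴴ = G := by
    rw [hG, conjTranspose_mul, conjTranspose_conjTranspose]
  obtain ⟨r, hr⟩ : ∃ r : ℝ, r = ∑ j, ‖C j i‖ ^ 2 := ⟨_, rfl⟩
  obtain ⟨s, hs⟩ : ∃ s : ℝ, s = ∑ k, ‖G k i‖ ^ 2 := ⟨_, rfl⟩
  obtain ⟨q, hq⟩ : ∃ q : ℝ, q = ∑ j, ‖(C * G) j i‖ ^ 2 := ⟨_, rfl⟩
  have g1 : G i i = (r : ℂ) := by
    rw [hG, mul_apply, hr]
    push_cast
    apply sum_congr rfl
    intro j _
    rw [conjTranspose_apply]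
    have := young_conj_mul_self (C j i)
    push_cast at this
    exact this
  have g2 : (G * G) i i = (s : ℂ) := by
    rw [mul_apply, hs]
    push_cast
    apply sum_congr rfl
    intro j _
    have h1 : G i j = star (G j i) := by
      conv_lhs => rw [← hGH]
      rw [conjTranspose_apply]
    rw [h1]
    have := young_conj_mul_self (G j i)
    push_cast at this
    exact this
  have g3 : (G * G * G) i i = (q : ℂ) := by
    have h1 : G * G * G = (C * G)ᴴ * (C * G) := by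
      rw [conjTranspose_mul, hGH]
      rw [Matrix.mul_assoc G Cᴴ (C * G), ← Matrix.mul_assoc Cᴴ C G, ← hG, ← Matrix.mul_assoc]
    rw [h1, mul_apply, hq]
    push_cast
    apply sum_congr rfl
    intro j _
    rw [conjTranspose_apply]
    have := young_conj_mul_self ((C * G) j i)
    push_cast at this
    exact this
  have hr0 : 0 ≤ r := by rw [hr]; positivity
  have hs0 : 0 ≤ s := by rw [hs]; positivity
  have hq0 : 0 ≤ q := by rw [hq]; positivity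
  have rs : r ^ 2 ≤ s := by
    rw [hs]
    have h1 : ‖G i i‖ ^ 2 ≤ ∑ k, ‖G k i‖ ^ 2 :=
      single_le_sum (f := fun k => ‖G k i‖ ^ 2) (fun k _ => by positivity) (mem_univ i)
    rw [g1] at h1
    simpa [abs_of_nonneg hr0] using h1
  have srq : s ^ 2 ≤ r * q := by
    have h1 : (G * G) i i = ∑ j, star (C j i) * (C * G) j i := by
      have : G * G = Cᴴ * (C * G) := by
        rw [← Matrix.mul_assoc, ← hG]
      rw [this, mul_apply]
      apply sum_congr rfl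
      intro j _
      rw [conjTranspose_apply]
    have h2 : s ≤ ∑ j, ‖C j i‖ * ‖(C * G) j i‖ := by
      calc s = ‖(G * G) i i‖ := by rw [g2]; simp [abs_of_nonneg hs0]
        _ = ‖∑ j, star (C j i) * (C * G) j i‖ := by rw [h1]
        _ ≤ ∑ j, ‖star (C j i) * (C * G) j i‖ := norm_sum_le _ _
        _ = ∑ j, ‖C j i‖ * ‖(C * G) j i‖ := by simp
    have h3 : (∑ j, ‖C j i‖ * ‖(C * G) j i‖) ^ 2 ≤
        (∑ j, ‖C j i‖ ^ 2) * ∑ j, ‖(C * G) j i‖ ^ 2 := sum_mul_sq_le_sq_mul_sq _ _ _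
    calc s ^ 2 ≤ (∑ j, ‖C j i‖ * ‖(C * G) j i‖) ^ 2 := pow_le_pow_left₀ hs0 h2 2
      _ ≤ _ := h3
      _ = r * q := by rw [hr, hq]
  rw [← hG, g3, ← hr, Complex.ofReal_re]
  rcases hr0.eq_or_lt with h0 | h0
  · rw [← h0]
    simpa using hq0
  · have h4 : r ^ 4 ≤ r * q := by
      calc r ^ 4 = (r ^ 2) ^ 2 := by ring
        _ ≤ s ^ 2 := pow_le_pow_left₀ (by positivity) rs 2
        _ ≤ r * q := srq
    have h5 : r * r ^ 3 ≤ r * q := by
      calc r * r ^ 3 = r ^ 4 := by ring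
        _ ≤ _ := h4
    exact le_of_mul_le_mul_left h5 h0

/-- With `Ψ` the `N × m` matrix with rows `u_j ∈ ℂ^m`, `t ≥ 0`:
`∑_j ⟨u_j, (W - t) u_j⟩ ≤ (π²/4) tr (ΨΨ*)³ + 4/(3√3 π) tr (W - t)_+^{3/2}`. -/
theorem young_pointwise (W : Matrix (Fin m) (Fin m) ℂ) (hW : W.PosSemidef)
    (Ψ : Matrix (Fin N) (Fin m) ℂ) (t : ℝ) (ht : 0 ≤ t) :
    (∑ j, ((∑ a, ∑ b, (starRingEnd ℂ) (Ψ j a) * W a b * Ψ j b).re - t * ∑ a, ‖Ψ j a‖ ^ 2)) ≤
      (Real.pi ^ 2 / 4) * (trace (Ψ * Ψᴴ * (Ψ * Ψᴴ) * (Ψ * Ψᴴ))).re +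
        4 / (3 * √3 * Real.pi) * ∑ i, (max (hW.1.eigenvalues i - t) 0) ^ (3 / 2 : ℝ) := by
  obtain ⟨U, hU⟩ : ∃ U : Matrix (Fin m) (Fin m) ℂ, U = (hW.1.eigenvectorUnitary : Matrix _ _ ℂ) :=
    ⟨_, rfl⟩
  obtain ⟨w, hw⟩ : ∃ w : Fin m → ℝ, w = hW.1.eigenvalues := ⟨_, rfl⟩
  have hUU : U * Uᴴ = 1 := by
    rw [hU]
    exact Unitary.coe_mul_star_self _
  have hWU : W = U * diagonal (fun i => ((w i : ℝ) : ℂ)) * Uᴴ := by
    have := hW.1.spectral_theorem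
    rw [Unitary.conjStarAlgAut_apply] at this
    rw [hU, hw]
    exact this
  have hWab : ∀ a b, W a b = ∑ i, U a i * (w i : ℂ) * star (U b i) := by
    intro a b
    conv_lhs => rw [hWU]
    rw [mul_apply]
    apply sum_congr rfl
    intro i _
    rw [mul_diagonal, conjTranspose_apply]
  obtain ⟨C, hC⟩ : ∃ C : Matrix (Fin N) (Fin m) ℂ, C = Ψ * Uᴴᵀ := ⟨_, rfl⟩
  have hCC : C * Cᴴ = Ψ * Ψᴴ := by
    have h1 : Uᴴᵀ * (Uᴴᵀ)ᴴ = 1 := by
      have h2 : (Uᴴᵀ)ᴴ = Uᵀ := by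
        ext a b
        simp
      rw [h2, ← transpose_mul, hUU, transpose_one]
    rw [hC, conjTranspose_mul, Matrix.mul_assoc, ← Matrix.mul_assoc Uᴴᵀ, h1, Matrix.one_mul]
  have hCji : ∀ j i, C j i = ∑ a, Ψ j a * star (U a i) := by
    intro j i
    rw [hC, mul_apply]
    rfl
  have hquad : ∀ j, (∑ a, ∑ b, (starRingEnd ℂ) (Ψ j a) * W a b * Ψ j b) =
      ((∑ i, w i * ‖C j i‖ ^ 2 : ℝ) : ℂ) := by
    intro j
    push_cast
    have h1 : ∀ i, ((‖C j i‖ : ℝ) : ℂ) ^ 2 =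
        (∑ a, (starRingEnd ℂ) (Ψ j a) * U a i) * ∑ b, Ψ j b * star (U b i) := by
      intro i
      have h2 := young_conj_mul_self (C j i)
      push_cast at h2
      rw [← h2, hCji, map_sum]
      congr 1
      apply sum_congr rfl
      intro a _
      simp
    simp_rw [h1, sum_mul_sum, mul_sum, hWab, mul_sum, sum_mul]
    have h3 : ∀ a : Fin m, ∑ b, ∑ i, (starRingEnd ℂ) (Ψ j a) * (U a i * (w i : ℂ) * star (U b i)) * Ψ j b
        = ∑ i, ∑ b, (starRingEnd ℂ) (Ψ j a) * (U a i * (w i : ℂ) * star (U b i)) * Ψ j b :=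
      fun a => sum_comm
    rw [sum_congr rfl (fun a _ => h3 a), sum_comm]
    apply sum_congr rfl
    intro i _
    apply sum_congr rfl
    intro a _
    apply sum_congr rfl
    intro b _
    ring
  have hnorm : ∀ j, ∑ a, ‖Ψ j a‖ ^ 2 = ∑ i, ‖C j i‖ ^ 2 := by
    intro j
    have h1 : ∀ (M : Matrix (Fin N) (Fin m) ℂ), (M * Mᴴ) j j = ((∑ a, ‖M j a‖ ^ 2 : ℝ) : ℂ) := by
      intro M
      rw [mul_apply]
      push_cast
      apply sum_congr rfl
      intro a _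
      rw [conjTranspose_apply, mul_comm]
      have := young_conj_mul_self (M j a)
      push_cast at this
      exact this
    have h2 := h1 Ψ
    rw [← hCC, h1 C] at h2
    exact_mod_cast h2.symm
  have htr : trace (Ψ * Ψᴴ * (Ψ * Ψᴴ) * (Ψ * Ψᴴ)) = trace (Cᴴ * C * (Cᴴ * C) * (Cᴴ * C)) := by
    rw [← hCC]
    have e1 : C * Cᴴ * (C * Cᴴ) * (C * Cᴴ) = C * (Cᴴ * C * (Cᴴ * C) * Cᴴ) := by
      simp only [Matrix.mul_assoc]
    have e2 : Cᴴ * C * (Cᴴ * C) * (Cᴴ * C) = (Cᴴ * C * (Cᴴ * C) * Cᴴ) * C := by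
      simp only [Matrix.mul_assoc]
    rw [e1, e2, trace_mul_comm]
  have hL : (∑ j, ((∑ a, ∑ b, (starRingEnd ℂ) (Ψ j a) * W a b * Ψ j b).re -
      t * ∑ a, ‖Ψ j a‖ ^ 2)) = ∑ i, (w i - t) * ∑ j, ‖C j i‖ ^ 2 := by
    have h1 : ∀ j, ((∑ a, ∑ b, (starRingEnd ℂ) (Ψ j a) * W a b * Ψ j b).re -
      t * ∑ a, ‖Ψ j a‖ ^ 2) = ∑ i, (w i - t) * ‖C j i‖ ^ 2 := by
      intro j
      rw [hquad j, hnorm j, Complex.ofReal_re, mul_sum, ← sum_sub_distrib]
      apply sum_congr rfl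
      intro i _
      ring
    rw [sum_congr rfl (fun j _ => h1 j), sum_comm]
    apply sum_congr rfl
    intro i _
    rw [mul_sum]
  rw [hL, htr, ← hw, trace, Complex.re_sum, mul_sum, mul_sum, ← sum_add_distrib]
  apply sum_le_sum
  intro i _
  have h1 := young_scalar (w i - t) (∑ j, ‖C j i‖ ^ 2) (by positivity)
  have h2 := young_gram C i
  have h3 : (Real.pi ^ 2 / 4) * (∑ j, ‖C j i‖ ^ 2) ^ 3 ≤
      (Real.pi ^ 2 / 4) * ((Cᴴ * C * (Cᴴ * C) * (Cᴴ * C)) i i).re :=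
    mul_le_mul_of_nonneg_left h2 (by positivity)
  rw [diag_apply]
  linarith

end Vale.Agent.P371
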