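import Vale.Agent.P371.Kinetic
import Vale.Agent.P371.Young
import Vale.Agent.P371.ALCore

/-!
# P371 task I/J : upper bounds for the Lieb-Thirring constants
-/

open Matrix Finset MeasureTheory
open scoped ENNReal ComplexOrder

namespace Vale.Agent.P371

variable {m : ℕ}

/-- `Re ⟨v, A v⟩`. -/
noncomputable def pr {m : ℕ} (A : Matrix (Fin m) (Fin m) ℂ) (v : Vec m) : ℝ := (pairing A v v).re

/-- `tr (ΨΨ*)³`. -/
noncomputable def cube {N m : ℕ} (u : Fin N → ℝ → Vec m) (x : ℝ) : ℝ :=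
  (trace (psiMat u x * (psiMat u x)ᴴ * (psiMat u x * (psiMat u x)ᴴ) *
      (psiMat u x * (psiMat u x)ᴴ))).re

theorem IsH1.sq_integrable {u u' : ℝ → Vec m} (h : IsH1 u u') :
    Integrable fun x => ‖u x‖ ^ 2 := h.memLp.integrable_norm_pow (by norm_num)

theorem IsH1.sq_integrable' {u u' : ℝ → Vec m} (h : IsH1 u u') :
    Integrable fun x => ‖u' x‖ ^ 2 := h.memLp_deriv.integrable_norm_pow (by norm_num)

/-- The consequences of the eigenvalue equation tested with the eigenfunction itself. -/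
theorem eigen_test {W : ℝ → Matrix (Fin m) (Fin m) ℂ} {lam : ℝ} (hlam : lam < 0)
    {u u' : ℝ → Vec m} (hu : IsH1 u u') (hn : ∫ x, inner ℂ (u x) (u x) = (1 : ℂ))
    (he : ∀ φ φ' : ℝ → Vec m, IsH1 φ φ' →
      (∫ x, inner ℂ (φ' x) (u' x)) - (∫ x, pairing (W x) (φ x) (u x)) =
        (lam : ℂ) * ∫ x, inner ℂ (φ x) (u x)) :
    Integrable (fun x => pr (W x) (u x)) ∧
      |lam| = (∫ x, pr (W x) (u x)) - ∫ x, ‖u' x‖ ^ 2 := by
  have h1 := he u u' hu
  rw [hn, mul_one] at h1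
  have h2 : ∫ x, inner ℂ (u' x) (u' x) = ((∫ x, ‖u' x‖ ^ 2 : ℝ) : ℂ) := by
    refine Eq.trans ?_ (integral_ofReal (𝕜 := ℂ) (f := fun x => ‖u' x‖ ^ 2))
    refine integral_congr_ae (Filter.Eventually.of_forall fun x => ?_)
    show inner ℂ (u' x) (u' x) = ((‖u' x‖ ^ 2 : ℝ) : ℂ)
    rw [inner_self_eq_norm_sq_to_K]
    push_cast
    rfl
  have hK : 0 ≤ ∫ x, ‖u' x‖ ^ 2 := integral_nonneg fun x => sq_nonneg _
  have h3 : ∫ x, pairing (W x) (u x) (u x) = (((∫ x, ‖u' x‖ ^ 2) - lam : ℝ) : ℂ) := by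
    rw [h2] at h1
    push_cast
    linear_combination -h1
  have hint : Integrable fun x => pairing (W x) (u x) (u x) := by
    by_contra hcon
    rw [integral_undef hcon] at h3
    have h4 : (∫ x, ‖u' x‖ ^ 2) - lam = 0 := by exact_mod_cast h3.symm
    linarith
  refine ⟨hint.re, ?_⟩
  have h5 : ∫ x, pr (W x) (u x) = (∫ x, pairing (W x) (u x) (u x)).re := by
    have := integral_re hint
    exact this
  rw [h5, h3, Complex.ofReal_re, abs_of_neg hlam]
  ring

/-- The main inequality for an orthonormal family. -/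
theorem family_ineq {N : ℕ} {W : ℝ → Matrix (Fin m) (Fin m) ℂ} {lam : Fin N → ℝ}
    {u : Fin N → ℝ → Vec m} (h : IsONEigen W lam u) :
    (∀ j, Integrable fun x => pr (W x) (u j x)) ∧ (∀ j, Integrable fun x => ‖u j x‖ ^ 2) ∧
      (∀ j, ∫ x, ‖u j x‖ ^ 2 = 1) ∧ Integrable (cube u) ∧
      ∑ j, |lam j| ≤ (∑ j, ∫ x, pr (W x) (u j x)) - (Real.pi ^ 2 / 4) * ∫ x, cube u x := by
  obtain ⟨hneg, heig, hon⟩ := h
  choose u' hu' he using heig
  have h1 : ∀ j, _ := fun j => eigen_test (hneg j) (hu' j) (by rw [hon j j, if_pos rfl]) (he j)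
  have h2 := kinetic u u' hu' hon
  refine ⟨fun j => (h1 j).1, fun j => (hu' j).sq_integrable, fun j => ?_,
    integrable_tr_cube u u' hu', ?_⟩
  · have h3 := hon j j
    rw [if_pos rfl] at h3
    have h4 : ∫ x, inner ℂ (u j x) (u j x) = ((∫ x, ‖u j x‖ ^ 2 : ℝ) : ℂ) := by
      refine Eq.trans ?_ (integral_ofReal (𝕜 := ℂ) (f := fun x => ‖u j x‖ ^ 2))
      refine integral_congr_ae (Filter.Eventually.of_forall fun x => ?_)
      show inner ℂ (u j x) (u j x) = ((‖u j x‖ ^ 2 : ℝ) : ℂ)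
      rw [inner_self_eq_norm_sq_to_K]
      push_cast
      rfl
    rw [h4] at h3
    exact_mod_cast h3
  · rw [Finset.sum_congr rfl fun j _ => (h1 j).2, Finset.sum_sub_distrib]
    have : ∫ x, cube u x = ∫ x, (trace (psiMat u x * (psiMat u x)ᴴ *
      (psiMat u x * (psiMat u x)ᴴ) * (psiMat u x * (psiMat u x)ᴴ))).re := rfl
    rw [this]
    linarith

theorem ofReal_integral_le {f : ℝ → ℝ} (hf : Integrable f) :
    ENNReal.ofReal (∫ x, f x) ≤ ∫⁻ x, ENNReal.ofReal (f x) := by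
  rw [integral_eq_lintegral_pos_part_sub_lintegral_neg_part hf]
  refine (ENNReal.ofReal_le_ofReal (sub_le_self _ ENNReal.toReal_nonneg)).trans ?_
  exact ENNReal.ofReal_toReal_le

theorem const_nonneg : (0 : ℝ) ≤ 4 / (3 * √3 * Real.pi) := by positivity

/-- Young's inequality in terms of `pr` and `cube`. -/
theorem young' {N : ℕ} {W : Matrix (Fin m) (Fin m) ℂ} (hW : W.PosSemidef)
    (u : Fin N → ℝ → Vec m) (x t : ℝ) (ht : 0 ≤ t) :
    (∑ j, pr W (u j x)) - t * (∑ j, ‖u j x‖ ^ 2) - (Real.pi ^ 2 / 4) * cube u x ≤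
      4 / (3 * √3 * Real.pi) * ∑ i, (max (hW.1.eigenvalues i - t) 0) ^ (3 / 2 : ℝ) := by
  have h := young_pointwise W hW (psiMat u x) t ht
  have e1 : ∀ j : Fin N, ∑ a, ‖psiMat u x j a‖ ^ 2 = ‖u j x‖ ^ 2 := fun j => by
    rw [EuclideanSpace.norm_sq_eq]; rfl
  have e2 : ∑ j, ((∑ a, ∑ b, (starRingEnd ℂ) (psiMat u x j a) * W a b * psiMat u x j b).re -
      t * ∑ a, ‖psiMat u x j a‖ ^ 2) = (∑ j, pr W (u j x)) - t * ∑ j, ‖u j x‖ ^ 2 := by
    rw [Finset.sum_sub_distrib, ← Finset.mul_sum]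
    congr 1
    congr 1
    exact Finset.sum_congr rfl fun j _ => e1 j
  rw [e2] at h
  unfold cube
  linarith

/-- `L_1(m) ≤ 4/(3√3 π)` -/
theorem LT_one_le (m : ℕ) : LT 1 m ≤ ENNReal.ofReal (4 / (3 * √3 * Real.pi)) := by
  unfold LT
  refine iSup_le fun W => iSup_le fun hW => iSup_le fun h0 => ?_
  refine ENNReal.div_le_of_le_mul ?_
  unfold negMoment
  refine iSup_le fun N => iSup_le fun lam => iSup_le fun u => iSup_le fun hON => ?_
  obtain ⟨hp, hsq, -, hc, hle⟩ := family_ineq hON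
  rw [← ENNReal.ofReal_sum_of_nonneg fun j _ => by positivity]
  simp only [Real.rpow_one]
  have hint : Integrable fun x => (∑ j, pr (W x) (u j x)) - (Real.pi ^ 2 / 4) * cube u x :=
    (integrable_finsetSum _ fun j _ => hp j).sub (hc.const_mul _)
  have h1 : ∑ j, |lam j| ≤ ∫ x, ((∑ j, pr (W x) (u j x)) - (Real.pi ^ 2 / 4) * cube u x) := by
    rw [integral_sub (integrable_finsetSum _ fun j _ => hp j) (hc.const_mul _),
      integral_finsetSum _ fun j _ => hp j, integral_const_mul]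
    exact hle
  refine (ENNReal.ofReal_le_ofReal h1).trans ((ofReal_integral_le hint).trans ?_)
  unfold potInt
  rw [← lintegral_const_mul' _ _ ENNReal.ofReal_ne_top]
  refine lintegral_mono fun x => ?_
  rw [← ENNReal.ofReal_mul const_nonneg]
  refine ENNReal.ofReal_le_ofReal ?_
  have h2 := young' (hW.posSemidef x) u x 0 le_rfl
  rw [zero_mul, sub_zero] at h2
  refine h2.trans (mul_le_mul_of_nonneg_left (le_of_eq ?_) const_nonneg)
  unfold trPow
  rw [dif_pos (hW.posSemidef x).1]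
  refine Finset.sum_congr rfl fun i _ => ?_
  have h3 : 0 ≤ (hW.posSemidef x).1.eigenvalues i := (hW.posSemidef x).eigenvalues_nonneg i
  rw [sub_zero, max_eq_left h3]
  norm_num

/-- Restriction of an orthonormal family to a set of indices. -/
theorem IsONEigen.sub {N : ℕ} {W : ℝ → Matrix (Fin m) (Fin m) ℂ} {lam : Fin N → ℝ}
    {u : Fin N → ℝ → Vec m} (h : IsONEigen W lam u) {K : ℕ} (e : Fin K ↪o Fin N) :
    IsONEigen W (fun k => lam (e k)) (fun k => u (e k)) := by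
  refine ⟨fun k => h.1 _, fun k => h.2.1 _, fun i j => ?_⟩
  rw [h.2.2 (e i) (e j)]
  by_cases hij : i = j
  · rw [if_pos hij, if_pos (by rw [hij])]
  · rw [if_neg hij, if_neg fun h2 => hij (e.injective h2)]

theorem sum_emb {N : ℕ} (J : Finset (Fin N)) (f : Fin N → ℝ) :
    ∑ k, f (J.orderEmbOfFin rfl k) = ∑ j ∈ J, f j := by
  conv_rhs => rw [← Finset.map_orderEmbOfFin_univ J rfl]
  rw [Finset.sum_map]
  rfl

theorem const_eq {γ : ℝ} (hγ : 1 < γ) :
    4 / (3 * √3 * Real.pi) * (bet (γ - 1) (3 / 2) / bet (γ - 1) 1) = 2 / √3 * Lcl γ := by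
  have h0 : Real.Gamma (γ - 1) ≠ 0 := (Real.Gamma_pos_of_pos (by linarith)).ne'
  have h1 : Real.Gamma (γ + 1) ≠ 0 := (Real.Gamma_pos_of_pos (by linarith)).ne'
  have h2 : Real.Gamma (γ + 3 / 2) ≠ 0 := (Real.Gamma_pos_of_pos (by linarith)).ne'
  have h3 : √Real.pi ≠ 0 := (Real.sqrt_pos.mpr Real.pi_pos).ne'
  have h4 : √(3 : ℝ) ≠ 0 := (Real.sqrt_pos.mpr (by norm_num)).ne'
  have h5 : Real.pi = √Real.pi * √Real.pi := (Real.mul_self_sqrt Real.pi_pos.le).symm
  have e1 : γ - 1 + 3 / 2 + 1 = γ + 3 / 2 := by ring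
  have e2 : γ - 1 + 1 + 1 = γ + 1 := by ring
  unfold bet Lcl
  rw [gamma_five_half, e1, e2, show (1 : ℝ) + 1 = 2 by norm_num, Real.Gamma_two]
  have h6 : (4 : ℝ) / (3 * √3 * Real.pi) = 4 / (3 * √3 * (√Real.pi * √Real.pi)) := by
    rw [← h5]
  rw [h6]
  field_simp

/-- Aizenman-Lieb: `L_γ(m) ≤ (2/√3) L^cl_γ` for `γ > 1`. -/
theorem LT_le_of_one_lt (m : ℕ) (γ : ℝ) (hγ : 1 < γ) :
    LT γ m ≤ ENNReal.ofReal (2 / √3 * Lcl γ) := by
  unfold LT
  refine iSup_le fun W => iSup_le fun hW => iSup_le fun h0 => ?_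
  refine ENNReal.div_le_of_le_mul ?_
  unfold negMoment
  refine iSup_le fun N => iSup_le fun lam => iSup_le fun u => iSup_le fun hON => ?_
  have hs : 0 < γ - 1 := by linarith
  have hlpos : ∀ j, 0 < |lam j| := fun j => abs_pos.mpr (hON.1 j).ne
  obtain ⟨hp, hsq, hone, -, -⟩ := family_ineq hON
  set a : Finset (Fin N) → ℝ → ℝ := fun J x => (∑ j ∈ J, pr (W x) (u j x)) -
    (Real.pi ^ 2 / 4) * cube (fun k => u (J.orderEmbOfFin rfl k)) x with ha
  set b : Finset (Fin N) → ℝ → ℝ := fun J x => ∑ j ∈ J, ‖u j x‖ ^ 2 with hb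
  have hfam := fun J : Finset (Fin N) => family_ineq (hON.sub (J.orderEmbOfFin rfl))
  have hpJ : ∀ J : Finset (Fin N), Integrable fun x => ∑ j ∈ J, pr (W x) (u j x) := fun J =>
    integrable_finsetSum _ fun j _ => hp j
  have haI : ∀ J, Integrable (a J) := fun J =>
    (hpJ J).sub ((hfam J).2.2.2.1.const_mul _)
  have hbI : ∀ J, Integrable (b J) := fun J => integrable_finsetSum _ fun j _ => hsq j
  have h1 : ∀ J, ∑ j ∈ J, |lam j| ≤ ∫ x, a J x := by
    intro J
    have h2 := (hfam J).2.2.2.2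
    rw [sum_emb J fun j => |lam j|, sum_emb J fun j => ∫ x, pr (W x) (u j x)] at h2
    rw [ha]
    beta_reduce
    rw [integral_sub (hpJ J) ((hfam J).2.2.2.1.const_mul _),
      integral_finsetSum _ fun j _ => hp j, integral_const_mul]
    exact h2
  have h2 : ∀ J, ∫ x, b J x = J.card := by
    intro J
    rw [hb]
    beta_reduce
    rw [integral_finsetSum _ fun j _ => hsq j, Finset.sum_congr rfl fun j _ => hone j]
    simp
  obtain ⟨G, hG, hG1, hG2⟩ := al_core (fun j => |lam j|) hlpos hs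
    (T := ∑ j, |lam j|) (fun j => Finset.single_le_sum (f := fun j => |lam j|)
      (fun i _ => abs_nonneg _) (Finset.mem_univ j))
    (Finset.sum_nonneg fun i _ => abs_nonneg _) a b haI hbI h1 h2
    (fun x i => (hW.posSemidef x).1.eigenvalues i)
    (fun x i => (hW.posSemidef x).eigenvalues_nonneg i) const_nonneg
    (fun J x t ht => by
      have h3 := young' (hW.posSemidef x) (fun k => u (J.orderEmbOfFin rfl k)) x t ht
      rw [sum_emb J fun j => pr (W x) (u j x), sum_emb J fun j => ‖u j x‖ ^ 2] at h3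
      rw [ha, hb]
      beta_reduce
      linarith)
  have hB : 0 < bet (γ - 1) 1 := bet_pos hs zero_le_one
  rw [← ENNReal.ofReal_sum_of_nonneg fun j _ => by positivity]
  have e1 : γ - 1 + 1 = γ := by ring
  have e2 : γ - 1 + 3 / 2 = γ + 1 / 2 := by ring
  rw [e1] at hG1
  have h4 : ∑ j, |lam j| ^ γ ≤ ∫ x, G x / bet (γ - 1) 1 := by
    rw [integral_div, le_div_iff₀ hB, mul_comm]
    exact hG1
  refine (ENNReal.ofReal_le_ofReal h4).trans ((ofReal_integral_le (hG.div_const _)).trans ?_)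
  unfold potInt
  rw [← lintegral_const_mul' _ _ ENNReal.ofReal_ne_top]
  refine lintegral_mono fun x => ?_
  have hK : 0 ≤ 2 / √3 * Lcl γ := by
    rw [← const_eq hγ]
    exact mul_nonneg const_nonneg (div_nonneg (bet_pos hs (by norm_num)).le hB.le)
  rw [← ENNReal.ofReal_mul hK]
  refine ENNReal.ofReal_le_ofReal ?_
  have h5 := hG2 x
  rw [e2] at h5
  have h6 : trPow (W x) (γ + 1 / 2) = ∑ i, (hW.posSemidef x).1.eigenvalues i ^ (γ + 1 / 2) := by
    unfold trPow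
    rw [dif_pos (hW.posSemidef x).1]
  rw [h6, ← const_eq hγ, div_le_iff₀ hB]
  refine h5.trans (le_of_eq ?_)
  field_simp

end Vale.Agent.P371
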